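import Vale.Agent.P043.Sudoku
import Mathlib.Data.ZMod.Basic
import Mathlib.Algebra.BigOperators.Fin
import Mathlib.Algebra.Group.Prod

/-!
The Sudoku puzzle as a system of Boolean functions on the square lattice.
-/

namespace Vale.Agent.P043

/-- The Boolean variables: one-hot digits in eight columns and three markers. -/
abbrev I : Type := (Fin 8 × Fin 64) ⊕ Fin 3

/-- The direction along which each variable is constant. -/
def dir : I → ℤ × ℤ
  | Sum.inl p => (-(p.1 : ℕ), 1)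
  | Sum.inr k => if k = 0 then (1, 0) else if k = 1 then (0, 1) else (1, 1)

def bz (b : Bool) : ℤ := if b then 1 else 0

/-- The digit in column `n`. -/
def dec (ω : I → Bool) (n : ℕ) : ℤ :=
  if h : n < 8 then ∑ σ : Fin 64, if ω (Sum.inl (⟨n, h⟩, σ)) then ((σ : ℕ) : ℤ) else 0 else 0

/-- The allowed patterns. -/
def Om (ω : I → Bool) : Prop :=
  (bz (ω (Sum.inr 0)) + bz (ω (Sum.inr 1)) + bz (ω (Sum.inr 2))) % 2 = 1 ∧
  ∃ a b : ℤ, (a % 2 = 1 ∨ b % 2 = 1) ∧
    ((bz (ω (Sum.inr 0)) = 1 ∨ bz (ω (Sum.inr 1)) = 1) →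
      a % 2 = bz (ω (Sum.inr 0)) ∧ b % 2 = bz (ω (Sum.inr 1))) ∧
    ∀ n < 8, Rel (dec ω n) (a * n + b)

lemma inv_zsmul {α : Type*} {f : ℤ × ℤ → α} {v : ℤ × ℤ} (h : ∀ x, f (x - v) = f x) (x : ℤ × ℤ)
    (k : ℤ) : f (x + k • v) = f x := by
  induction k using Int.induction_on with
  | zero => simp
  | succ k ih => rw [← h, add_smul, one_smul, ← add_assoc, add_sub_cancel_right, ih]
  | pred k ih => rw [sub_smul, one_smul, ← add_sub_assoc, h, ih]

lemma alt_zsmul {f : ℤ × ℤ → Bool} {v : ℤ × ℤ} (h : ∀ x, f (x - v) = !f x) (x : ℤ × ℤ)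
    (k : ℤ) : bz (f (x + k • v)) = (k + bz (f x)) % 2 := by
  have hb : ∀ b : Bool, bz (!b) = (bz b + 1) % 2 := by decide
  have hb' : ∀ b : Bool, bz b = 0 ∨ bz b = 1 := by decide
  induction k using Int.induction_on with
  | zero => rcases hb' (f x) with h | h <;> simp [h]
  | succ k ih =>
    have := h (x + ((k : ℤ) + 1) • v)
    rw [add_smul, one_smul, ← add_assoc, add_sub_cancel_right] at this
    rw [this, hb] at ih
    rw [add_smul, one_smul, ← add_assoc]
    rcases hb' (f (x + (k : ℤ) • v + v)) with h | h <;> omega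
  | pred k ih =>
    rw [sub_smul, one_smul, ← add_sub_assoc, h, hb, ih]
    omega

theorem board_aperiodic (W : ℤ × ℤ → I → Bool) (a : ℤ × ℤ → ZMod 2) (hO : ∀ x, Om (W x))
    (hinv : ∀ i x, W (x - dir i) i = W x i)
    (hs : ∀ k x, a x - a (x - dir (Sum.inr k)) = if W x (Sum.inr k) then 1 else 0)
    {M : ℕ} (hM : 0 < M) (hper : ∀ x, W (x + ((M : ℤ), 0)) = W x) : False := by
  have d0 : dir (Sum.inr 0) = (1, 0) := rfl
  have d1 : dir (Sum.inr 1) = (0, 1) := rfl
  have d2 : dir (Sum.inr 2) = (1, 1) := rfl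
  have key : ∀ b0 b1 b2 b : Bool, (bz b0 + bz b1 + bz b2) % 2 = 1 →
      (if b2 then (1 : ZMod 2) else 0) = (if b0 then 1 else 0) + (if b then 1 else 0) →
      b = !b1 := by decide
  have alt1 : ∀ x, W (x - (1, 0)) (Sum.inr 1) = !W x (Sum.inr 1) := by
    intro x
    refine key (W x (Sum.inr 0)) _ (W x (Sum.inr 2)) _ (hO x).1 ?_
    rw [← hs, ← hs, ← hs, d0, d1, d2, sub_sub x]
    simp
  have alt0 : ∀ x, W (x - (0, 1)) (Sum.inr 0) = !W x (Sum.inr 0) := by
    intro x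
    refine key (W x (Sum.inr 1)) _ (W x (Sum.inr 2)) _ (by have := (hO x).1; omega) ?_
    rw [← hs, ← hs, ← hs, d0, d1, d2, sub_sub x]
    simp
  obtain ⟨u, hu⟩ : ∃ u, u = bz (W (0, 0) (Sum.inr 0)) := ⟨_, rfl⟩
  obtain ⟨w, hw⟩ : ∃ w, w = bz (W (0, 0) (Sum.inr 1)) := ⟨_, rfl⟩
  have z0 : ∀ i j : ℤ, bz (W (i, j) (Sum.inr 0)) = (j + u) % 2 := by
    intro i j
    have h1 := inv_zsmul (f := fun x => W x (Sum.inr 0)) (hinv _) (0, j) i
    have h2 := alt_zsmul (f := fun x => W x (Sum.inr 0)) alt0 (0, 0) j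
    simp only [d0, Prod.smul_mk, smul_eq_mul, mul_one, mul_zero, Prod.mk_add_mk, zero_add,
      add_zero] at h1 h2
    rw [h1, h2, hu]
  have z1 : ∀ i j : ℤ, bz (W (i, j) (Sum.inr 1)) = (i + w) % 2 := by
    intro i j
    have h1 := inv_zsmul (f := fun x => W x (Sum.inr 1)) (hinv _) (i, 0) j
    have h2 := alt_zsmul (f := fun x => W x (Sum.inr 1)) alt1 (0, 0) i
    simp only [d1, Prod.smul_mk, smul_eq_mul, mul_one, mul_zero, Prod.mk_add_mk, zero_add,
      add_zero] at h1 h2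
    rw [h1, h2, hw]
  have hdec : ∀ (i j : ℤ) (n : ℕ), dec (W (i, j)) n = dec (W (i + j * n, 0)) n := by
    intro i j n
    unfold dec
    split_ifs with h
    · refine Finset.sum_congr rfl fun σ _ => ?_
      have h1 := inv_zsmul (f := fun x => W x (Sum.inl (⟨n, h⟩, σ))) (hinv _) (i + j * n, 0) j
      simp only [dir, Prod.smul_mk, smul_eq_mul, mul_neg, mul_one, Prod.mk_add_mk,
        add_neg_cancel_right, zero_add] at h1
      rw [h1]
    · rfl
  have hS : Sol fun n m => dec (W (m, 0)) n := by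
    intro i j
    obtain ⟨-, a, b, hab, -, h⟩ := hO (i, j)
    exact ⟨a, b, hab, fun n hn => by simpa only [hdec i j] using h n hn⟩
  refine no_periodic M _ hM (hS.shear u w) ?_ fun n m => ?_
  · intro i j hij
    obtain ⟨-, a, b, -, hp, h⟩ := hO (i - w, j - u)
    rw [z0, z1, sub_add_cancel, sub_add_cancel] at hp
    refine ⟨a, b, (hp hij).1, (hp hij).2, fun n hn => ?_⟩
    have := h n hn
    rwa [hdec, show i - w + (j - u) * n = i + j * n - u * n - w by ring] at this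
  · have := hper (m - u * n - w, 0)
    simp only [Prod.mk_add_mk, add_zero] at this
    rw [← this]
    congr 3; ring

/-- The intended solution. -/
def W0 (x : ℤ × ℤ) : I → Bool
  | Sum.inl p => decide (((p.2 : ℕ) : ℤ) = op (x.1 + x.2 * (p.1 : ℕ)) % 64)
  | Sum.inr k => if k = 0 then decide (x.2 % 2 = 1) else if k = 1 then decide (x.1 % 2 = 1)
      else decide ((x.1 + x.2) % 2 = 0)

def a0 (x : ℤ × ℤ) : ZMod 2 := ((x.1 * x.2 : ℤ) : ZMod 2)

lemma W0_inl (x : ℤ × ℤ) (p : Fin 8 × Fin 64) : W0 x (Sum.inl p) =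
    decide (((p.2 : ℕ) : ℤ) = op (x.1 + x.2 * (p.1 : ℕ)) % 64) := rfl
lemma W0_0 (x : ℤ × ℤ) : W0 x (Sum.inr 0) = decide (x.2 % 2 = 1) := rfl
lemma W0_1 (x : ℤ × ℤ) : W0 x (Sum.inr 1) = decide (x.1 % 2 = 1) := rfl
lemma W0_2 (x : ℤ × ℤ) : W0 x (Sum.inr 2) = decide ((x.1 + x.2) % 2 = 0) := rfl

lemma bz_decide (m : ℤ) : bz (decide (m % 2 = 1)) = m % 2 := by
  rcases Int.emod_two_eq_zero_or_one m with h | h <;> simp [h, bz]

lemma W0_om (x : ℤ × ℤ) : Om (W0 x) := by
  obtain ⟨i, j⟩ := x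
  have e0 : bz (W0 (i, j) (Sum.inr 0)) = j % 2 := bz_decide j
  have e1 : bz (W0 (i, j) (Sum.inr 1)) = i % 2 := bz_decide i
  have e2 : bz (W0 (i, j) (Sum.inr 2)) = (i + j + 1) % 2 := by
    rw [← bz_decide]
    congr 1
    rw [W0_2, decide_eq_decide]
    omega
  refine ⟨by omega, ?_⟩
  obtain ⟨a, b, hab, hp, h⟩ := sol_op i j
  refine ⟨a, b, hab, fun hh => ?_, fun n hn => ?_⟩
  · rw [e0, e1] at hh ⊢
    obtain ⟨rfl, rfl⟩ := hp hh
    exact ⟨rfl, rfl⟩
  · convert h n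
    unfold dec
    rw [dif_pos hn]
    have hlt : (op (i + j * n) % 64).toNat < 64 := by omega
    rw [Finset.sum_eq_single ⟨_, hlt⟩]
    · rw [if_pos (by rw [W0_inl, decide_eq_true_eq]; simp only; omega)]
      simp only
      omega
    · intro σ _ hσ
      rw [if_neg]
      rw [W0_inl, decide_eq_true_eq]
      simp only
      intro h
      apply hσ
      ext
      simp only
      omega
    · simp

lemma W0_inv (i : I) (x : ℤ × ℤ) : W0 (x - dir i) i = W0 x i := by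
  obtain ⟨a, b⟩ := x
  rcases i with ⟨n, σ⟩ | k
  · rw [W0_inl, W0_inl, decide_eq_decide]
    simp only [dir, Prod.mk_sub_mk]
    rw [show a - -((n : ℕ) : ℤ) + (b - 1) * (n : ℕ) = a + b * (n : ℕ) by ring]
  · have : k = 0 ∨ k = 1 ∨ k = 2 := by omega
    rcases this with rfl | rfl | rfl
    · rw [W0_0, W0_0, decide_eq_decide, show dir (Sum.inr 0) = (1, 0) from rfl]; simp
    · rw [W0_1, W0_1, decide_eq_decide, show dir (Sum.inr 1) = (0, 1) from rfl]; simp
    · rw [W0_2, W0_2, decide_eq_decide, show dir (Sum.inr 2) = (1, 1) from rfl]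
      simp only [Prod.mk_sub_mk]
      omega

lemma cast_two (m : ℤ) : (m : ZMod 2) = if decide (m % 2 = 1) then 1 else 0 := by
  rw [← ZMod.intCast_mod m 2]
  rcases Int.emod_two_eq_zero_or_one m with h | h <;> simp [h]

lemma a0_slope (k : Fin 3) (x : ℤ × ℤ) :
    a0 x - a0 (x - dir (Sum.inr k)) = if W0 x (Sum.inr k) then 1 else 0 := by
  obtain ⟨a, b⟩ := x
  have : k = 0 ∨ k = 1 ∨ k = 2 := by omega
  rcases this with rfl | rfl | rfl
  · have : W0 (a, b) (Sum.inr 0) = decide (b % 2 = 1) := rfl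
    rw [this, ← cast_two, show dir (Sum.inr 0) = (1, 0) from rfl]
    simp [a0]; ring
  · have : W0 (a, b) (Sum.inr 1) = decide (a % 2 = 1) := rfl
    rw [this, ← cast_two, show dir (Sum.inr 1) = (0, 1) from rfl]
    simp [a0]; ring
  · have : W0 (a, b) (Sum.inr 2) = decide ((a + b - 1) % 2 = 1) := by
      rw [W0_2, decide_eq_decide]
      omega
    rw [this, ← cast_two, show dir (Sum.inr 2) = (1, 1) from rfl]
    simp [a0]; ring

end Vale.Agent.P043
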