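import Vale.Agent.P043.Carrier
import Mathlib.Tactic.DeriveFintype
import Mathlib.Tactic.Module

/-!
The Boolean system used in dimension three, and the proof that it has no periodic solution.
-/

namespace Vale.Agent.P043

/-- The state of a column: a digit and the parity of the cell. -/
abbrev St : Type := Fin 64 × Bool

/-- The Boolean functions attached to a column. -/
inductive BB (k : ℕ) : Type
  | zs (c : Fin (8 * 2 ^ k))
  | zr (c : Fin (8 * 2 ^ k))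
  | zd (b : Bool)
  | kap (b : Bool)
  | pi (f : Option St) (r : Fin (4 * 2 ^ k))
  | eta (f : Option St) (r : Fin (4 * 2 ^ k))
  | lam (s : St)
  | dg (σ : Fin 64)
  deriving DecidableEq, Fintype

def r0 (k : ℕ) : Fin (4 * 2 ^ k) := ⟨0, by positivity⟩
def r1 (k : ℕ) : Fin (4 * 2 ^ k) := ⟨1, by have := Nat.one_le_two_pow (n := k); omega⟩

/-- The facts on the ring of integers modulo a power of two that are used. -/
structure TwoRing (k : ℕ) (R : Type) [CommRing R] where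
  par : R →+* ZMod 2
  h4 : (4 * (2 * 2 ^ k) : R) = 0
  hne : (2 * (2 * 2 ^ k) : R) ≠ 0
  unit : ∀ c, par c = 1 → IsUnit c
  even : ∀ c, par c = 0 → ∃ δ, c = 2 * δ
  surj : ∀ c : R, ∃ l : ℤ, (l : R) = c

variable {k : ℕ} {R : Type} [CommRing R] (Z : TwoRing k R)

/-- The sites where the slopes are one. -/
def kp (c d : R) : Prop := Z.par c = 1 ∨ (2 * c = 2 * (2 * 2 ^ k) ∧ Z.par d = 1)

def Rest (qv : Option St → ℕ) (n : ℕ) (c d : R) (w : BB k → Prop) : Prop :=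
  (Z.par (c + d) = 0 → w (.zd true)) ∧ (Z.par (c + d) = 1 → w (.zd false)) ∧
  (kp Z c d → w (.kap true)) ∧ (¬ kp Z c d → w (.kap false)) ∧
  (∀ f, ∃ r : Fin (4 * 2 ^ k), (r : ℕ) < qv f ∧ w (.pi f r)) ∧
  (2 * c = 0 → 2 * d = 0 → ∀ f r, w (.pi f r) → w (.eta f r)) ∧
  (∃ σ, w (.dg σ)) ∧
  (2 * c = 0 → 2 * (d - 1) = 0 → ∀ σ ε, w (.dg σ) →
    (ε = true ↔ d + n * c - 1 = 2 * (2 * 2 ^ k)) →
    ((w (.pi none (r0 k)) ∧ w (.pi (some (σ, ε)) (r0 k))) ∨
      (¬ w (.pi none (r0 k)) ∧ w (.pi (some (σ, ε)) (r1 k)))) → w (.lam (σ, ε)))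

/-- The private relation of column `n`. -/
def Lg (qv : Option St → ℕ) (n : ℕ) (w : BB k → Prop) : Prop :=
  ∃ c d : Fin (8 * 2 ^ k), w (.zs c) ∧ w (.zr d) ∧ Rest Z qv n ((c : ℕ) : R) ((d : ℕ) : R) w

/-- The relation between the states of the eight columns. -/
def Om3 (s : Fin 8 → St) : Prop :=
  ∃ a b : ℤ, (a % 2 = 1 ∨ b % 2 = 1) ∧
    ((bz (s 0).2 = 1 ∨ bz (s 1).2 = 1) → b % 2 = bz (s 0).2 ∧ (a + b) % 2 = bz (s 1).2) ∧
    ∀ n : Fin 8, Rel (((s n).1 : ℕ) : ℤ) (a * (n : ℕ) + b)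

/-- The constraints. -/
structure Sys3 (qv : Fin 8 → Option St → ℕ) (U : Type) [AddCommGroup U] where
  e1 : U
  e2 : U
  E : Fin 8 → Option St → U
  T : Fin 8 → U
  a : U → R
  b : ∀ n f, U → ZMod (qv n f)
  W : Fin 8 → BB k → U → Prop
  ia1 : ∀ n f u, a (u - E n f) = a u
  ia2 : ∀ n u, a (u - T n) = a u
  izs : ∀ n c u, W n (.zs c) (u - e1) ↔ W n (.zs c) u
  izr : ∀ n c u, W n (.zr c) (u - e2) ↔ W n (.zr c) u
  ms : ∀ n c u, W n (.zs c) u → a u - a (u - e1) = ((c : ℕ) : R)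
  mr : ∀ n c u, W n (.zr c) u → a u - a (u - e2) = ((c : ℕ) : R)
  md : ∀ n x u, W n (.zd x) u → Z.par (a u - a (u - (e1 + e2))) = if x then 1 else 0
  mq : ∀ n x f u, W n (.kap x) u → b n f u - b n f (u - E n f) = if x then 1 else 0
  mt : ∀ n s u, W n (.kap true) u → b n (some s) u - b n (some s) (u - T n) = 0
  me : ∀ n f r u, W n (.eta f r) u → b n f u - b n f (u - (((r : ℕ) : ℤ) • e1 + e2)) = 0
  ml : ∀ n s u, W n (.lam s) u →
    b n (some s) u - b n (some s) (u - (2 * 2 ^ k : ℤ) • (e2 - ((n : ℕ) : ℤ) • e1)) = 0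
  ipi1 : ∀ n f r u, W n (.pi f r) (u - e1) ↔ W n (.pi f r) u
  ipi2 : ∀ n r u, W n (.pi none r) (u - (E n none - T n)) ↔ W n (.pi none r) u
  ipi3 : ∀ n s r u, W n (.pi none r) (u - E n (some s)) ↔ W n (.pi none r) u
  ipi4 : ∀ n s r u, W n (.pi (some s) r) (u - T n) ↔ W n (.pi (some s) r) u
  idg1 : ∀ n σ u, W n (.dg σ) (u - (e2 - ((n : ℕ) : ℤ) • e1)) ↔ W n (.dg σ) u
  idg2 : ∀ n σ f u, W n (.dg σ) (u - E n f) ↔ W n (.dg σ) u
  idg3 : ∀ n σ u, W n (.dg σ) (u - T n) ↔ W n (.dg σ) u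
  ib : ∀ n s n', n' ≠ n → ∀ u, b n (some s) (u - T n') = b n (some s) u
  logic : ∀ n u, Lg Z (qv n) n fun β => W n β u
  cross : ∀ s : Fin 8 → St, ¬ Om3 s →
    ∀ u, ∃ n, b n (some (s n)) u - b n (some (s n)) (u - T n) = 0

namespace TwoRing

lemma par_two : Z.par 2 = 0 := by
  rw [map_ofNat]; rfl

lemma par_cases (c : R) : Z.par c = 0 ∨ Z.par c = 1 := by
  generalize Z.par c = x
  revert x; decide

lemma par_of_two_mul {c : R} (h : 2 * c = 0) : Z.par c = 0 := by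
  refine (Z.par_cases c).resolve_right fun h1 => Z.hne ?_
  have h2 : (2 : R) = 0 := (Z.unit c h1).mul_left_eq_zero.1 h
  rw [h2, zero_mul]

lemma mul_odd {c : R} (h : Z.par c = 1) : 2 * (2 * 2 ^ k) * c = 2 * (2 * 2 ^ k) := by
  obtain ⟨δ, hδ⟩ := Z.even (c - 1) (by rw [map_sub, h, map_one, sub_self])
  linear_combination (2 * (2 * 2 ^ k)) * hδ + δ * Z.h4

lemma mul_even {c : R} (h : Z.par c = 0) : 2 * (2 * 2 ^ k) * c = 0 := by
  obtain ⟨δ, hδ⟩ := Z.even c h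
  linear_combination (2 * (2 * 2 ^ k)) * hδ + δ * Z.h4

lemma par_int (m : ℤ) : Z.par (m : R) = if decide (m % 2 = 1) then 1 else 0 := by
  rw [map_intCast, cast_two]

end TwoRing

lemma iff_zsmul {U : Type*} [AddCommGroup U] {p : U → Prop} {v : U} (h : ∀ x, p (x - v) ↔ p x)
    (x : U) (k : ℤ) : p (x + k • v) ↔ p x :=
  iff_of_eq (inv_zsmul' (f := p) (fun x => propext (h x)) x k)

namespace Sys3

variable {Z} {qv : Fin 8 → Option St → ℕ} {U : Type} [AddCommGroup U] (S : Sys3 Z qv U)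

def sg (u : U) : R := S.a u - S.a (u - S.e1)
def rh (u : U) : R := S.a u - S.a (u - S.e2)
def gm (u : U) : R := S.sg u - S.sg (u - S.e2)

lemma rest (n : Fin 8) (u : U) : Rest Z (qv n) n (S.sg u) (S.rh u) fun β => S.W n β u := by
  obtain ⟨c, d, hc, hd, h⟩ := S.logic n u
  rwa [← S.ms n c u hc, ← S.mr n d u hd] at h

lemma sg_e1 (u : U) : S.sg (u - S.e1) = S.sg u := by
  obtain ⟨c, d, hc, -, -⟩ := S.logic 0 u
  exact (S.ms 0 c _ ((S.izs 0 c u).2 hc)).trans (S.ms 0 c u hc).symm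

lemma rh_e2 (u : U) : S.rh (u - S.e2) = S.rh u := by
  obtain ⟨c, d, -, hd, -⟩ := S.logic 0 u
  exact (S.mr 0 d _ ((S.izr 0 d u).2 hd)).trans (S.mr 0 d u hd).symm

lemma gm_eq (u : U) : S.gm u = S.rh u - S.rh (u - S.e1) := by
  simp only [gm, sg, rh, sub_right_comm u S.e2 S.e1]; ring

lemma gm_e1 (u : U) : S.gm (u - S.e1) = S.gm u := by
  simp only [gm, sub_right_comm u S.e1 S.e2, sg_e1]

lemma gm_e2 (u : U) : S.gm (u - S.e2) = S.gm u := by
  simp only [gm_eq, sub_right_comm u S.e2 S.e1, rh_e2]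

lemma par_gm (u : U) : Z.par (S.gm u) = 1 := by
  have e : S.a u - S.a (u - (S.e1 + S.e2)) = S.sg u + S.rh u - S.gm u := by
    rw [gm_eq]; simp only [sg, rh, sub_add_eq_sub_sub]; ring
  have key : ∀ x y : ZMod 2, (x = 0 → x - y = 1) → (x = 1 → x - y = 0) → y = 1 := by decide
  refine key (Z.par (S.sg u + S.rh u)) _ (fun h => ?_) fun h => ?_
  · have := S.md 0 true u ((S.rest 0 u).1 h)
    rwa [e, map_sub] at this
  · have := S.md 0 false u ((S.rest 0 u).2.1 h)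
    rwa [e, map_sub] at this

lemma gm_add (u : U) (I J : ℤ) : S.gm (u + I • S.e1 + J • S.e2) = S.gm u := by
  rw [inv_zsmul' S.gm_e2, inv_zsmul' S.gm_e1]

lemma sg_add (u : U) (I J : ℤ) : S.sg (u + I • S.e1 + J • S.e2) = S.sg u + J * S.gm u := by
  rw [slope_zsmul (f := S.sg) (c := S.gm u) (fun j => S.gm_add u I j), inv_zsmul' S.sg_e1]

lemma rh_add (u : U) (I J : ℤ) : S.rh (u + I • S.e1 + J • S.e2) = S.rh u + I * S.gm u := by
  rw [inv_zsmul' S.rh_e2]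
  refine slope_zsmul (f := S.rh) (c := S.gm u) (fun j => ?_) I
  rw [← gm_eq, inv_zsmul' S.gm_e1]

lemma sg_inv {g : U} (h : ∀ u, S.a (u - g) = S.a u) (u : U) (j : ℤ) :
    S.sg (u + j • g) = S.sg u := by
  refine inv_zsmul' (fun u => ?_) u j
  simp only [sg, sub_right_comm u g, h]

lemma rh_inv {g : U} (h : ∀ u, S.a (u - g) = S.a u) (u : U) (j : ℤ) :
    S.rh (u + j • g) = S.rh u := by
  refine inv_zsmul' (fun u => ?_) u j
  simp only [rh, sub_right_comm u g, h]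

lemma slope (n : Fin 8) (f : Option St) {u : U} (h : kp Z (S.sg u) (S.rh u)) (j : ℤ) :
    S.b n f (u + j • S.E n f) = S.b n f u + j := by
  have := slope_zsmul (f := S.b n f) (v := S.E n f) (c := 1) (x := u) (fun j => by
    have := S.mq n true f _ ((S.rest n (u + j • S.E n f)).2.2.1
      (by rwa [S.sg_inv (S.ia1 n f), S.rh_inv (S.ia1 n f)]))
    simpa using this) j
  simpa using this

lemma flat (n : Fin 8) (f : Option St) {u : U} (h : 2 * S.sg u = 0) (j : ℤ) :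
    S.b n f (u + j • S.E n f) = S.b n f u := by
  have hk : ¬ kp Z (S.sg u) (S.rh u) := by
    rintro (h1 | ⟨h1, -⟩)
    · rw [Z.par_of_two_mul h] at h1
      exact zero_ne_one h1
    · exact Z.hne (h1 ▸ h)
  have := slope_zsmul (f := S.b n f) (v := S.E n f) (c := 0) (x := u) (fun j => by
    have := S.mq n false f _ ((S.rest n (u + j • S.E n f)).2.2.2.1
      (by rwa [S.sg_inv (S.ia1 n f), S.rh_inv (S.ia1 n f)]))
    simpa using this) j
  simpa using this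

lemma pi_center (n : Fin 8) (f : Option St) (r : Fin (4 * 2 ^ k)) {u : U} (h1 : 2 * S.sg u = 0)
    (h2 : 2 * S.rh u = 0) {j : ℤ} (h : S.W n (.pi f r) (u + j • S.E n f)) :
    (j : ZMod (qv n f)) = S.b n f u - S.b n f (u - (((r : ℕ) : ℤ) • S.e1 + S.e2)) := by
  have h3 := S.me n f r _ ((S.rest n (u + j • S.E n f)).2.2.2.2.2.1
    (by rwa [S.sg_inv (S.ia1 n f)]) (by rwa [S.rh_inv (S.ia1 n f)]) f r h)
  rw [add_sub_right_comm, S.flat n f h1, S.slope n f] at h3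
  · linear_combination -h3
  · left
    rw [show u - (((r : ℕ) : ℤ) • S.e1 + S.e2) = u + (-((r : ℕ) : ℤ)) • S.e1 + (-1 : ℤ) • S.e2 by
      module, sg_add, map_add, map_mul, Z.par_of_two_mul h1, par_gm]
    simp

lemma pi_uniq (n : Fin 8) (f : Option St) (r : Fin (4 * 2 ^ k)) {u : U} (h1 : 2 * S.sg u = 0)
    {j j' : ℤ} (h : S.W n (.pi f r) (u + j • S.E n f)) (h' : S.W n (.pi f r) (u + j' • S.E n f)) :
    (j : ZMod (qv n f)) = j' := by
  obtain ⟨g, hg⟩ := (Z.unit _ (S.par_gm u)).exists_left_inv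
  obtain ⟨l, hl⟩ := Z.surj (-S.rh u * g)
  have a1 : 2 * S.sg (u + l • S.e1) = 0 := by rwa [inv_zsmul' S.sg_e1]
  have a2 : 2 * S.rh (u + l • S.e1) = 0 := by
    have := S.rh_add u l 0
    rw [zero_smul, add_zero] at this
    rw [this, hl]
    linear_combination (-2 * S.rh u) * hg
  rw [← iff_zsmul (S.ipi1 n f r) _ l, add_right_comm] at h h'
  rw [S.pi_center n f r a1 a2 h, S.pi_center n f r a1 a2 h']

variable [hq : ∀ n f, Fact (1 < qv n f)]

lemma pi_exists (hq' : ∀ n f, qv n f ≤ 4 * 2 ^ k) (n : Fin 8) (f : Option St) {u : U}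
    (h1 : 2 * S.sg u = 0) : ∃ j j' : ℤ, S.W n (.pi f (r0 k)) (u + j • S.E n f) ∧
      S.W n (.pi f (r1 k)) (u + j' • S.E n f) ∧ (j : ZMod (qv n f)) ≠ j' := by
  choose r hr hw using fun j : Fin (qv n f) =>
    (S.rest n (u + ((j : ℕ) : ℤ) • S.E n f)).2.2.2.2.1 f
  have hc : ∀ j j' : Fin (qv n f), (((j : ℕ) : ℤ) : ZMod (qv n f)) = ((j' : ℕ) : ℤ) → j = j' := by
    intro j j' h
    simp only [Int.cast_natCast] at h
    have := (ZMod.natCast_eq_natCast_iff' _ _ _).1 h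
    rw [Nat.mod_eq_of_lt j.2, Nat.mod_eq_of_lt j'.2] at this
    exact Fin.ext this
  have hinj : Function.Injective fun j => (⟨r j, hr j⟩ : Fin (qv n f)) := by
    intro j j' h
    have e : r j = r j' := Fin.ext (by simpa using h)
    exact hc j j' (S.pi_uniq n f (r j) h1 (hw j) (e ▸ hw j'))
  have hs := Finite.injective_iff_surjective.1 hinj
  have h1 := (hq n f).out
  obtain ⟨j, hj⟩ := hs ⟨0, by omega⟩
  obtain ⟨j', hj'⟩ := hs ⟨1, h1⟩
  have e0 : r j = r0 k := Fin.ext (by simpa [r0] using hj)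
  have e1 : r j' = r1 k := Fin.ext (by simpa [r1] using hj')
  refine ⟨_, _, e0 ▸ hw j, e1 ▸ hw j', fun h => ?_⟩
  rw [hc j j' h, e1] at e0
  simp [r0, r1] at e0

lemma flag (hq' : ∀ n f, qv n f ≤ 4 * 2 ^ k) (n : Fin 8) {u : U} (h1 : 2 * S.sg u = 0)
    (h2 : 2 * (S.rh u - 1) = 0) {σ : Fin 64} {ε : Bool} (hσ : S.W n (.dg σ) u)
    (hε : ε = true ↔ S.rh u + (n : ℕ) * S.sg u - 1 = 2 * (2 * 2 ^ k)) :
    ∃ t : ℤ, S.b n (some (σ, ε)) (u + t • S.T n) -
      S.b n (some (σ, ε)) (u + t • S.T n - S.T n) ≠ 0 := by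
  by_contra hno
  push Not at hno
  have hconst := slope_zsmul hno
  simp only [mul_zero, add_zero] at hconst
  obtain ⟨t0, t1, ht0, ht1, htt⟩ := S.pi_exists hq' n none h1
  obtain ⟨l0, l1, hl0, hl1, hll⟩ := S.pi_exists hq' n (some (σ, ε)) h1
  have hμ : ∀ t : ℤ, S.W n (.pi none (r0 k)) (u + t • S.E n none) ↔
      S.W n (.pi none (r0 k)) (u + t • S.T n) := by
    intro t
    rw [← iff_zsmul (S.ipi2 n _) (u + t • S.T n) t]
    congr! 1; module
  obtain ⟨H, hH⟩ : ∃ H, H = (2 * 2 ^ k : ℤ) • (S.e2 - ((n : ℕ) : ℤ) • S.e1) := ⟨_, rfl⟩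
  have hk : kp Z (S.sg (u - H)) (S.rh (u - H)) := by
    right
    rw [show u - H = u + ((2 * 2 ^ k : ℤ) * (n : ℕ)) • S.e1 + (-(2 * 2 ^ k : ℤ)) • S.e2 by
      rw [hH]; module, sg_add, rh_add]
    constructor
    · have := Z.mul_odd (S.par_gm u)
      push_cast
      linear_combination h1 - this - Z.h4
    · have := Z.par_of_two_mul h2
      rw [map_sub, map_one, sub_eq_zero] at this
      push_cast
      simp only [map_add, map_mul, Z.par_two, this, zero_mul, add_zero]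
  have hH2 : ∀ t : ℤ, S.b n (some (σ, ε)) (u - H + t • S.T n) = S.b n (some (σ, ε)) (u - H) := by
    intro t
    have := slope_zsmul (f := S.b n (some (σ, ε))) (v := S.T n) (c := 0) (x := u - H) (fun j =>
      S.mt n _ _ ((S.rest n (u - H + j • S.T n)).2.2.1
        (by rwa [S.sg_inv (S.ia2 n), S.rh_inv (S.ia2 n)]))) t
    simpa using this
  have key : ∀ t l : ℤ, ((S.W n (.pi none (r0 k)) (u + t • S.T n) ∧
      S.W n (.pi (some (σ, ε)) (r0 k)) (u + l • S.E n (some (σ, ε)))) ∨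
      (¬ S.W n (.pi none (r0 k)) (u + t • S.T n) ∧
      S.W n (.pi (some (σ, ε)) (r1 k)) (u + l • S.E n (some (σ, ε))))) →
      S.b n (some (σ, ε)) u = S.b n (some (σ, ε)) (u - H) + l := by
    intro t l h
    have e1 : S.sg (u + t • S.T n + l • S.E n (some (σ, ε))) = S.sg u := by
      rw [S.sg_inv (S.ia1 n _), S.sg_inv (S.ia2 n)]
    have e2 : S.rh (u + t • S.T n + l • S.E n (some (σ, ε))) = S.rh u := by
      rw [S.rh_inv (S.ia1 n _), S.rh_inv (S.ia2 n)]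
    have h3 := S.ml n _ _ ((S.rest n (u + t • S.T n + l • S.E n (some (σ, ε)))).2.2.2.2.2.2.2
      (by rwa [e1]) (by rwa [e2]) σ ε
      ((iff_zsmul (S.idg2 n σ _) _ _).2 ((iff_zsmul (S.idg3 n σ) _ _).2 hσ)) (by rwa [e1, e2])
      (by
        simp only [iff_zsmul (S.ipi3 n _ _)]
        simp only [add_right_comm u (t • S.T n), iff_zsmul (S.ipi4 n _ _)]
        exact h))
    rw [← hH, S.flat n _ (by rwa [S.sg_inv (S.ia2 n)]), hconst,
      show u + t • S.T n + l • S.E n (some (σ, ε)) - H =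
        u - H + t • S.T n + l • S.E n (some (σ, ε)) by abel,
      S.slope n _ (by rwa [S.sg_inv (S.ia2 n), S.rh_inv (S.ia2 n)]), hH2] at h3
    exact sub_eq_zero.1 h3
  have k0 := key t0 l0 (Or.inl ⟨(hμ t0).1 ht0, hl0⟩)
  have k1 := key t1 l1 (Or.inr ⟨fun h => htt (S.pi_uniq n none _ h1 ht0 ((hμ t1).2 h)), hl1⟩)
  exact hll (add_left_cancel (k0.symm.trans k1))

open Classical in
/-- The digit of column `n`. -/
noncomputable def dgt (n : Fin 8) (u : U) : Fin 64 :=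
  Classical.epsilon fun σ => S.W n (.dg σ) u

omit hq in
lemma dgt_spec (n : Fin 8) (u : U) : S.W n (.dg (S.dgt n u)) u :=
  Classical.epsilon_spec (S.rest n u).2.2.2.2.2.2.1

omit hq in
lemma dgt_congr (n : Fin 8) {u u' : U} (h : ∀ σ, S.W n (.dg σ) u ↔ S.W n (.dg σ) u') :
    S.dgt n u = S.dgt n u' := by
  unfold dgt
  congr 1
  funext σ
  exact propext (h σ)

lemma om3 (hq' : ∀ n f, qv n f ≤ 4 * 2 ^ k) {u : U} (h1 : 2 * S.sg u = 0)
    (h2 : 2 * (S.rh u - 1) = 0) {ε : Fin 8 → Bool}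
    (hε : ∀ n, ε n = true ↔ S.rh u + (n : ℕ) * S.sg u - 1 = 2 * (2 * 2 ^ k)) :
    Om3 fun n => (S.dgt n u, ε n) := by
  by_contra hno
  choose t ht using fun n => S.flag hq' n h1 h2 (S.dgt_spec n u) (hε n)
  obtain ⟨n, hn⟩ := S.cross _ hno (u + ∑ n, t n • S.T n)
  apply ht n
  rwa [inv_sum (S.ib n _), add_sub_right_comm, inv_sum (S.ib n _), ← add_sub_right_comm] at hn

theorem aperiodic (hq' : ∀ n f, qv n f ≤ 4 * 2 ^ k) {M : ℕ} (hM : 0 < M)
    (hper : ∀ n σ u, S.W n (.dg σ) (u - (M : ℤ) • S.e1) ↔ S.W n (.dg σ) u) : False := by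
  obtain ⟨g, hg⟩ := (Z.unit _ (S.par_gm 0)).exists_left_inv
  obtain ⟨i0, hi0⟩ := Z.surj ((1 - S.rh 0) * g)
  obtain ⟨j0, hj0⟩ := Z.surj (-S.sg 0 * g)
  obtain ⟨u0, hu0⟩ : ∃ u0, u0 = 0 + i0 • S.e1 + j0 • S.e2 := ⟨_, rfl⟩
  have a1 : S.sg u0 = 0 := by
    rw [hu0, sg_add, hj0]; linear_combination (-S.sg 0) * hg
  have a2 : S.rh u0 = 1 := by
    rw [hu0, rh_add, hi0]; linear_combination (1 - S.rh 0) * hg
  obtain ⟨p, hp⟩ : ∃ p : ℤ → ℤ → U, ∀ I J,
      p I J = u0 + (4 * 2 ^ k * I) • S.e1 + (4 * 2 ^ k * J) • S.e2 := ⟨_, fun _ _ => rfl⟩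
  have hom : ∀ I J : ℤ, Om3 fun n => (S.dgt n (p I J), decide ((I + J * (n : ℕ)) % 2 = 1)) := by
    intro I J
    refine S.om3 hq' ?_ ?_ fun n => ?_
    · rw [hp, sg_add, a1]; push_cast; linear_combination (J * S.gm u0) * Z.h4
    · rw [hp, rh_add, a2]; push_cast; linear_combination (I * S.gm u0) * Z.h4
    · rw [hp, sg_add, rh_add, a1, a2]
      have e : (1 : R) + ((4 * 2 ^ k * I : ℤ) : R) * S.gm u0 +
          (n : ℕ) * (0 + ((4 * 2 ^ k * J : ℤ) : R) * S.gm u0) - 1 =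
          2 * (2 * 2 ^ k) * (((I + J * (n : ℕ) : ℤ) : R) * S.gm u0) := by push_cast; ring
      have e' := Z.par_int (I + J * (n : ℕ))
      rw [e]
      cases h : decide ((I + J * (n : ℕ)) % 2 = 1)
      · rw [Z.mul_even (by rw [map_mul, e', h]; simp)]
        simpa using Z.hne.symm
      · rw [Z.mul_odd (by rw [map_mul, e', h, par_gm]; simp)]
        simp
  let F : ℕ → ℤ → ℤ := fun n m => if h : n < 8 then ((S.dgt ⟨n, h⟩ (p m 0) : ℕ) : ℤ) else 0
  have hF : ∀ (I J : ℤ) (n : ℕ) (h : n < 8),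
      F n (I + J * n) = ((S.dgt ⟨n, h⟩ (p I J) : ℕ) : ℤ) := by
    intro I J n h
    simp only [F, dif_pos h]
    congr 2
    refine S.dgt_congr _ fun σ => ?_
    rw [← iff_zsmul (S.idg1 _ σ) _ (4 * 2 ^ k * J)]
    congr! 1
    rw [hp, hp]
    simp only
    module
  refine no_periodic M F hM (fun I J => ?_) (fun I J hIJ => ?_) fun n m => ?_
  · obtain ⟨a, b, hab, -, h⟩ := hom I J
    exact ⟨a, b, hab, fun n hn => by rw [hF I J n hn]; exact h ⟨n, hn⟩⟩
  · obtain ⟨a, b, -, hpar, h⟩ := hom I J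
    simp only [bz_decide, Fin.val_zero, Fin.val_one, Nat.cast_zero, Nat.cast_one, mul_zero,
      add_zero, mul_one] at hpar
    exact ⟨a, b, by omega, by omega, fun n hn => by rw [hF I J n hn]; exact h ⟨n, hn⟩⟩
  · simp only [F]
    split_ifs with h
    · congr 2
      refine S.dgt_congr _ fun σ => ?_
      rw [← iff_zsmul (hper _ σ) (p m 0) (4 * 2 ^ k)]
      congr! 1
      rw [hp, hp]
      module
    · rfl

end Sys3

end Vale.Agent.P043
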