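import Vale.Agent.P043.Enf

/-!
Boolean functions carried by slopes, and the constraints on them enforced by tiling equations.
-/

namespace Vale.Agent.P043

abbrev U3 : Type := (ℤ × ℤ) × ℤ

section

variable {J : Type} (q : J → ℕ)

/-- The kernel of the evaluation at a coordinate. -/
def KK (j : J) : AddSubgroup (∀ j, ZMod (q j)) := (Pi.evalAddMonoidHom (fun i => ZMod (q i)) j).ker

@[simp] lemma mem_KK (j : J) (y : ∀ j, ZMod (q j)) : y ∈ KK q j ↔ y j = 0 := Iff.rfl

lemma inv_KK {o : U3 → ∀ j, ZMod (q j)} {j : J} {g : U3} :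
    Inv o (KK q j) g ↔ ∀ u, o (u - g) j = o u j := by
  simp only [Inv, mem_KK, Pi.sub_apply, sub_eq_zero]
  exact forall_congr' fun u => eq_comm

end

/-- The twisting function. -/
def tw (n : ℕ) (τ : ℤ) : ZMod n := ((τ / n : ℤ) : ZMod n)

lemma tw_sub {n : ℕ} (hn : n ≠ 0) {g : ℤ} (h : (n : ℤ) ^ 2 ∣ g) (τ : ℤ) : tw n (τ - g) = tw n τ := by
  obtain ⟨c, rfl⟩ := h
  unfold tw
  rw [show τ - (n : ℤ) ^ 2 * c = τ + (-(n * c)) * n by ring,
    Int.add_mul_ediv_right _ _ (by exact_mod_cast hn)]
  simp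

lemma tw_add {n : ℕ} (hn : n ≠ 0) {g : ℤ} (h : (n : ℤ) ^ 2 ∣ g - n) (τ : ℤ) :
    tw n (τ + g) = tw n τ + 1 := by
  obtain ⟨c, hc⟩ := h
  unfold tw
  rw [show τ + g = τ + (1 + n * c) * n by linear_combination hc,
    Int.add_mul_ediv_right _ _ (by exact_mod_cast hn)]
  simp

lemma inv_zsmul' {U α : Type*} [AddCommGroup U] {f : U → α} {v : U} (h : ∀ x, f (x - v) = f x)
    (x : U) (k : ℤ) : f (x + k • v) = f x := by
  induction k using Int.induction_on with
  | zero => simp
  | succ k ih => rw [← h, add_smul, one_smul, ← add_assoc, add_sub_cancel_right, ih]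
  | pred k ih => rw [sub_smul, one_smul, ← add_sub_assoc, h, ih]

lemma slope_zsmul {U R : Type*} [AddCommGroup U] [Ring R] {f : U → R} {v : U} {c : R} {x : U}
    (h : ∀ k : ℤ, f (x + k • v) - f (x + k • v - v) = c) (k : ℤ) :
    f (x + k • v) = f x + k * c := by
  induction k using Int.induction_on with
  | zero => simp
  | succ k ih =>
    have := h (k + 1)
    rw [add_smul, one_smul, ← add_assoc, add_sub_cancel_right, ih, sub_eq_iff_eq_add] at this
    rw [add_smul, one_smul, ← add_assoc, this]; push_cast; noncomm_ring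
  | pred k ih =>
    have := h (-k)
    rw [ih, sub_eq_iff_eq_add, ← sub_eq_iff_eq_add'] at this
    rw [sub_smul, one_smul, ← add_sub_assoc, ← this]; push_cast; noncomm_ring

lemma inv_sum {U α ι : Type*} [AddCommGroup U] [Fintype ι] [DecidableEq ι] {f : U → α}
    {v : ι → U} {i : ι} (h : ∀ j, j ≠ i → ∀ x, f (x - v j) = f x) (k : ι → ℤ) (x : U) :
    f (x + ∑ j, k j • v j) = f (x + k i • v i) := by
  have key : ∀ s : Finset ι, i ∉ s → ∀ x, f (x + ∑ j ∈ s, k j • v j) = f x := by
    intro s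
    induction s using Finset.induction_on with
    | empty => simp
    | insert a s ha ih =>
      intro hi x
      rw [Finset.mem_insert, not_or] at hi
      rw [Finset.sum_insert ha, ← add_assoc, ih hi.2, inv_zsmul' (h a (Ne.symm hi.1))]
  rw [← Finset.add_sum_erase _ _ (Finset.mem_univ i), ← add_assoc, key _ (by simp)]

open Classical in
/-- The data of a family of Boolean functions carried by slopes along the direction `v`. -/
structure Carriers {J : Type} (q : J → ℕ) (m : J → ℤ) (o0 : U3 → ∀ j, ZMod (q j)) (B : Type) where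
  car : B → J
  inj : Function.Injective car
  v : ℤ × ℤ
  hv : v.2 = 1
  W0 : B → U3 → Prop
  eq0 : ∀ β u, o0 u (car β) = (if W0 β u then (u.1.2 : ZMod (q (car β))) else 0) + tw _ u.2
  inv0 : ∀ β β' u, W0 β (u - (m (car β') • v, 0)) ↔ W0 β u

namespace Carriers

variable {J : Type} {q : J → ℕ} {m : J → ℤ} {o0 : U3 → ∀ j, ZMod (q j)} {B : Type}
  (C : Carriers q m o0 B)

/-- The private step of a Boolean. -/
def step (β : B) : U3 := (m (C.car β) • C.v, 0)

/-- The Boolean function read off from a solution. -/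
def W (o : U3 → ∀ j, ZMod (q j)) (β : B) (u : U3) : Prop :=
  ¬ ∀ k : ℤ, o (u + k • C.step β) (C.car β) - o (u + k • C.step β - C.step β) (C.car β) = 0

lemma W_inv {o : U3 → ∀ j, ZMod (q j)} {β : B} {g : U3} (h : Inv o (KK q (C.car β)) g) (u : U3) :
    C.W o β (u - g) ↔ C.W o β u := by
  rw [inv_KK] at h
  unfold W
  refine not_congr (forall_congr' fun k => ?_)
  rw [← h (u + k • C.step β), ← h (u + k • C.step β - C.step β),
    show u + k • C.step β - g = u - g + k • C.step β by abel,
    show u + k • C.step β - C.step β - g = u - g + k • C.step β - C.step β by abel]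

variable [∀ j, Fact (1 < q j)]

lemma inv_car {β : B} {g : U3} (h : ∀ u, C.W0 β (u - g) ↔ C.W0 β u)
    (h1 : (q (C.car β) : ℤ) ∣ g.1.2) (h2 : (q (C.car β) : ℤ) ^ 2 ∣ g.2) :
    Inv o0 (KK q (C.car β)) g := by
  rw [inv_KK]
  intro u
  classical
  rw [C.eq0, C.eq0, Prod.snd_sub, tw_sub (NeZero.ne _) h2]
  congr 1
  refine if_congr (h u) ?_ rfl
  simp [(ZMod.intCast_zmod_eq_zero_iff_dvd _ _).2 h1]

variable (hm1 : ∀ j, (m j : ZMod (q j)) = 1) (hm2 : ∀ j j', j' ≠ j → (q j' : ℤ) ^ 2 ∣ m j)
include hm1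

open Classical in
lemma diff0 (β : B) (u : U3) :
    o0 u (C.car β) - o0 (u - C.step β) (C.car β) = if C.W0 β u then 1 else 0 := by
  rw [C.eq0, C.eq0]
  have e : C.W0 β (u - C.step β) ↔ C.W0 β u := C.inv0 β β u
  by_cases h : C.W0 β u
  · rw [if_pos h, if_pos h, if_pos (e.2 h)]
    simp [step, C.hv, hm1]
  · rw [if_neg h, if_neg h, if_neg (fun h' => h (e.1 h'))]
    simp [step]

omit hm1 in
include hm2 in
lemma inv_step {β β' : B} (h : β' ≠ β) : Inv o0 (KK q (C.car β)) (C.step β') := by
  refine C.inv_car (C.inv0 β β') ?_ (by simp [step])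
  simp only [step, Prod.smul_snd, C.hv, smul_eq_mul, mul_one]
  exact (Dvd.intro _ (sq _).symm).trans (hm2 _ _ fun e => h (C.inj e).symm)

variable [Finite J] [DecidableEq J] {𝒦 : Set (AddSubgroup (∀ j, ZMod (q j)))}
  (h𝒦 : ∀ j, KK q j ∈ 𝒦)
include h𝒦 hm2

lemma enf_logic [Finite B] [Nonempty B] {Ω : (B → Prop) → Prop} (h0 : ∀ u, Ω fun β => C.W0 β u) :
    Enf 𝒦 o0 fun o => ∀ u, Ω fun β => C.W o β u := by
  classical
  have := Fintype.ofFinite B
  have key : ∀ w : B → Prop, ¬ Ω w → Enf 𝒦 o0 fun o => ∀ u, ∃ β, o u - o (u - C.step β) -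
      Pi.single (C.car β) (if w β then 0 else 1) ∈ KK q (C.car β) := by
    intro w hw
    refine enf_clause (fun β => h𝒦 _) (fun β β' h => ?_)
      (fun β β' h => C.inv_step hm2 h) fun u => ?_
    · simp [Pi.single_eq_of_ne (C.inj.ne h.symm)]
    · by_contra hno
      push Not at hno
      apply hw
      convert h0 u with β
      have := hno β
      simp only [mem_KK, Pi.sub_apply, Pi.single_eq_same, C.diff0 hm1] at this
      by_cases a : w β <;> by_cases b : C.W0 β u <;> simp_all
  refine (Enf.all fun w => Enf.imp (key w)).mono fun o ho h u => ?_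
  by_contra hno
  have hex : ∀ β, ∃ k : ℤ, o (u + k • C.step β) (C.car β) -
      o (u + k • C.step β - C.step β) (C.car β) ≠ if C.W o β u then 0 else 1 := by
    intro β
    by_cases hb : C.W o β u
    · rw [if_pos hb]
      simpa [W] using hb
    · rw [if_neg hb]
      refine ⟨0, ?_⟩
      simp only [W, not_not] at hb
      rw [hb 0]; simp
  choose k hk using hex
  obtain ⟨β, hβ⟩ := h _ hno (u + ∑ β, k β • C.step β)
  apply hk β
  have hi : ∀ β', β' ≠ β → ∀ x, o (x - C.step β') (C.car β) = o x (C.car β) := fun β' h =>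
    (inv_KK q).1 (ho _ (h𝒦 _) _ (C.inv_step hm2 h))
  simp only [mem_KK, Pi.sub_apply, Pi.single_eq_same, sub_eq_zero] at hβ
  rw [inv_sum (f := fun x => o x (C.car β)) hi, add_sub_right_comm,
    inv_sum (f := fun x => o x (C.car β)) hi, ← add_sub_right_comm] at hβ
  exact hβ

omit hm2 [DecidableEq J] in
lemma enf_imp {β : B} {K : AddSubgroup (∀ j, ZMod (q j))} (hK : K ∈ 𝒦) {g : U3}
    {c : ∀ j, ZMod (q j)} (hc : c (C.car β) = 0) (h1 : Inv o0 K (C.step β))
    (h2 : Inv o0 (KK q (C.car β)) g) (h0 : ∀ u, C.W0 β u → o0 u - o0 (u - g) - c ∈ K) :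
    Enf 𝒦 o0 fun o => ∀ u, C.W o β u → o u - o (u - g) - c ∈ K := by
  refine (enf_clause (Λ := Bool) (K := fun l => if l then KK q (C.car β) else K)
    (e := fun l => if l then C.step β else g) (c := fun l => if l then 0 else c)
    (fun l => ?_) (fun l l' h => ?_) (fun l l' h => ?_) (fun u => ?_)).mono fun o ho h u hu => ?_
  · cases l
    · exact hK
    · exact h𝒦 _
  · cases l <;> cases l' <;> simp_all
  · cases l <;> cases l' <;> simp_all
  · by_cases hu : C.W0 β u
    · exact ⟨false, h0 u hu⟩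
    · refine ⟨true, ?_⟩
      simp [C.diff0 hm1, hu]
  · simp only [W, not_forall] at hu
    obtain ⟨k, hk⟩ := hu
    obtain ⟨l, hl⟩ := h (u + k • C.step β)
    cases l
    · have hs : ∀ x, o (x + k • C.step β) - o x ∈ K := by
        intro x
        have := (invSub o K).zsmul_mem (ho K hK _ h1) k (x + k • C.step β)
        simpa using this
      have := K.add_mem (K.sub_mem hl (hs u)) (hs (u - g))
      simp only [Bool.false_eq_true, if_false] at this
      rw [show u + k • C.step β - g = u - g + k • C.step β by abel] at this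
      convert this using 1
      abel
    · exact absurd (by simpa using hl) hk

end Carriers

end Vale.Agent.P043
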