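import Vale.Agent.P043.Lift

/-!
Concatenating a system of tiling equations into a single rigid tiling equation.
-/

namespace Vale.Agent.P043

/-- Position `s` lies in the cavity of block `j`. -/
def cav (n j s : ℤ) : Prop := 2 * n + 1 ≤ s ∧ s < 3 * n + 2 + j

lemma cavity (n : ℤ) (J S : ℤ → ℤ) (hJ : ∀ x, 0 ≤ J x ∧ J x < n)
    (hS : ∀ x, 0 ≤ S x ∧ S x < 6 * n + 2)
    (H : ∀ x s y, y = x + s - S x → 0 ≤ s → s < 6 * n + 2 →
      (cav n (J x) s ↔ cav n (J x) (S x)) → J y = J x ∧ S y = s)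
    (h0 : S 0 = 0) : J (2 * n + 1) = J 0 ∧ S (2 * n + 1) = 2 * n + 1 := by
  unfold cav at H
  have hj := hJ 0
  have hj' := hJ (2 * n + 1)
  have hs' := hS (2 * n + 1)
  have w1 := H 0 (2 * n) (2 * n) (by omega) (by omega) (by omega) (by omega)
  have w2 := H 0 (3 * n + 2 + J 0) (3 * n + 2 + J 0) (by omega) (by omega) (by omega) (by omega)
  by_contra hc
  have a1 : S (2 * n + 1) = 0 ∨ S (2 * n + 1) = 2 * n + 1 ∨
      S (2 * n + 1) = 3 * n + 2 + J (2 * n + 1) := by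
    by_contra h
    have := H (2 * n + 1) (S (2 * n + 1) - 1) (2 * n) (by omega) (by omega) (by omega) (by omega)
    omega
  have a2 : S (2 * n + 1) = 2 * n + 1 ∧ J (2 * n + 1) < J 0 := by
    by_contra h
    have := H (2 * n + 1) (S (2 * n + 1) + (n + 1 + J 0)) (3 * n + 2 + J 0) (by omega) (by omega)
      (by omega) (by omega)
    omega
  obtain ⟨x, hx⟩ : ∃ x, x = 3 * n + 2 + J (2 * n + 1) := ⟨_, rfl⟩
  have hj'' := hJ x
  have hs'' := hS x
  have b0 := H (2 * n + 1) (x - 1) (x - 1) (by omega) (by omega) (by omega) (by omega)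
  have b1 : S x = 0 ∨ S x = 2 * n + 1 ∨ S x = 3 * n + 2 + J x := by
    by_contra h
    have := H x (S x - 1) (x - 1) (by omega) (by omega) (by omega) (by omega)
    omega
  have := H x (S x + (J 0 - J (2 * n + 1))) (3 * n + 2 + J 0) (by omega) (by omega) (by omega)
    (by omega)
  omega

section

variable {G : Type*} [AddCommGroup G] {κ : Type}

/-- Stretching along `e` by the factor `M`. -/
def stretch (e : G) (ρ : G →+ ℤ) (M : ℤ) : G →+ G where
  toFun g := g + ((M - 1) * ρ g) • e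
  map_zero' := by simp
  map_add' a b := by rw [map_add, mul_add, add_smul]; abel

lemma stretch_apply (e : G) (ρ : G →+ ℤ) (M : ℤ) (g : G) :
    stretch e ρ M g = g + ((M - 1) * ρ g) • e := rfl

lemma rho_stretch {e : G} {ρ : G →+ ℤ} (he : ρ e = 1) (M : ℤ) (g : G) :
    ρ (stretch e ρ M g) = M * ρ g := by
  rw [stretch_apply, map_add, map_zsmul, he, smul_eq_mul]; ring

lemma stretch_decomp {e : G} {ρ : G →+ ℤ} (he : ρ e = 1) {M : ℤ} (hM : 0 < M) (g : G) :
    ∃ h, ∃ r : ℤ, 0 ≤ r ∧ r < M ∧ g = stretch e ρ M h + r • e := by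
  refine ⟨g - (ρ g - ρ g / M) • e, ρ g % M, Int.emod_nonneg _ hM.ne', Int.emod_lt_of_pos _ hM, ?_⟩
  rw [stretch_apply, map_sub, map_zsmul, he, smul_eq_mul, add_assoc, ← add_smul, sub_add,
    ← sub_smul]
  have := Int.emod_add_mul_ediv (ρ g) M
  rw [show ρ g - ρ g / M - ((M - 1) * (ρ g - (ρ g - ρ g / M) * 1) + ρ g % M) = 0 by
    linear_combination -this]
  simp

lemma stretch_unique {e : G} {ρ : G →+ ℤ} (he : ρ e = 1) {M : ℤ} {h h' : G} {r r' : ℤ}
    (h0 : 0 ≤ r) (h1 : r < M) (h0' : 0 ≤ r') (h1' : r' < M)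
    (H : stretch e ρ M h + r • e = stretch e ρ M h' + r' • e) : h = h' ∧ r = r' := by
  have e1 := congrArg ρ H
  simp only [map_add, rho_stretch he, map_zsmul, he, smul_eq_mul, mul_one] at e1
  have e2 : ρ h = ρ h' := by
    by_contra hne
    rcases lt_or_gt_of_ne hne with hl | hl
    · have : M * (ρ h + 1) ≤ M * ρ h' := mul_le_mul_of_nonneg_left hl (by omega)
      rw [mul_add] at this; omega
    · have : M * (ρ h' + 1) ≤ M * ρ h := mul_le_mul_of_nonneg_left hl (by omega)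
      rw [mul_add] at this; omega
  have e3 : r = r' := by rw [e2] at e1; omega
  rw [e3, add_left_inj, stretch_apply, stretch_apply, e2, add_left_inj] at H
  exact ⟨H, e3⟩

open Classical in
/-- The type of the cell at position `s` of block `j`. -/
noncomputable def ctype (n j s : ℕ) : ℕ := if cav n j s then (j + 1) % n else j

/-- The concatenated tile. -/
noncomputable def conc (e : G) (ρ : G →+ ℤ) (n : ℕ) (φ : ℕ → κ → G) :
    κ × Fin n × Fin (6 * n + 2) → G := fun p =>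
  stretch e ρ (n * (6 * n + 2)) (φ (ctype n p.2.1 p.2.2) p.1) +
    (((p.2.1 : ℕ) : ℤ) * (6 * n + 2) + (p.2.2 : ℕ)) • e

lemma ctype_lt {n j : ℕ} (h : j < n) (s : ℕ) : ctype n j s < n := by
  unfold ctype
  split_ifs
  · exact Nat.mod_lt _ (by omega)
  · exact h

lemma pos_lt {n : ℕ} (j : Fin n) (s : Fin (6 * n + 2)) :
    ((j : ℕ) : ℤ) * (6 * n + 2) + (s : ℕ) < n * (6 * n + 2) := by
  have h1 : ((j : ℕ) : ℤ) + 1 ≤ n := by have := j.2; omega
  have h2 : ((s : ℕ) : ℤ) < 6 * n + 2 := by have := s.2; omega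
  nlinarith

lemma pos_exists {n : ℕ} {r : ℤ} (h0 : 0 ≤ r) (h1 : r < n * (6 * n + 2)) :
    ∃ (j : Fin n) (s : Fin (6 * n + 2)), r = ((j : ℕ) : ℤ) * (6 * n + 2) + (s : ℕ) := by
  have hL : (0 : ℤ) < 6 * n + 2 := by omega
  have a1 := Int.emod_nonneg r hL.ne'
  have a2 := Int.emod_lt_of_pos r hL
  have a3 := Int.ediv_nonneg h0 hL.le
  have a4 := (Int.ediv_lt_iff_lt_mul hL).2 h1
  refine ⟨⟨(r / (6 * n + 2)).toNat, by omega⟩, ⟨(r % (6 * n + 2)).toNat, by omega⟩, ?_⟩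
  simp only
  rw [Int.toNat_of_nonneg a1, Int.toNat_of_nonneg a3]
  have := Int.emod_add_mul_ediv r (6 * n + 2)
  linear_combination -this

lemma pos_inj {n : ℕ} {j j' : Fin n} {s s' : Fin (6 * n + 2)}
    (h : ((j : ℕ) : ℤ) * (6 * n + 2) + (s : ℕ) = ((j' : ℕ) : ℤ) * (6 * n + 2) + (s' : ℕ)) :
    j = j' ∧ s = s' := by
  have h2 : ((s : ℕ) : ℤ) < 6 * n + 2 := by have := s.2; omega
  have h2' : ((s' : ℕ) : ℤ) < 6 * n + 2 := by have := s'.2; omega
  have : ((j : ℕ) : ℤ) = (j' : ℕ) := by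
    by_contra hne
    rcases lt_or_gt_of_ne hne with hl | hl
    · have : ((j : ℕ) + 1 : ℤ) * (6 * n + 2) ≤ (j' : ℕ) * (6 * n + 2) :=
        mul_le_mul_of_nonneg_right hl (by omega)
      rw [add_mul] at this; omega
    · have : ((j' : ℕ) + 1 : ℤ) * (6 * n + 2) ≤ (j : ℕ) * (6 * n + 2) :=
        mul_le_mul_of_nonneg_right hl (by omega)
      rw [add_mul] at this; omega
  rw [this] at h
  exact ⟨Fin.ext (by omega), Fin.ext (by omega)⟩

lemma tiles_conc {e : G} {ρ : G →+ ℤ} (he : ρ e = 1) {n : ℕ} (hn : 0 < n) {φ : ℕ → κ → G}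
    {A : Set G} (hA : ∀ j < n, Tiles A (φ j)) :
    Tiles (stretch e ρ (n * (6 * n + 2)) '' A) (conc e ρ n φ) := by
  intro g
  obtain ⟨h, r, h0, h1, rfl⟩ := stretch_decomp he (M := n * (6 * n + 2)) (by positivity) g
  obtain ⟨j, s, rfl⟩ := pos_exists h0 h1
  obtain ⟨y, hy, hu⟩ := hA _ (ctype_lt j.2 s) h
  refine ⟨(y, j, s), ⟨_, hy, ?_⟩, ?_⟩
  · simp only [conc, map_sub]; abel
  · rintro ⟨y', j', s'⟩ ⟨a, ha, hae⟩
    simp only [conc] at hae
    have := stretch_unique he (h := h) (h' := a + φ (ctype n j' s') y') h0 h1 (by positivity)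
      (pos_lt j' s') (by rw [map_add, hae]; abel)
    obtain ⟨rfl, rfl⟩ := pos_inj this.2
    rw [hu y' (by simpa [this.1] using ha)]

lemma conc_step {e : G} {ρ : G →+ ℤ} {n : ℕ} {φ : ℕ → κ → G} {A : Set G}
    (hA : Tiles A (conc e ρ n φ)) {j : ℕ} (hj : j < n) {g : G} {y : κ}
    (hy : g - stretch e ρ (n * (6 * n + 2)) (φ j y) ∈ A) :
    ∃ y', g - stretch e ρ (n * (6 * n + 2)) (φ ((j + 1) % n) y') ∈ A := by
  choose τ hτ hu using hA
  let b : ℤ → G := fun x => g + ((j : ℤ) * (6 * n + 2) + x) • e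
  have hc0 : ctype n j 0 = j := by
    unfold ctype cav
    rw [if_neg (by omega)]
  have h0 : τ (b 0) = (y, ⟨j, hj⟩, ⟨0, by omega⟩) := by
    refine (hu _ _ ?_).symm
    simp only [conc, b, hc0]
    convert hy using 1
    simp only [Nat.cast_zero]
    abel
  have key := cavity n (fun x => ((τ (b x)).2.1 : ℕ)) (fun x => ((τ (b x)).2.2 : ℕ))
    (fun x => by have := (τ (b x)).2.1.2; omega) (fun x => by have := (τ (b x)).2.2.2; omega)
    (by
      intro x s x' hx' s0 s1 hc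
      have := hu (b x') ((τ (b x)).1, (τ (b x)).2.1, ⟨s.toNat, by omega⟩) (by
        have h1 := hτ (b x)
        simp only [conc] at h1 ⊢
        have e1 : ctype n (τ (b x)).2.1 s.toNat = ctype n (τ (b x)).2.1 (τ (b x)).2.2 := by
          unfold ctype
          rw [Int.toNat_of_nonneg s0]
          classical
          exact if_congr hc rfl rfl
        rw [e1, Int.toNat_of_nonneg s0]
        convert h1 using 1
        simp only [b, hx', add_smul, sub_smul]
        abel)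
      simp only [← this]
      exact ⟨trivial, Int.toNat_of_nonneg s0⟩)
    (by simp only [h0]; rfl)
  simp only [h0] at key
  have h1 := hτ (b (2 * n + 1))
  refine ⟨(τ (b (2 * n + 1))).1, ?_⟩
  simp only [conc] at h1
  have e1 : ctype n (τ (b (2 * n + 1))).2.1 (τ (b (2 * n + 1))).2.2 = (j + 1) % n := by
    unfold ctype cav
    rw [if_pos (by omega)]
    congr 2; omega
  rw [e1, key.1, key.2] at h1
  convert h1 using 1
  simp only [b]
  abel

lemma cyc_eq {α : Type*} {n : ℕ} {P : ℕ → Set α} (h : ∀ j < n, P j ⊆ P ((j + 1) % n))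
    {j : ℕ} (hj : j < n) : P j = P 0 := by
  have up : ∀ k i, i + k < n → P i ⊆ P (i + k) := by
    intro k
    induction k with
    | zero => intro i _; exact subset_rfl
    | succ k ih =>
      intro i hi
      have := h (i + k) (by omega)
      rw [Nat.mod_eq_of_lt (by omega)] at this
      exact (ih i (by omega)).trans this
  refine Set.Subset.antisymm ?_ (by simpa using up j 0 (by omega))
  have h1 := up (n - 1 - j) j (by omega)
  have h2 := h (n - 1) (by omega)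
  rw [show n - 1 + 1 = n by omega, Nat.mod_self] at h2
  rw [show j + (n - 1 - j) = n - 1 by omega] at h1
  exact h1.trans h2

theorem Aper.concat [Finite κ] {e : G} {ρ : G →+ ℤ} (he : ρ e = 1) {S : Set G} (hSf : S.Finite)
    (hS : AddSubgroup.closure S = ⊤) {𝓕 : Set (κ → G)} (hfin : 𝓕.Finite) (hne : 𝓕.Nonempty)
    (hsol : ∃ A, ∀ φ ∈ 𝓕, Tiles A φ) :
    ∃ (κ' : Type) (_ : Finite κ') (Φ : κ' → G) (M : ℤ), (∃ A, Tiles A Φ) ∧
      ∀ A, Tiles A Φ → ∃ (a0 : G) (A' : Set G), (∀ φ ∈ 𝓕, Tiles A' φ) ∧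
        (∀ h, h ∈ A' ↔ a0 + stretch e ρ (2 * M) h ∈ A) ∧
        ∀ a ∈ A, ∃ h, a = a0 + stretch e ρ (2 * M) h := by
  obtain ⟨φ0, hφ0⟩ := hne
  obtain ⟨A0, hA0⟩ := hsol
  have hfin' : (𝓕 ∪ (fun s => fun y => φ0 y + s) '' S).Finite := hfin.union (hSf.image _)
  obtain ⟨n, f, hf⟩ := hfin'.fin_embedding
  have hn : 0 < n := by
    obtain ⟨i, -⟩ : φ0 ∈ Set.range f := hf ▸ Or.inl hφ0
    exact i.pos
  let φ : ℕ → κ → G := fun j => if h : j < n then f ⟨j, h⟩ else φ0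
  have hφ1 : ∀ j < n, φ j ∈ 𝓕 ∪ (fun s => fun y => φ0 y + s) '' S := by
    intro j hj
    simp only [φ, dif_pos hj, ← hf]
    exact ⟨_, rfl⟩
  have hφ2 : ∀ ψ ∈ 𝓕 ∪ (fun s => fun y => φ0 y + s) '' S, ∃ j < n, φ j = ψ := by
    intro ψ hψ
    rw [← hf] at hψ
    obtain ⟨i, rfl⟩ := hψ
    exact ⟨i, i.2, by simp [φ]⟩
  have hM : (2 : ℤ) * (n * (3 * n + 1)) = n * (6 * n + 2) := by ring
  refine ⟨κ × Fin n × Fin (6 * n + 2), inferInstance, conc e ρ n φ, n * (3 * n + 1),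
    ⟨_, tiles_conc he hn (A := A0) fun j hj => ?_⟩, fun A hA => ?_⟩
  · rcases hφ1 j hj with h | ⟨s, -, h⟩
    · exact hA0 _ h
    · rw [← h]
      intro g
      simpa [sub_add_eq_sub_sub_swap] using hA0 _ hφ0 (g - s)
  rw [hM]
  set ι := stretch e ρ (n * (6 * n + 2)) with hι
  let P : ℕ → Set G := fun j => {g | ∃ y, g - ι (φ j y) ∈ A}
  have hP : ∀ j < n, P j = P 0 := fun j hj =>
    cyc_eq (P := P) (fun j hj g ⟨y, hy⟩ => conc_step hA hj hy) hj
  obtain ⟨j0, hj0, e0⟩ := hφ2 φ0 (Or.inl hφ0)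
  have hinv : ∀ s g, g ∈ P 0 ↔ g + ι s ∈ P 0 := by
    intro s
    have : ι s ∈ AddSubgroup.closure (ι '' S) := by
      rw [← AddMonoidHom.map_closure, hS]
      exact ⟨s, trivial, rfl⟩
    refine inv_closure ?_ this
    rintro _ ⟨s, hs, rfl⟩ g
    obtain ⟨j1, hj1, e1⟩ := hφ2 _ (Or.inr ⟨s, hs, rfl⟩)
    conv_lhs => rw [← hP j0 hj0]
    conv_rhs => rw [← hP j1 hj1]
    simp only [P, Set.mem_ofPred_eq, e0, e1, map_add, add_sub_add_right_eq_sub]
  have hc0 : ∀ j, ctype n j 0 = j := by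
    intro j
    unfold ctype cav
    rw [if_neg (by omega)]
  have hsep : ∀ g ∈ P 0, ∀ r : ℤ, 0 ≤ r → r < n * (6 * n + 2) → g + r • e ∈ P 0 → r = 0 := by
    rintro g hg r h0 h1 ⟨y, hy⟩
    obtain ⟨j, s, rfl⟩ := pos_exists h0 h1
    rw [← hP _ (ctype_lt j.2 s)] at hg
    obtain ⟨y', hy'⟩ := hg
    have := (hA (g + (((j : ℕ) : ℤ) * (6 * n + 2) + (s : ℕ)) • e)).unique (y₁ := (y', j, s))
      (y₂ := (y, ⟨0, hn⟩, ⟨0, by omega⟩))
      (by simp only [conc]; convert hy' using 1; abel)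
      (by simp only [conc, hc0]; convert hy using 1; simp [hι])
    simp only [Prod.mk.injEq] at this
    rw [this.2.1, this.2.2]; simp
  obtain ⟨a0, ha0⟩ := hA.nonempty
  obtain ⟨y0, -⟩ := hA0 φ0 hφ0 0
  have hAP : ∀ a ∈ A, a ∈ P 0 := by
    intro a ha
    rw [hinv (φ 0 y0)]
    exact ⟨y0, by simpa using ha⟩
  refine ⟨a0, {h | a0 + ι h ∈ A}, fun ψ hψ g => ?_, fun h => Iff.rfl, fun a ha => ?_⟩
  · obtain ⟨j, hj, rfl⟩ := hφ2 ψ (Or.inl hψ)
    have h1 : a0 + ι g ∈ P j := by rw [hP j hj, ← hinv]; exact hAP a0 ha0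
    obtain ⟨y, hy⟩ := h1
    refine ⟨y, by simpa [add_sub_assoc] using hy, fun y' hy' => ?_⟩
    have := (hA (a0 + ι g + (((j : ℕ) : ℤ) * (6 * n + 2)) • e)).unique
      (y₁ := (y', ⟨j, hj⟩, ⟨0, by omega⟩)) (y₂ := (y, ⟨j, hj⟩, ⟨0, by omega⟩))
      (by
        simp only [conc, hc0]
        simp only [Set.mem_ofPred_eq, map_sub] at hy'
        convert hy' using 1; simp; abel)
      (by simp only [conc, hc0]; convert hy using 1; simp [hι])
    exact congrArg Prod.fst this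
  · obtain ⟨h, r, h0, h1, hr⟩ := stretch_decomp he (M := n * (6 * n + 2)) (by positivity) (a - a0)
    have := hsep (a0 + ι h) ((hinv h a0).1 (hAP a0 ha0)) r h0 h1 (by
      rw [add_assoc, hι, ← hr]; simpa using hAP a ha)
    refine ⟨h, ?_⟩
    rw [this, zero_smul, add_zero] at hr
    rw [hι, ← hr]; abel

end

end Vale.Agent.P043
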