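import Vale.Agent.P043.Lift

/-!
Enforcing properties of a function by finitely many tiling equations.
-/

namespace Vale.Agent.P043

section

variable {U V : Type*} [AddCommGroup U] [AddCommGroup V]

/-- `o` is invariant along `g` modulo `K`. -/
def Inv (o : U → V) (K : AddSubgroup V) (g : U) : Prop := ∀ u, o u - o (u - g) ∈ K

/-- The steps along which `o` is invariant modulo `K`. -/
def invSub (o : U → V) (K : AddSubgroup V) : AddSubgroup U where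
  carrier := {g | Inv o K g}
  zero_mem' := fun u => by simp
  add_mem' := fun {a b} ha hb u => by
    have := K.add_mem (ha u) (hb (u - a))
    rwa [sub_sub u, sub_add_sub_cancel] at this
  neg_mem' := fun {a} ha u => by
    have := K.neg_mem (ha (u - -a))
    simpa using this

/-- `o` has all the invariances of `o0`. -/
def InvAll (𝒦 : Set (AddSubgroup V)) (o0 o : U → V) : Prop :=
  ∀ K ∈ 𝒦, ∀ g, Inv o0 K g → Inv o K g

/-- The property `Q` is enforced by finitely many tiling equations solved by `o0`. -/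
def Enf (𝒦 : Set (AddSubgroup V)) (o0 : U → V) (Q : (U → V) → Prop) : Prop :=
  ∃ 𝓕 : Set (V → U × V), 𝓕.Finite ∧ (∀ φ ∈ 𝓕, Tiles (gr o0) φ) ∧
    ∀ o, InvAll 𝒦 o0 o → (∀ φ ∈ 𝓕, Tiles (gr o) φ) → Q o

variable {𝒦 : Set (AddSubgroup V)} {o0 : U → V}

lemma Enf.mono {Q Q' : (U → V) → Prop} (h : Enf 𝒦 o0 Q)
    (hQ : ∀ o, InvAll 𝒦 o0 o → Q o → Q' o) : Enf 𝒦 o0 Q' := by
  obtain ⟨𝓕, h1, h2, h3⟩ := h
  exact ⟨𝓕, h1, h2, fun o ho h => hQ o ho (h3 o ho h)⟩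

lemma Enf.and {Q Q' : (U → V) → Prop} (h : Enf 𝒦 o0 Q) (h' : Enf 𝒦 o0 Q') :
    Enf 𝒦 o0 fun o => Q o ∧ Q' o := by
  obtain ⟨𝓕, h1, h2, h3⟩ := h
  obtain ⟨𝓕', h1', h2', h3'⟩ := h'
  refine ⟨𝓕 ∪ 𝓕', h1.union h1', fun φ hφ => hφ.elim (h2 φ) (h2' φ), fun o ho h =>
    ⟨h3 o ho fun φ hφ => h φ (Or.inl hφ), h3' o ho fun φ hφ => h φ (Or.inr hφ)⟩⟩

lemma Enf.all {ι : Type*} [Finite ι] {Q : ι → (U → V) → Prop} (h : ∀ i, Enf 𝒦 o0 (Q i)) :
    Enf 𝒦 o0 fun o => ∀ i, Q i o := by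
  choose 𝓕 h1 h2 h3 using h
  refine ⟨⋃ i, 𝓕 i, Set.finite_iUnion h1, fun φ hφ => ?_, fun o ho h i =>
    h3 i o ho fun φ hφ => h φ (Set.mem_iUnion.2 ⟨i, hφ⟩)⟩
  obtain ⟨i, hi⟩ := Set.mem_iUnion.1 hφ
  exact h2 i φ hi

lemma Enf.imp {p : Prop} {Q : (U → V) → Prop} (h : p → Enf 𝒦 o0 Q) :
    Enf 𝒦 o0 fun o => p → Q o := by
  by_cases hp : p
  · exact (h hp).mono fun o _ h _ => h
  · exact ⟨∅, Set.finite_empty, by simp, fun o _ _ h => absurd h hp⟩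

lemma enf_clause [Finite V] {Λ : Type} [Finite Λ] [Nonempty Λ] {K : Λ → AddSubgroup V}
    {e : Λ → U} {c : Λ → V} (hK : ∀ l, K l ∈ 𝒦) (hc : ∀ l l', l' ≠ l → c l' ∈ K l)
    (hi : ∀ l l', l' ≠ l → Inv o0 (K l) (e l'))
    (h0 : ∀ u, ∃ l, o0 u - o0 (u - e l) - c l ∈ K l) :
    Enf 𝒦 o0 fun o => ∀ u, ∃ l, o u - o (u - e l) - c l ∈ K l := by
  have := Fintype.ofFinite Λ
  obtain ⟨nxt, hn⟩ := exists_cycle Λ
  refine ⟨{clause nxt K e c}, Set.finite_singleton _, ?_, fun o ho h => ?_⟩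
  · rintro φ rfl
    exact (tiles_clause_iff hn hc hi).2 h0
  · exact (tiles_clause_iff hn hc fun l l' hl => ho _ (hK l) _ (hi l l' hl)).1 (h _ rfl)

theorem aper_of_enf [Finite V] [IsNoetherian ℤ U] (h𝒦 : 𝒦.Finite) {Q : (U → V) → Prop}
    (hE : Enf 𝒦 o0 Q) (hQ : ∀ o, InvAll 𝒦 o0 o → Q o → ¬ Per (gr o))
    {G : Type*} [AddCommGroup G] (π : U × V →+ G) (hπ : Function.Surjective π)
    (hker : ∀ l ∈ π.ker, ∀ a, a ∈ gr o0 ↔ a + l ∈ gr o0) : ∃ 𝓕 : Set (V → G), Aper 𝓕 := by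
  obtain ⟨𝓕, h1, h2, h3⟩ := hE
  have hfg : ∀ K : AddSubgroup V, ∃ S : Set U, AddSubgroup.closure S = invSub o0 K ∧ S.Finite := by
    intro K
    rw [← AddSubgroup.fg_iff, ← (invSub o0 K).toIntSubmodule_toAddSubgroup,
      ← Submodule.fg_iff_addSubgroup_fg]
    exact IsNoetherian.noetherian _
  choose S hS hSf using hfg
  let 𝓖 : Set (V → U × V) := 𝓕 ∪ {vert U V} ∪ ⋃ K ∈ 𝒦, (fun g => single K g 0) '' S K
  have g1 : 𝓖.Finite :=
    (h1.union (Set.finite_singleton _)).union (h𝒦.biUnion fun K _ => (hSf K).image _)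
  have g2 : ∀ φ ∈ 𝓖, Tiles (gr o0) φ := by
    rintro φ ((h | rfl) | h)
    · exact h2 φ h
    · exact tiles_vert o0
    · simp only [Set.mem_iUnion] at h
      obtain ⟨K, -, g, hg, rfl⟩ := h
      have := AddSubgroup.subset_closure hg
      rw [hS] at this
      exact tiles_single_iff.2 this
  refine ⟨(fun φ => π ∘ φ) '' 𝓖, g1.image _, ⟨_, vert U V, Or.inl (Or.inr rfl), rfl⟩,
    ⟨π '' gr o0, ?_⟩, fun A hA ⟨n, hn, hper⟩ => ?_⟩
  · rintro _ ⟨φ, hφ, rfl⟩ g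
    obtain ⟨h, rfl⟩ := hπ g
    have hmem : ∀ a, π a ∈ π '' gr o0 ↔ a ∈ gr o0 := by
      intro a
      refine ⟨fun ⟨b, hb, e⟩ => ?_, fun h => ⟨a, h, rfl⟩⟩
      have := (hker (a - b) (by simp [AddMonoidHom.mem_ker, e]) b).1 hb
      simpa using this
    have e : ∀ y, π h - (π ∘ φ) y ∈ π '' gr o0 ↔ h - φ y ∈ gr o0 := fun y => by
      rw [← hmem, map_sub, Function.comp_apply]
    simpa only [e] using g2 φ hφ h
  · have hT : ∀ φ ∈ 𝓖, Tiles (π ⁻¹' A) φ := fun φ hφ =>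
      tiles_preimage π (fun y => rfl) (hA _ ⟨φ, hφ, rfl⟩)
    obtain ⟨o, ho⟩ := eq_gr_of_tiles_vert (hT (vert U V) (Or.inl (Or.inr rfl)))
    have hI : InvAll 𝒦 o0 o := by
      intro K hK g hg
      have : invSub o0 K ≤ invSub o K := by
        rw [← hS, AddSubgroup.closure_le]
        intro g hg
        refine tiles_single_iff.1 (ho ▸ hT (single K g 0) (Or.inr ?_))
        simp only [Set.mem_iUnion]
        exact ⟨K, hK, g, hg, rfl⟩
      exact this hg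
    refine hQ o hI (h3 o hI fun φ hφ => ho ▸ hT φ (Or.inl (Or.inl hφ))) ⟨n, hn, ?_⟩
    intro g a ha
    rw [← ho] at ha ⊢
    simpa using hper (π g) _ ha

end

end Vale.Agent.P043
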