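import Mathlib.Algebra.BigOperators.Group.Finset.Basic
import Mathlib.Algebra.Group.Prod
import Mathlib.Algebra.Group.Subgroup.Basic
import Mathlib.Algebra.BigOperators.Ring.Finset
import Mathlib.Data.Fintype.Card
import Mathlib.Data.Finite.Prod
import Mathlib.Data.Set.Finite.Basic
import Mathlib.Logic.Function.Iterate
import Mathlib.Tactic.Abel

/-!
Indexed tiles, systems of tiling equations, and the clause gadget.
-/

namespace Vale.Agent.P043

open Finset

section Fam

variable {G : Type*} [AddCommGroup G] {κ : Type*}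

/-- `A` tiles `G` with the indexed tile `φ`. -/
def Tiles (A : Set G) (φ : κ → G) : Prop := ∀ g, ∃! y, g - φ y ∈ A

/-- `A` is invariant under all multiples of some positive integer. -/
def Per (A : Set G) : Prop := ∃ n : ℕ, 0 < n ∧ ∀ g, ∀ a ∈ A, a + n • g ∈ A

/-- A finite nonempty system of tiling equations with a solution but no periodic solution. -/
def Aper (𝓕 : Set (κ → G)) : Prop :=
  𝓕.Finite ∧ 𝓕.Nonempty ∧ (∃ A, ∀ φ ∈ 𝓕, Tiles A φ) ∧ ∀ A, (∀ φ ∈ 𝓕, Tiles A φ) → ¬ Per A

lemma Tiles.nonempty {A : Set G} {φ : κ → G} (h : Tiles A φ) : A.Nonempty := by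
  obtain ⟨y, hy, -⟩ := h 0
  exact ⟨_, hy⟩

lemma Tiles.injective {A : Set G} {φ : κ → G} (h : Tiles A φ) : Function.Injective φ := by
  intro y y' e
  obtain ⟨a, ha⟩ := h.nonempty
  exact (h (a + φ y)).unique (by simpa using ha) (by simpa [e] using ha)

end Fam

section Gadget

variable {U V : Type*} [AddCommGroup U] [AddCommGroup V]

/-- The graph of a function. -/
def gr (o : U → V) : Set (U × V) := {p | p.2 = o p.1}

/-- The vertical tile. -/
def vert (U V : Type*) [AddCommGroup U] : V → U × V := fun y => (0, y)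

lemma tiles_vert (o : U → V) : Tiles (gr o) (vert U V) := by
  rintro ⟨u, v⟩
  refine ⟨v - o u, by simp [gr, vert], fun y hy => ?_⟩
  simp only [gr, vert, Prod.mk_sub_mk, sub_zero, Set.mem_ofPred_eq] at hy
  rw [← hy]; abel

lemma eq_gr_of_tiles_vert {A : Set (U × V)} (h : Tiles A (vert U V)) : ∃ o, A = gr o := by
  choose y hy hu using fun u => h (u, 0)
  refine ⟨fun u => - y u, Set.ext fun ⟨u, v⟩ => ?_⟩
  simp only [vert, Prod.mk_sub_mk, sub_zero, zero_sub] at hy hu
  constructor
  · intro hv
    have := hu u (-v) (by simpa using hv)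
    simp [gr, ← this]
  · intro hv
    simp only [gr, Set.mem_ofPred_eq] at hv
    rw [hv]; exact hy u

lemma tiles_gr_iff [Finite V] (o : U → V) (h : V → U) (k : V → V) :
    Tiles (gr o) (fun y => (h y, k y)) ↔
      ∀ u, Function.Injective fun y => k y + o (u - h y) := by
  constructor
  · intro H u y y' e
    refine (H (u, k y + o (u - h y))).unique ?_ ?_
    · simp [gr]
    · simp only [gr, Prod.mk_sub_mk, Set.mem_ofPred_eq]
      simp only at e
      rw [e]; abel
  · rintro H ⟨u, v⟩
    obtain ⟨y, hy⟩ := (Finite.injective_iff_surjective.1 (H u)) v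
    refine ⟨y, ?_, fun y' hy' => H u ?_⟩
    · simp only [gr, Prod.mk_sub_mk, Set.mem_ofPred_eq]
      simp only at hy
      rw [← hy]; abel
    · simp only [gr, Prod.mk_sub_mk, Set.mem_ofPred_eq] at hy'
      simp only at hy ⊢
      rw [hy, ← hy']; abel

open Classical in
/-- The clause tile. -/
noncomputable def clause {Λ : Type*} [Fintype Λ] (nxt : Λ → Λ) (K : Λ → AddSubgroup V)
    (e : Λ → U) (c : Λ → V) : V → U × V := fun y =>
  (∑ l ∈ univ.filter (fun l => y ∈ K (nxt l)), e l,
    y + ∑ l ∈ univ.filter (fun l => y ∈ K (nxt l)), c l)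

lemma shift_mem {Λ : Type*} [DecidableEq Λ] {K : AddSubgroup V} {e : Λ → U} {c : Λ → V}
    {o : U → V} {l : Λ} (hc : ∀ l', l' ≠ l → c l' ∈ K)
    (hi : ∀ l', l' ≠ l → ∀ u, o u - o (u - e l') ∈ K) (s : Finset Λ) (u : U) :
    ∑ l' ∈ s, c l' + o (u - ∑ l' ∈ s, e l') -
      (if l ∈ s then c l + o (u - e l) else o u) ∈ K := by
  have key : ∀ s : Finset Λ, l ∉ s → ∀ u, ∑ l' ∈ s, c l' + o (u - ∑ l' ∈ s, e l') - o u ∈ K := by
    intro s
    induction s using Finset.induction_on with
    | empty => intro _ u; simp
    | insert a s ha ih =>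
      intro hl u
      rw [mem_insert, not_or] at hl
      have hal : a ≠ l := fun h => hl.1 h.symm
      rw [sum_insert ha, sum_insert ha]
      have h1 := ih hl.2 (u - e a)
      have h2 := hi a hal u
      have h3 := hc a hal
      have := K.add_mem (K.sub_mem h1 h2) h3
      rw [sub_sub] at this
      convert this using 1
      rw [sub_sub]; abel
  split_ifs with hl
  · have := key (s.erase l) (by simp) (u - e l)
    rw [← add_sum_erase s c hl, ← add_sum_erase s e hl]
    rw [sub_sub] at this
    convert this using 1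
    abel
  · exact key s hl u

theorem tiles_clause_iff [Finite V] {Λ : Type*} [Fintype Λ] [Nonempty Λ] {nxt : Λ → Λ}
    (hn : ∀ i j, ∃ n : ℕ, nxt^[n] i = j) {K : Λ → AddSubgroup V} {e : Λ → U} {c : Λ → V}
    {o : U → V} (hc : ∀ l l', l' ≠ l → c l' ∈ K l)
    (hi : ∀ l l', l' ≠ l → ∀ u, o u - o (u - e l') ∈ K l) :
    Tiles (gr o) (clause nxt K e c) ↔ ∀ u, ∃ l, o u - o (u - e l) - c l ∈ K l := by
  classical
  unfold clause
  rw [tiles_gr_iff]
  refine forall_congr' fun u => ?_
  constructor
  · intro H
    by_contra hno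
    push Not at hno
    set y := ∑ l, c l + o (u - ∑ l, e l) - o u with hy
    have hyK : ∀ l, y ∉ K l := by
      intro l hl
      have := shift_mem (hc l) (hi l) univ u
      rw [if_pos (mem_univ l)] at this
      apply hno l
      convert (K l).sub_mem this hl using 1
      rw [hy]; abel
    have : y = 0 := H (by
      simp only [hyK, filter_false, sum_empty, zero_mem, filter_true, sub_zero, add_zero, zero_add]
      rw [hy]; abel)
    obtain ⟨l⟩ := ‹Nonempty Λ›
    exact hyK l (this ▸ (K l).zero_mem)
  · rintro ⟨l0, hl0⟩ y y' hyy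
    simp only at hyy
    have h1 : ∀ l, y - y' + ((if y ∈ K (nxt l) then c l + o (u - e l) else o u) -
        (if y' ∈ K (nxt l) then c l + o (u - e l) else o u)) ∈ K l := by
      intro l
      have a1 := shift_mem (hc l) (hi l) (univ.filter (fun l => y ∈ K (nxt l))) u
      have a2 := shift_mem (hc l) (hi l) (univ.filter (fun l => y' ∈ K (nxt l))) u
      simp only [mem_filter, mem_univ, true_and] at a1 a2
      convert (K l).sub_mem a2 a1 using 1
      rw [← sub_eq_zero] at hyy ⊢
      rw [← hyy]; abel
    have iff_of : ∀ l, y - y' ∈ K l → (y ∈ K l ↔ y' ∈ K l) := fun l h =>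
      ⟨fun a => by simpa using (K l).sub_mem a h, fun a => by simpa using (K l).add_mem h a⟩
    have h0 : y - y' ∈ K l0 := by
      have := h1 l0
      split_ifs at this with p q q
      · simpa using this
      · convert (K l0).add_mem this hl0 using 1; abel
      · convert (K l0).sub_mem this hl0 using 1; abel
      · simpa using this
    have step : ∀ l, y - y' ∈ K (nxt l) → y - y' ∈ K l := by
      intro l h
      have := h1 l
      simpa [iff_of _ h] using this
    have all : ∀ l, y - y' ∈ K l := by
      intro l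
      obtain ⟨n, hn⟩ := hn l l0
      induction n generalizing l with
      | zero => obtain rfl : l = l0 := hn; exact h0
      | succ n ih => exact step l (ih (nxt l) hn)
    simp only [fun l => iff_of l (all l)] at hyy
    simpa using hyy

end Gadget

end Vale.Agent.P043
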