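import Vale.Agent.P043.System
import Mathlib.Data.ZMod.QuotientRing
import Mathlib.NumberTheory.Fermat
import Mathlib.RingTheory.Noetherian.Basic
import Mathlib.RingTheory.Finiteness.Defs
import Mathlib.RingTheory.PrincipalIdealDomain

/-!
Lifting an aperiodic system along a surjective homomorphism.
-/

namespace Vale.Agent.P043

section

variable {H G : Type*} [AddCommGroup H] [AddCommGroup G] {κ : Type*}

lemma tiles_preimage (π : H →+ G) {A : Set G} {φ : κ → G} {ψ : κ → H} (h : ∀ y, π (ψ y) = φ y)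
    (hA : Tiles A φ) : Tiles (π ⁻¹' A) ψ := by
  intro g
  simpa [h] using hA (π g)

lemma inv_of_update [DecidableEq κ] {A : Set H} {ψ : κ → H} {y0 : κ} {l : H} (h : Tiles A ψ)
    (h' : Tiles A (Function.update ψ y0 (ψ y0 + l))) (a : H) : a ∈ A ↔ a + l ∈ A := by
  constructor
  · intro ha
    obtain ⟨y, hy, -⟩ := h (a + l + ψ y0)
    by_cases e : y = y0
    · simpa [e] using hy
    · exact absurd ((h' (a + l + ψ y0)).unique (y₁ := y) (y₂ := y0)
        (by simpa [Function.update_of_ne e] using hy)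
        (by simpa [show a + l + ψ y0 - (ψ y0 + l) = a by abel] using ha)) e
  · intro ha
    obtain ⟨y, hy, -⟩ := h' (a + l + ψ y0)
    by_cases e : y = y0
    · simpa [e, show a + l + ψ y0 - (ψ y0 + l) = a by abel] using hy
    · exact absurd ((h (a + l + ψ y0)).unique (y₁ := y) (y₂ := y0)
        (by simpa [Function.update_of_ne e] using hy) (by simpa using ha)) e

lemma inv_closure {A : Set H} {S : Set H} (h : ∀ l ∈ S, ∀ a, a ∈ A ↔ a + l ∈ A) {l : H}
    (hl : l ∈ AddSubgroup.closure S) : ∀ a, a ∈ A ↔ a + l ∈ A := by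
  induction hl using AddSubgroup.closure_induction with
  | mem x hx => exact h x hx
  | zero => simp
  | add x y _ _ hx hy => intro a; rw [hx a, hy (a + x), add_assoc]
  | neg x _ hx => intro a; rw [hx (a + -x)]; simp

theorem Aper.lift (π : H →+ G) (hπ : Function.Surjective π) (hfg : π.ker.FG)
    {𝓕 : Set (κ → G)} (h : Aper 𝓕) : ∃ 𝓗 : Set (κ → H), Aper 𝓗 := by
  classical
  obtain ⟨hfin, ⟨φ0, hφ0⟩, ⟨A0, hA0⟩, hap⟩ := h
  obtain ⟨S, hS, hSf⟩ := (AddSubgroup.fg_iff _).1 hfg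
  choose s hs using hπ
  obtain ⟨y0, -⟩ := hA0 φ0 hφ0 0
  refine ⟨(fun φ => s ∘ φ) '' 𝓕 ∪
      (fun l => Function.update (s ∘ φ0) y0 ((s ∘ φ0) y0 + l)) '' S,
    (hfin.image _).union (hSf.image _), ⟨_, Or.inl ⟨φ0, hφ0, rfl⟩⟩, ⟨π ⁻¹' A0, ?_⟩, ?_⟩
  · rintro ψ (⟨φ, hφ, rfl⟩ | ⟨l, hl, rfl⟩)
    · exact tiles_preimage π (fun y => hs _) (hA0 φ hφ)
    · refine tiles_preimage π (fun y => ?_) (hA0 φ0 hφ0)
      have : π l = 0 := by
        have := AddSubgroup.subset_closure hl
        rwa [hS] at this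
      by_cases e : y = y0
      · simp [e, this, hs]
      · simp [Function.update_of_ne e, hs]
  · intro A hA ⟨n, hn, hper⟩
    have hinv : ∀ l ∈ π.ker, ∀ a, a ∈ A ↔ a + l ∈ A := by
      intro l hl
      rw [← hS] at hl
      exact inv_closure (fun l hl => inv_of_update (hA _ (Or.inl ⟨φ0, hφ0, rfl⟩))
        (hA _ (Or.inr ⟨l, hl, rfl⟩))) hl
    have hmem : ∀ a, π a ∈ π '' A ↔ a ∈ A := by
      intro a
      refine ⟨fun ⟨b, hb, e⟩ => ?_, fun h => ⟨a, h, rfl⟩⟩
      have := (hinv (a - b) (by simp [AddMonoidHom.mem_ker, e]) b).1 hb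
      simpa using this
    refine hap (π '' A) (fun φ hφ g => ?_) ⟨n, hn, ?_⟩
    · have := hA _ (Or.inl ⟨φ, hφ, rfl⟩) (s g)
      have e : ∀ y, s g - (s ∘ φ) y ∈ A ↔ g - φ y ∈ π '' A := fun y => by
        rw [← hmem, map_sub, hs, Function.comp_apply, hs]
      simpa only [e] using this
    · rintro g _ ⟨a, ha, rfl⟩
      exact ⟨a + n • s g, hper _ a ha, by simp [hs]⟩

end

lemma crt {ι : Type*} [Fintype ι] (a : ι → ℕ) (h : Pairwise fun i j => (a i).Coprime (a j))
    (t : ∀ i, ZMod (a i)) : ∃ n : ℤ, ∀ i, (n : ZMod (a i)) = t i := by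
  obtain ⟨z, hz⟩ := (ZMod.prodEquivPi a h).surjective t
  obtain ⟨n, rfl⟩ := ZMod.intCast_surjective z
  refine ⟨n, fun i => ?_⟩
  rw [map_intCast] at hz
  rw [← hz]; rfl

/-- An aperiodic system in `ℤ^d` for `d ≥ 4`. -/
theorem aper_int (d : ℕ) (hd : 4 ≤ d) :
    ∃ (κ : Type) (_ : Finite κ) (𝓗 : Set (κ → (Fin d → ℤ))), Aper 𝓗 := by
  let e := Fintype.equivFin I
  let q : I → ℕ := fun i => Nat.fermatNumber (e i)
  have : ∀ i, Fact (1 < q i) := fun i => ⟨(Nat.two_lt_fermatNumber _).trans' one_lt_two⟩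
  have hq : Pairwise fun i j => (q i).Coprime (q j) := fun i j h =>
    Nat.coprime_fermatNumber_fermatNumber fun h' => h (e.injective (Fin.ext h'))
  obtain ⟨𝓕, h𝓕⟩ := aper_sys q
  let i0 : Fin d := ⟨0, by omega⟩
  let i1 : Fin d := ⟨1, by omega⟩
  let i2 : Fin d := ⟨2, by omega⟩
  let i3 : Fin d := ⟨3, by omega⟩
  let π : (Fin d → ℤ) →+ UU q × VV q :=
    { toFun := fun x => (((x i0, x i1), fun i => (x i2 : ZMod (q i))),
        ((x i3 : ZMod 2), fun i => (x i3 : ZMod (q i))))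
      map_zero' := by ext <;> simp
      map_add' := fun x y => by ext <;> simp }
  have hπ : Function.Surjective π := by
    rintro ⟨⟨⟨a, b⟩, t⟩, ⟨z, y⟩⟩
    obtain ⟨n, hn⟩ := crt q hq t
    obtain ⟨m, hm⟩ := crt (fun j : Option I => match j with | none => 2 | some i => q i)
      (by
        rintro (_ | i) (_ | j) h
        · exact absurd rfl h
        · exact (Nat.coprime_two_left.2 (Nat.odd_fermatNumber _))
        · exact (Nat.coprime_two_right.2 (Nat.odd_fermatNumber _))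
        · exact hq fun h' => h (congrArg some h'))
      (fun j => match j with | none => z | some i => y i)
    refine ⟨fun k => if k.val = 0 then a else if k.val = 1 then b else if k.val = 2 then n else m, ?_⟩
    have h0 : (m : ZMod 2) = z := hm none
    have h1 : ∀ i, (m : ZMod (q i)) = y i := fun i => hm (some i)
    ext <;> simp [π, i0, i1, i2, i3, hn, h0, h1]
  have hfg : π.ker.FG := by
    rw [← π.ker.toIntSubmodule_toAddSubgroup, ← Submodule.fg_iff_addSubgroup_fg]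
    exact IsNoetherian.noetherian _
  obtain ⟨𝓗, h⟩ := h𝓕.lift π hπ hfg
  exact ⟨_, inferInstance, 𝓗, h⟩

end Vale.Agent.P043
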