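import Vale.Agent.P043.Rigid
import Mathlib.LinearAlgebra.Matrix.NonsingularInverse
import Mathlib.MeasureTheory.Function.Floor
import Mathlib.MeasureTheory.Measure.OpenPos
import Mathlib.MeasureTheory.Group.Measure

/-!
From a rigid aperiodic tile of `ℤ^d` to an aperiodic tile of `ℝ^d`.
-/

namespace Vale.Agent.P043

open MeasureTheory

variable {d : ℕ}

/-- The coordinatewise floor. -/
noncomputable def fl (x : Fin d → ℝ) : Fin d → ℤ := fun k => ⌊x k⌋

/-- The coordinatewise cast. -/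
def ca (z : Fin d → ℤ) : Fin d → ℝ := fun k => (z k : ℝ)

lemma fl_add_ca (x : Fin d → ℝ) (z : Fin d → ℤ) : fl (x + ca z) = fl x + z := by
  funext k; simp [fl, ca]

lemma fl_sub_ca (x : Fin d → ℝ) (z : Fin d → ℤ) : fl (x - ca z) = fl x - z := by
  funext k; simp [fl, ca]

lemma measurable_fl : Measurable (fl : (Fin d → ℝ) → (Fin d → ℤ)) :=
  measurable_pi_lambda _ fun k => Int.measurable_floor.comp (measurable_pi_apply k)

/-- The union of unit cubes. -/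
def cubes (F : Finset (Fin d → ℤ)) : Set (Fin d → ℝ) := fl ⁻¹' (F : Set (Fin d → ℤ))

lemma measurableSet_cubes (F : Finset (Fin d → ℤ)) : MeasurableSet (cubes F) :=
  measurable_fl F.measurableSet

lemma bounded_cubes (F : Finset (Fin d → ℤ)) : Bornology.IsBounded (cubes F) := by
  have : cubes F ⊆ ⋃ f ∈ F, Set.Icc (ca f) (ca f + 1) := by
    intro x hx
    simp only [Set.mem_iUnion]
    refine ⟨fl x, hx, fun k => Int.floor_le _, fun k => (Int.lt_floor_add_one _).le⟩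
  refine Bornology.IsBounded.subset ?_ this
  rw [Bornology.isBounded_biUnion_finset]
  intro f _
  exact Metric.isBounded_Icc _ _

lemma cubes_pos {F : Finset (Fin d → ℤ)} (hF : F.Nonempty) : 0 < volume (cubes F) := by
  obtain ⟨f, hf⟩ := hF
  have ho : IsOpen (Set.pi Set.univ fun k => Set.Ioo (f k : ℝ) (f k + 1)) :=
    isOpen_set_pi Set.finite_univ fun k _ => isOpen_Ioo
  refine lt_of_lt_of_le (ho.measure_pos volume ⟨fun k => f k + 1 / 2, fun k _ => ?_⟩)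
    (measure_mono fun x hx => ?_)
  · constructor <;> simp only <;> linarith
  · have : fl x = f := funext fun k => Int.floor_eq_iff.2 ⟨(hx k trivial).1.le, (hx k trivial).2⟩
    simpa [cubes, this] using hf

lemma mem_translate {Ω : Set (Fin d → ℝ)} {a x : Fin d → ℝ} :
    x ∈ (fun x => x + a) '' Ω ↔ x - a ∈ Ω :=
  ⟨by rintro ⟨y, hy, rfl⟩; simpa using hy, fun h => ⟨_, h, by simp⟩⟩

lemma translate_eq (Ω : Set (Fin d → ℝ)) (a : Fin d → ℝ) :
    (fun x => x + a) '' Ω = (fun x => x + (-a)) ⁻¹' Ω := by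
  ext x; rw [mem_translate, sub_eq_add_neg]; rfl

lemma isTilingR_cubes {F : Finset (Fin d → ℤ)} {B : Set (Fin d → ℤ)} (h : IsTiling B F) :
    IsTilingR (ca '' B) (cubes F) := by
  constructor
  · convert measure_empty (μ := volume)
    rw [Set.compl_empty_iff, Set.eq_univ_iff_forall]
    intro x
    obtain ⟨⟨b, f⟩, ⟨hb, hf, e⟩, -⟩ := h (fl x)
    simp only [Set.mem_iUnion, mem_translate]
    refine ⟨ca b, ⟨b, hb, rfl⟩, ?_⟩
    simp only at e hf
    simpa [cubes, fl_sub_ca, ← e] using hf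
  · rintro _ ⟨a, ha, rfl⟩ _ ⟨b, hb, rfl⟩ hab
    convert measure_empty (μ := volume)
    rw [Set.eq_empty_iff_forall_notMem]
    rintro x ⟨h1, h2⟩
    rw [mem_translate, cubes, Set.mem_preimage, fl_sub_ca] at h1 h2
    have := (h (fl x)).unique (y₁ := (a, fl x - a)) (y₂ := (b, fl x - b))
      ⟨ha, h1, by simp⟩ ⟨hb, h2, by simp⟩
    exact hab (congrArg ca (congrArg Prod.fst this))

lemma IsTilingR.ae_unique {A Ω : Set (Fin d → ℝ)} (hm : MeasurableSet Ω) (hp : 0 < volume Ω)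
    (h : IsTilingR A Ω) : ∀ᵐ x, ∃! a, a ∈ A ∧ x - a ∈ Ω := by
  have hc : A.Countable := by
    have := Measure.countable_meas_pos_of_disjoint_iUnion₀ (μ := volume)
      (As := fun a : A => (fun x => x + a.1) '' Ω)
      (fun a => by
        rw [translate_eq]
        exact ((measurable_add_const _) hm).nullMeasurableSet)
      (fun a b hab => h.2 a a.2 b b.2 fun e => hab (Subtype.ext e))
    have e : {a : A | 0 < volume ((fun x => x + a.1) '' Ω)} = Set.univ := by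
      rw [Set.eq_univ_iff_forall]
      intro a
      rw [Set.mem_ofPred_eq, translate_eq, measure_preimage_add_right]
      exact hp
    rw [e, Set.countable_univ_iff] at this
    exact this
  have h1 : ∀ᵐ x, x ∈ ⋃ a ∈ A, (fun x => x + a) '' Ω := h.1
  have h2 : ∀ᵐ x, ∀ a ∈ A, ∀ b ∈ A, x - a ∈ Ω → x - b ∈ Ω → a = b := by
    rw [ae_ball_iff hc]
    intro a ha
    rw [ae_ball_iff hc]
    intro b hb
    by_cases hab : a = b
    · simp [hab]
    · have := measure_eq_zero_iff_ae_notMem.1 (h.2 a ha b hb hab)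
      filter_upwards [this] with x hx h1 h2
      exact absurd ⟨mem_translate.2 h1, mem_translate.2 h2⟩ hx
  filter_upwards [h1, h2] with x hx1 hx2
  simp only [Set.mem_iUnion, mem_translate] at hx1
  obtain ⟨a, ha, hxa⟩ := hx1
  exact ⟨a, ⟨ha, hxa⟩, fun b hb => hx2 b hb.1 a ha hb.2 hxa⟩

lemma IsTilingR.ae_isTiling {A : Set (Fin d → ℝ)} {F : Finset (Fin d → ℤ)} (hF : F.Nonempty)
    (h : IsTilingR A (cubes F)) : ∀ᵐ θ, IsTiling ((fun a => - fl (θ - a)) '' A) F := by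
  have h1 := h.ae_unique (measurableSet_cubes F) (cubes_pos hF)
  have h2 : ∀ᵐ θ, ∀ z : Fin d → ℤ, ∃! a, a ∈ A ∧ θ + ca z - a ∈ cubes F := by
    rw [ae_all_iff]
    intro z
    exact (measurePreserving_add_right volume (ca z)).quasiMeasurePreserving.ae h1
  filter_upwards [h2] with θ hθ z
  have e : ∀ a, θ + ca z - a ∈ cubes F ↔ fl (θ - a) + z ∈ F := fun a => by
    rw [cubes, Set.mem_preimage, add_sub_right_comm, fl_add_ca]; rfl
  obtain ⟨a, ⟨ha, hz⟩, hu⟩ := hθ z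
  refine ⟨(- fl (θ - a), fl (θ - a) + z), ⟨⟨a, ha, rfl⟩, (e a).1 hz, by simp⟩, ?_⟩
  rintro ⟨_, f⟩ ⟨⟨b, hb, rfl⟩, hf, hs⟩
  simp only at hf hs
  have hf' : f = fl (θ - b) + z := by rw [← hs]; abel
  obtain rfl := hu b ⟨hb, (e b).2 (hf' ▸ hf)⟩
  rw [hf']

lemma exists_mem_slab {p : (Fin d → ℝ) → Prop} (h : ∀ᵐ θ, p θ) (k : Fin d) {s t : ℝ}
    (hst : s < t) : ∃ θ, p θ ∧ s < θ k ∧ θ k < t := by
  have ho : IsOpen ((fun θ : Fin d → ℝ => θ k) ⁻¹' Set.Ioo s t) :=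
    isOpen_Ioo.preimage (continuous_apply k)
  obtain ⟨θ, h1, h2⟩ := (Measure.dense_of_ae h).inter_open_nonempty _ ho
    ⟨fun _ => (s + t) / 2, by constructor <;> simp only <;> linarith⟩
  exact ⟨θ, h2, h1⟩

lemma int_diff {α α' : ℝ} (h : ∀ s t : ℝ, s < t → ∃ θ, s < θ ∧ θ < t ∧
    (2 : ℤ) ∣ -⌊θ - α⌋ - -⌊θ - α'⌋) : ∃ n : ℤ, α - α' = n := by
  by_contra hc
  push Not at hc
  have h0 : (⌊α - α'⌋ : ℝ) < α - α' := lt_of_le_of_ne (Int.floor_le _) (hc _).symm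
  have h1 := Int.lt_floor_add_one (α - α')
  obtain ⟨m, hm⟩ : ∃ m, m = ⌊α - α'⌋ := ⟨_, rfl⟩
  rw [← hm] at h0 h1
  obtain ⟨θ, a1, a2, a3⟩ := h α (α' + m + 1) (by linarith)
  obtain ⟨θ', b1, b2, b3⟩ := h (α' + m + 1) (α + 1) (by linarith)
  have e1 : ⌊θ - α⌋ = 0 := Int.floor_eq_iff.2 ⟨by simp; linarith, by simp; linarith⟩
  have e2 : ⌊θ - α'⌋ = m := Int.floor_eq_iff.2 ⟨by linarith, by linarith⟩
  have e3 : ⌊θ' - α⌋ = 0 := Int.floor_eq_iff.2 ⟨by simp; linarith, by simp; linarith⟩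
  have e4 : ⌊θ' - α'⌋ = m + 1 := Int.floor_eq_iff.2 ⟨by push_cast; linarith, by push_cast; linarith⟩
  omega

lemma full_rank {w : Fin d → (Fin d → ℤ)} (h : LinearIndependent ℝ fun i => ca (w i)) :
    ∃ n : ℕ, 0 < n ∧ ∀ g : Fin d → ℤ, ∃ c : Fin d → ℤ, n • g = ∑ i, c i • w i := by
  let W : Matrix (Fin d) (Fin d) ℤ := Matrix.of w
  have h1 : IsUnit (W.map (Int.castRingHom ℝ)) := Matrix.linearIndependent_rows_iff_isUnit.1 h
  have h2 : W.det ≠ 0 := by
    intro h0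
    rw [Matrix.isUnit_iff_isUnit_det, ← RingHom.mapMatrix_apply, ← RingHom.map_det, h0] at h1
    simp at h1
  refine ⟨W.det.natAbs ^ 2, by positivity, fun g => ⟨W.det • Matrix.vecMul g W.adjugate, ?_⟩⟩
  have e : ∀ c : Fin d → ℤ, ∑ i, c i • w i = Matrix.vecMul c W := by
    intro c
    funext k
    simp [Matrix.vecMul, dotProduct, W]
  rw [e, Matrix.smul_vecMul, Matrix.vecMul_vecMul, Matrix.adjugate_mul, Matrix.vecMul_smul,
    Matrix.vecMul_one, smul_smul, ← natCast_zsmul]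
  congr 1
  push_cast
  rw [sq_abs, sq]

theorem RigidTile.real {F : Finset (Fin d → ℤ)} (h : RigidTile F) :
    Bornology.IsBounded (cubes F) ∧ MeasurableSet (cubes F) ∧ 0 < volume (cubes F) ∧
      (∃ A, IsTilingR A (cubes F)) ∧ ∀ A, IsTilingR A (cubes F) → ¬ IsPeriodicR A := by
  obtain ⟨hne, ⟨B, hB⟩, hr⟩ := h
  refine ⟨bounded_cubes F, measurableSet_cubes F, cubes_pos hne, ⟨_, isTilingR_cubes hB⟩, ?_⟩
  rintro A hA ⟨v, hv, hper⟩
  have h1 := hA.ae_isTiling hne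
  have hint : ∀ a ∈ A, ∀ a' ∈ A, ∀ k, ∃ n : ℤ, a k - a' k = n := by
    intro a ha a' ha' k
    refine int_diff fun s t hst => ?_
    obtain ⟨θ, hθ, h2, h3⟩ := exists_mem_slab h1 k hst
    exact ⟨θ k, h2, h3, (hr _ hθ).2 k _ ⟨a, ha, rfl⟩ _ ⟨a', ha', rfl⟩⟩
  obtain ⟨θ, hθ⟩ := h1.exists
  obtain ⟨⟨_, _⟩, ⟨⟨a0, ha0, -⟩, -⟩, -⟩ := hθ 0
  have hadd : ∀ h ∈ Submodule.span ℤ (Set.range v), ∀ a ∈ A, a + h ∈ A := by
    intro h hh a ha
    rw [← hper h hh]
    exact ⟨a, ha, rfl⟩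
  have hw : ∀ i, ∃ w : Fin d → ℤ, ca w = v i := by
    intro i
    choose w hw using hint _ (hadd (v i) (Submodule.subset_span ⟨i, rfl⟩) a0 ha0) a0 ha0
    exact ⟨w, funext fun k => by simpa [ca] using (hw k).symm⟩
  choose w hw using hw
  obtain ⟨n, hn, hg⟩ := full_rank (w := w) (by simpa only [hw] using hv)
  refine (hr _ hθ).1 ⟨n, hn, ?_⟩
  rintro g _ ⟨a, ha, rfl⟩
  obtain ⟨c, hc⟩ := hg g
  refine ⟨a + ca (n • g), hadd _ ?_ a ha, ?_⟩
  · have : ca (n • g) = ∑ i, c i • v i := by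
      rw [hc]
      funext k
      simp [ca, ← hw]
    rw [this]
    exact Submodule.sum_mem _ fun i _ =>
      Submodule.smul_mem _ _ (Submodule.subset_span ⟨i, rfl⟩)
  · simp only
    rw [← sub_sub, fl_sub_ca]; abel

end Vale.Agent.P043
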