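import Vale.Agent.P043.Concat
import Vale.Agent.P043.Defs
import Mathlib.GroupTheory.OrderOfElement
import Mathlib.Algebra.BigOperators.Pi

/-!
From an aperiodic system in `ℤ^d` to a single rigid aperiodic tile.
-/

namespace Vale.Agent.P043

/-- A solvable system all of whose solutions are aperiodic and rigid in the coordinates of `s`. -/
def RigidSys {d : ℕ} {κ : Type} (𝓕 : Set (κ → (Fin d → ℤ))) (s : Set (Fin d)) : Prop :=
  𝓕.Finite ∧ 𝓕.Nonempty ∧ (∃ A, ∀ φ ∈ 𝓕, Tiles A φ) ∧ ∀ A, (∀ φ ∈ 𝓕, Tiles A φ) →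
    ¬ Per A ∧ ∀ k ∈ s, ∀ a ∈ A, ∀ a' ∈ A, 2 ∣ a k - a' k

lemma closure_single (d : ℕ) :
    AddSubgroup.closure (Set.range fun k : Fin d => (Pi.single k 1 : Fin d → ℤ)) = ⊤ := by
  rw [eq_top_iff]
  intro x _
  rw [← Finset.univ_sum_single x]
  refine AddSubgroup.sum_mem _ fun k _ => ?_
  have : (Pi.single k (x k) : Fin d → ℤ) = x k • Pi.single k 1 := by
    rw [← Pi.single_smul]; simp
  rw [this]
  exact AddSubgroup.zsmul_mem _ (AddSubgroup.subset_closure (Set.mem_range_self k)) _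

lemma RigidSys.step {d : ℕ} {κ : Type} [Finite κ] {𝓕 : Set (κ → (Fin d → ℤ))} {s : Set (Fin d)}
    (h : RigidSys 𝓕 s) (k : Fin d) :
    ∃ (κ' : Type) (_ : Finite κ') (Φ : κ' → (Fin d → ℤ)), RigidSys {Φ} (insert k s) := by
  obtain ⟨hfin, hne, hsol, hr⟩ := h
  obtain ⟨κ', hκ', Φ, M, ⟨A0, hA0⟩, H⟩ := Aper.concat (e := Pi.single k 1)
    (ρ := Pi.evalAddMonoidHom (fun _ => ℤ) k) (by simp) (Set.finite_range _) (closure_single d)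
    hfin hne hsol
  refine ⟨κ', hκ', Φ, Set.finite_singleton _, Set.singleton_nonempty _,
    ⟨A0, by simpa using hA0⟩, fun A hA => ?_⟩
  obtain ⟨a0, A', hA', h1, h2⟩ := H A (hA Φ rfl)
  obtain ⟨hnp, hrig⟩ := hr A' hA'
  refine ⟨fun ⟨n, hn, hper⟩ => hnp ⟨n, hn, fun g a ha => ?_⟩, fun l hl a ha a' ha' => ?_⟩
  · rw [h1] at ha ⊢
    rw [map_add, map_nsmul, ← add_assoc]
    exact hper _ _ ha
  · obtain ⟨b, rfl⟩ := h2 a ha
    obtain ⟨b', rfl⟩ := h2 a' ha'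
    by_cases hlk : l = k
    · subst hlk
      refine ⟨M * (b l - b' l), ?_⟩
      simp [stretch_apply]; ring
    · have := hrig l (by simpa [hlk] using hl) b ((h1 b).2 ha) b' ((h1 b').2 ha')
      simpa [stretch_apply, Pi.single_eq_of_ne hlk] using this

theorem rigid_of_aper {d : ℕ} (hd : 0 < d) {κ : Type} [Finite κ] {𝓕 : Set (κ → (Fin d → ℤ))}
    (h : Aper 𝓕) : ∃ (κ' : Type) (_ : Finite κ') (Φ : κ' → (Fin d → ℤ)), (∃ A, Tiles A Φ) ∧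
      ∀ A, Tiles A Φ → ¬ Per A ∧ ∀ k, ∀ a ∈ A, ∀ a' ∈ A, 2 ∣ a k - a' k := by
  classical
  have key : ∀ s : Finset (Fin d), ∃ (κ' : Type) (_ : Finite κ') (𝓖 : Set (κ' → (Fin d → ℤ))),
      RigidSys 𝓖 (s : Set (Fin d)) := by
    intro s
    induction s using Finset.induction_on with
    | empty => exact ⟨κ, inferInstance, 𝓕, h.1, h.2.1, h.2.2.1, fun A hA =>
        ⟨h.2.2.2 A hA, by simp⟩⟩
    | insert k s _ ih =>
      obtain ⟨κ', _, 𝓖, h⟩ := ih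
      obtain ⟨κ'', _, Φ, h⟩ := h.step k
      exact ⟨κ'', inferInstance, {Φ}, by simpa using h⟩
  obtain ⟨κ', _, 𝓖, h⟩ := key Finset.univ
  obtain ⟨κ'', _, Φ, -, -, ⟨A0, hA0⟩, h⟩ := h.step ⟨0, hd⟩
  refine ⟨κ'', inferInstance, Φ, ⟨A0, hA0 Φ rfl⟩, fun A hA => ?_⟩
  obtain ⟨h1, h2⟩ := h A (by simpa using hA)
  exact ⟨h1, fun k => h2 k (by simp)⟩

lemma isTiling_iff {G : Type} [AddCommGroup G] {κ : Type} {Φ : κ → G}
    (hΦ : Function.Injective Φ) {F : Finset G} (hF : ∀ f, f ∈ F ↔ f ∈ Set.range Φ) (A : Set G) :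
    IsTiling A F ↔ Tiles A Φ := by
  refine forall_congr' fun g => ⟨?_, ?_⟩
  · rintro ⟨⟨a, f⟩, ⟨ha, hf, e⟩, hu⟩
    obtain ⟨y, rfl⟩ := (hF f).1 hf
    refine ⟨y, by simpa [← e] using ha, fun y' hy' => hΦ ?_⟩
    have := hu (g - Φ y', Φ y') ⟨hy', (hF _).2 ⟨y', rfl⟩, by simp⟩
    exact congrArg Prod.snd this
  · rintro ⟨y, hy, hu⟩
    refine ⟨(g - Φ y, Φ y), ⟨hy, (hF _).2 ⟨y, rfl⟩, by simp⟩, ?_⟩
    rintro ⟨a, f⟩ ⟨ha, hf, e⟩
    obtain ⟨y', rfl⟩ := (hF f).1 hf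
    obtain rfl := hu y' (by simpa [← e] using ha)
    simp [← e]

lemma IsPeriodic.per {G : Type} [AddCommGroup G] {A : Set G} (h : IsPeriodic A) : Per A := by
  obtain ⟨H, hH, h⟩ := h
  refine ⟨H.index, Nat.pos_of_ne_zero hH.index_ne_zero, fun g a ha => ?_⟩
  rw [← h _ (H.nsmul_index_mem g)]
  exact ⟨a, ha, rfl⟩

/-- A rigid aperiodic tile of `ℤ^d`. -/
def RigidTile {d : ℕ} (F : Finset (Fin d → ℤ)) : Prop :=
  F.Nonempty ∧ (∃ A, IsTiling A F) ∧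
    ∀ A, IsTiling A F → ¬ Per A ∧ ∀ k, ∀ a ∈ A, ∀ a' ∈ A, 2 ∣ a k - a' k

theorem rigidTile_of_aper {d : ℕ} (hd : 0 < d) {κ : Type} [Finite κ]
    {𝓕 : Set (κ → (Fin d → ℤ))} (h : Aper 𝓕) : ∃ F : Finset (Fin d → ℤ), RigidTile F := by
  obtain ⟨κ', _, Φ, ⟨A0, hA0⟩, h⟩ := rigid_of_aper hd h
  have hF : ∀ f, f ∈ (Set.finite_range Φ).toFinset ↔ f ∈ Set.range Φ := by simp
  obtain ⟨y, -⟩ := hA0 0
  refine ⟨(Set.finite_range Φ).toFinset, ⟨Φ y, by simp⟩,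
    ⟨A0, (isTiling_iff hA0.injective hF _).2 hA0⟩, fun A hA => ?_⟩
  exact h A ((isTiling_iff hA0.injective hF _).1 hA)

theorem exists_rigidTile (d : ℕ) (hd : 4 ≤ d) : ∃ F : Finset (Fin d → ℤ), RigidTile F := by
  obtain ⟨κ, _, 𝓗, h⟩ := aper_int d hd
  exact rigidTile_of_aper (by omega) h

end Vale.Agent.P043
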