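import Mathlib.Tactic.Ring
import Mathlib.Tactic.Linarith
import Mathlib.Tactic.IntervalCases
import Mathlib.Tactic.LinearCombination
import Mathlib.Algebra.Order.Ring.Int
import Mathlib.Algebra.Ring.Parity

/-!
A two-adic Sudoku puzzle without periodic nondegenerate solutions.
-/

namespace Vale.Agent.P043

/-- The local rule between a digit `g` and the value `t` of an affine function. -/
def Rel (g t : ℤ) : Prop :=
  (t % 2 = 1 → (g - t) % 64 = 0) ∧ ∀ s : ℤ, t = 2 * s → s % 2 = 1 → (g - s) % 4 = 0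

def Sol (F : ℕ → ℤ → ℤ) : Prop :=
  ∀ i j : ℤ, ∃ a b : ℤ, (a % 2 = 1 ∨ b % 2 = 1) ∧ ∀ n < 8, Rel (F n (i + j * n)) (a * n + b)

def Par (F : ℕ → ℤ → ℤ) : Prop :=
  ∀ i j : ℤ, (j % 2 = 1 ∨ i % 2 = 1) →
    ∃ a b : ℤ, a % 2 = j % 2 ∧ b % 2 = i % 2 ∧ ∀ n < 8, Rel (F n (i + j * n)) (a * n + b)

lemma odd_mul_emod {μ : ℤ} (hμ : μ % 2 = 1) (i : ℤ) : (μ * i) % 2 = i % 2 := by
  rw [Int.mul_emod, hμ]; simp

lemma lemA_two {i j a b A B f0 f2 : ℤ} {n : ℕ} (hn : n < 2) (p2 : B % 2 = j % 2)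
    (h1 : (i + j * n) % 2 = 1) (h2 : (a * n + b) % 2 = 1)
    (e1 : (f0 - (A + B * n)) % 4 = 0) (e2 : (f2 - (A + B * ((n + 2 : ℕ) : ℤ))) % 4 = 0)
    (e3 : (f0 - (a * n + b)) % 64 = 0) (e4 : (f2 - (a * ((n + 2 : ℕ) : ℤ) + b)) % 64 = 0) :
    a % 2 = j % 2 ∧ b % 2 = i % 2 := by
  have : a % 2 = j % 2 := by
    rw [show B * ((n + 2 : ℕ) : ℤ) = B * n + 2 * B by push_cast; ring] at e2
    rw [show a * ((n + 2 : ℕ) : ℤ) = a * n + 2 * a by push_cast; ring] at e4
    clear h1 h2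
    omega
  clear e1 e2 e3 e4
  interval_cases n <;> push_cast at * <;> omega

lemma lemA_key {i j a b : ℤ} (hij : j % 2 = 1 ∨ i % 2 = 1) (hab : a % 2 = 1 ∨ b % 2 = 1)
    (two : ∀ n : ℕ, n < 2 → (i + j * n) % 2 = 1 → (a * n + b) % 2 = 1 →
      a % 2 = j % 2 ∧ b % 2 = i % 2)
    (four : ∀ n : ℕ, n < 4 → (i + j * n) % 2 = 1 → (a * n + b) % 4 = 2 → a % 2 = 1 → False) :
    a % 2 = j % 2 ∧ b % 2 = i % 2 := by
  have t0 := two 0 (by norm_num)
  have t1 := two 1 (by norm_num)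
  have f0 := four 0 (by norm_num)
  have f1 := four 1 (by norm_num)
  have f2 := four 2 (by norm_num)
  have f3 := four 3 (by norm_num)
  push_cast at t0 t1 f0 f1 f2 f3
  clear two four
  by_cases c0 : i % 2 = 1 ∧ b % 2 = 1
  · exact t0 (by omega) (by omega)
  by_cases c1 : (i + j) % 2 = 1 ∧ (a + b) % 2 = 1
  · exact t1 (by omega) (by omega)
  clear t0 t1
  have ha : a % 2 = 1 := by
    clear f0 f1 f2 f3
    omega
  exfalso
  by_cases hi : i % 2 = 1
  · clear f1 f3
    have hb : b % 4 = 2 ∨ b % 4 = 0 := by clear f0 f2; omega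
    rcases hb with hb | hb
    · exact f0 (by clear f0 f2; omega) (by clear f0 f2; omega) ha
    · exact f2 (by clear f0 f2; omega) (by clear f0 f2; omega) ha
  · clear f0 f2
    have hb : (a + b) % 4 = 2 ∨ (a + b) % 4 = 0 := by clear f1 f3; omega
    rcases hb with hb | hb
    · exact f1 (by clear f1 f3; omega) (by clear f1 f3; omega) ha
    · exact f3 (by clear f1 f3; omega) (by clear f1 f3; omega) ha

lemma lemA {F : ℕ → ℤ → ℤ} (hS : Sol F) {μ : ℤ} (hμ : μ % 2 = 1)
    (hG : ∀ n < 8, ∀ m : ℤ, m % 2 = 1 → (F n m - μ * m) % 4 = 0) : Par F := by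
  intro i j hij
  obtain ⟨a, b, hab, h⟩ := hS i j
  have p2 := odd_mul_emod hμ j
  have g : ∀ n : ℕ, n < 8 → (i + j * n) % 2 = 1 →
      (F n (i + j * n) - (μ * i + μ * j * n)) % 4 = 0 := by
    intro n hn ho
    have := hG n hn _ ho
    rwa [show μ * (i + j * n) = μ * i + μ * j * n by ring] at this
  have two : ∀ n : ℕ, n < 2 → (i + j * n) % 2 = 1 → (a * n + b) % 2 = 1 →
      a % 2 = j % 2 ∧ b % 2 = i % 2 := by
    intro n hn h1 h2
    exact lemA_two hn p2 h1 h2 (g n (by omega) h1)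
      (g (n + 2) (by omega) (by push_cast; rw [mul_add]; omega)) ((h n (by omega)).1 h2)
      ((h (n + 2) (by omega)).1 (by push_cast; rw [mul_add]; omega))
  have four : ∀ n : ℕ, n < 4 → (i + j * n) % 2 = 1 → (a * n + b) % 4 = 2 → a % 2 = 1 → False := by
    intro n hn h1 h2 h3
    have e1 := g n (by omega) h1
    have e2 := g (n + 4) (by omega) (by push_cast; rw [mul_add]; omega)
    have e3 := (h n (by omega)).2 ((a * n + b) / 2) (by omega) (by omega)
    have e4 := (h (n + 4) (by omega)).2 ((a * n + b) / 2 + 2 * a)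
      (by push_cast; rw [mul_add a]; omega) (by omega)
    rw [show μ * j * ((n + 4 : ℕ) : ℤ) = μ * j * n + 4 * (μ * j) by push_cast; ring] at e2
    generalize (a * n + b) / 2 = s at *
    clear h1 h2 p2 hab hij
    omega
  have key := lemA_key hij hab two four
  exact ⟨a, b, key.1, key.2, h⟩

lemma lemB {F : ℕ → ℤ → ℤ} (hP : Par F) :
    ∃ μ A B : ℤ, μ % 2 = 1 ∧ A % 2 = 0 ∧ B % 2 = 0 ∧
      ∀ n < 8, ∀ m : ℤ, m % 2 = 1 → (F n m - (μ * m + A * n + B)) % 16 = 0 := by
  -- affine along all lines through odd cells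
  have L : ∀ k l : ℤ, ∃ a b : ℤ, a % 2 = 0 ∧ b % 2 = 1 ∧
      ∀ n < 8, (F n (2 * (k + l * n) + 1) - (a * n + b)) % 64 = 0 := by
    intro k l
    obtain ⟨a, b, ha, hb, h⟩ := hP (2 * k + 1) (2 * l) (Or.inr (by omega))
    refine ⟨a, b, by omega, by omega, fun n hn => ?_⟩
    have h1 := (h n hn).1 (by
      have : (a * n) % 2 = 0 := by rw [Int.mul_emod]; simp [show a % 2 = 0 by omega]
      omega)
    rwa [show 2 * k + 1 + 2 * l * n = 2 * (k + l * n) + 1 by ring] at h1
  have S : ∀ n < 6, ∀ x l : ℤ,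
      (F n (2 * x + 1) - 2 * F (n + 1) (2 * (x + l) + 1) + F (n + 2) (2 * (x + 2 * l) + 1)) % 64
        = 0 := by
    intro n hn x l
    obtain ⟨a, b, -, -, h⟩ := L (x - l * n) l
    have h0 := h n (by omega)
    have h1 := h (n + 1) (by omega)
    have h2 := h (n + 2) (by omega)
    rw [show x - l * n + l * n = x by ring] at h0
    rw [show x - l * n + l * ((n + 1 : ℕ) : ℤ) = x + l by push_cast; ring,
      show a * ((n + 1 : ℕ) : ℤ) = a * n + a by push_cast; ring] at h1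
    rw [show x - l * n + l * ((n + 2 : ℕ) : ℤ) = x + 2 * l by push_cast; ring,
      show a * ((n + 2 : ℕ) : ℤ) = a * n + 2 * a by push_cast; ring] at h2
    omega
  obtain ⟨D, hD⟩ : ∃ D : ℕ → ℤ → ℤ, ∀ n x, D n x = F n (2 * (x + 1) + 1) - F n (2 * x + 1) :=
    ⟨_, fun _ _ => rfl⟩
  have S1 : ∀ n < 6, ∀ x l : ℤ, (D n x - D (n + 2) (x + 2 * l + 1)) % 64 = 0 := by
    intro n hn x l
    have h0 := S n hn x (l + 1)
    have h1 := S n hn (x + 1) l
    rw [hD, hD]
    rw [show x + (l + 1) = x + 1 + l by ring, show x + 2 * (l + 1) = x + 2 * l + 1 + 1 by ring] at h0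
    rw [show x + 1 + 2 * l = x + 2 * l + 1 by ring] at h1
    omega
  have S2 : ∀ n < 6, ∀ x : ℤ, (2 * D (n + 1) x - D (n + 2) 0 - D (n + 2) 1) % 64 = 0 := by
    intro n hn x
    have h0 := S n hn (2 * x) (-x)
    have h1 := S n hn (2 * x) (-x + 1)
    rw [hD, hD, hD]
    rw [show 2 * x + -x = x by ring, show 2 * x + 2 * -x = 0 by ring] at h0
    rw [show 2 * x + (-x + 1) = x + 1 by ring, show 2 * x + 2 * (-x + 1) = 1 + 1 by ring] at h1
    simp only [zero_add]
    omega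
  have C : ∀ n < 8, ∀ x : ℤ, (D n x - D 2 0) % 16 = 0 := by
    have a2 : ∀ x, (D 2 x - D 2 0) % 32 = 0 := fun x => by
      have := S2 1 (by norm_num) x
      have := S2 1 (by norm_num) 0
      norm_num at *
      omega
    have a1 : ∀ x, (D 1 x - D 2 0) % 16 = 0 := fun x => by
      have := S2 0 (by norm_num) x
      have := a2 1
      norm_num at *
      omega
    have up : ∀ n < 6, (∀ x, (D n x - D 2 0) % 16 = 0) → ∀ x, (D (n + 2) x - D 2 0) % 16 = 0 := by
      intro n hn h x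
      have h1 := S1 n hn (x - 1) 0
      have h2 := h (x - 1)
      rw [show x - 1 + 2 * 0 + 1 = x by ring] at h1
      omega
    have a0 : ∀ x, (D 0 x - D 2 0) % 16 = 0 := fun x => by
      have h1 := S1 0 (by norm_num) x 0
      have h2 := a2 (x + 2 * 0 + 1)
      norm_num at *
      omega
    have a2' := up 0 (by norm_num) a0
    have a3 := up 1 (by norm_num) a1
    have a4 := up 2 (by norm_num) a2'
    have a5 := up 3 (by norm_num) a3
    have a6 := up 4 (by norm_num) a4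
    have a7 := up 5 (by norm_num) a5
    intro n hn
    interval_cases n <;> assumption
  obtain ⟨β, hβ⟩ : ∃ β, β = D 2 0 := ⟨_, rfl⟩
  rw [← hβ] at C
  have E : ∀ n < 8, ∀ k : ℤ, (F n (2 * k + 1) - (F n 1 + β * k)) % 16 = 0 := by
    intro n hn k
    induction k using Int.induction_on with
    | zero => simp
    | succ k ih =>
      have := C n hn k
      rw [hD] at this
      rw [show β * ((k : ℤ) + 1) = β * k + β by ring]
      omega
    | pred k ih =>
      have := C n hn (-(k : ℤ) - 1)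
      rw [hD, show -(k : ℤ) - 1 + 1 = -k by ring] at this
      rw [show β * (-(k : ℤ) - 1) = β * (-k) - β by ring]
      omega
  obtain ⟨a0, b0, ha0, hb0, h0⟩ := L 0 0
  simp only [zero_mul, add_zero, mul_zero, zero_add] at h0
  obtain ⟨a, b, ha, hb, h⟩ := hP 1 1 (Or.inl (by norm_num))
  have hβ2 : β % 4 = 2 := by
    have e0 := (h 0 (by norm_num)).1 (by push_cast; omega)
    have e2 := (h 2 (by norm_num)).1 (by push_cast; omega)
    have e3 := E 2 (by norm_num) 1
    have e4 := h0 0 (by norm_num)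
    have e5 := h0 2 (by norm_num)
    norm_num at e0 e2 e3 e4 e5 ha hb
    omega
  refine ⟨β / 2, a0, b0 - β / 2, by omega, ha0, by omega, fun n hn m hm => ?_⟩
  obtain ⟨k, rfl⟩ : ∃ k, m = 2 * k + 1 := ⟨m / 2, by omega⟩
  have e1 := E n hn k
  have e2 := h0 n hn
  have e3 : β / 2 * (2 * k + 1) = β * k + β / 2 := by
    have : β = 2 * (β / 2) := by omega
    linear_combination (-k) * this
  rw [e3]
  omega

lemma lemC {F : ℕ → ℤ → ℤ} (hP : Par F) {μ : ℤ} (hμ : μ % 2 = 1)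
    (hG : ∀ n < 8, ∀ m : ℤ, m % 2 = 1 → (F n m - μ * m) % 16 = 0) :
    ∀ n < 8, ∀ m : ℤ, m % 2 = 1 → (F n (2 * m) - μ * m) % 4 = 0 := by
  intro n hn m hm
  obtain ⟨a, b, ha, hb, h⟩ := hP (2 * m - n) 1 (Or.inl (by norm_num))
  have pm := odd_mul_emod hμ m
  have g : ∀ n' : ℕ, n' < 8 → (n + n') % 2 = 1 →
      ((a * n' + b) - (2 * (μ * m) + μ * (n' - n))) % 16 = 0 := by
    intro n' hn' ho
    have h1 := hG n' hn' (2 * m - n + 1 * n') (by omega)
    have h2 := (h n' hn').1 (by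
      have := odd_mul_emod (show a % 2 = 1 by omega) n'
      omega)
    rw [show μ * (2 * m - n + 1 * n') = 2 * (μ * m) + μ * (n' - n) by ring] at h1
    omega
  have h3 := (h n hn).2 ((a * n + b) / 2)
  rw [show 2 * m - n + 1 * (n : ℤ) = 2 * m by ring] at h3
  have key : (a * n + b - 2 * (μ * m)) % 8 = 0 := by
    have g0 := g 0 (by norm_num)
    have g1 := g 1 (by norm_num)
    have g2 := g 2 (by norm_num)
    have g3 := g 3 (by norm_num)
    have g4 := g 4 (by norm_num)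
    have g5 := g 5 (by norm_num)
    have g6 := g 6 (by norm_num)
    have g7 := g 7 (by norm_num)
    clear g h3 h hG hP
    generalize μ * m = w at *
    interval_cases n <;> norm_num at * <;> omega
  have := h3 (by omega) (by omega)
  omega

lemma Sol.shear {F : ℕ → ℤ → ℤ} (h : Sol F) (u w : ℤ) : Sol fun n m => F n (m - u * n - w) := by
  intro i j
  obtain ⟨a, b, hab, h⟩ := h (i - w) (j - u)
  refine ⟨a, b, hab, fun n hn => ?_⟩
  have := h n hn
  rwa [show i - w + (j - u) * n = i + j * n - u * n - w by ring] at this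

lemma Par.shear {F : ℕ → ℤ → ℤ} (h : Par F) {u w : ℤ} (hu : u % 2 = 0) (hw : w % 2 = 0) :
    Par fun n m => F n (m - u * n - w) := by
  intro i j hij
  obtain ⟨a, b, ha, hb, h⟩ := h (i - w) (j - u) (by omega)
  refine ⟨a, b, by omega, by omega, fun n hn => ?_⟩
  have := h n hn
  rwa [show i - w + (j - u) * n = i + j * n - u * n - w by ring] at this

/-- The puzzle has no periodic solution with the parity property. -/
theorem no_periodic (M : ℕ) : ∀ F : ℕ → ℤ → ℤ, 0 < M → Sol F → Par F →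
    (∀ n m, F n (m + M) = F n m) → False := by
  induction M using Nat.strong_induction_on with
  | _ M ih =>
    intro F hM hS hP hper
    obtain ⟨μ, A, B, hμ, hA, hB, h⟩ := lemB hP
    obtain ⟨c, hc⟩ : ∃ c, μ ^ 4 = 16 * c + 1 := by
      obtain ⟨r, rfl⟩ : ∃ r, μ = 2 * r + 1 := ⟨μ / 2, by omega⟩
      obtain ⟨s, hs⟩ : ∃ s, r * (r + 1) = 2 * s := by
        obtain ⟨s, hs⟩ := Int.even_mul_succ_self r
        exact ⟨s, by omega⟩
      exact ⟨4 * s ^ 2 + s, by
        have : (2 * r + 1) ^ 2 = 8 * s + 1 := by linear_combination 4 * hs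
        linear_combination ((2 * r + 1) ^ 2 + 8 * s + 1) * this⟩
    obtain ⟨A', rfl⟩ : ∃ A', A = 2 * A' := ⟨A / 2, by omega⟩
    obtain ⟨B', rfl⟩ : ∃ B', B = 2 * B' := ⟨B / 2, by omega⟩
    have hS' := hS.shear (2 * (μ ^ 3 * A')) (2 * (μ ^ 3 * B'))
    have hP' := hP.shear (u := 2 * (μ ^ 3 * A')) (w := 2 * (μ ^ 3 * B')) (by omega) (by omega)
    obtain ⟨F', hF'⟩ : ∃ F' : ℕ → ℤ → ℤ,
        F' = fun (n : ℕ) (m : ℤ) => F n (m - 2 * (μ ^ 3 * A') * n - 2 * (μ ^ 3 * B')) := ⟨_, rfl⟩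
    rw [← hF'] at hS' hP'
    have hper' : ∀ n m, F' n (m + M) = F' n m := by
      intro n m
      rw [hF']
      simp only
      rw [← hper n (m - _ - _)]
      congr 1; ring
    have hG : ∀ n < 8, ∀ m : ℤ, m % 2 = 1 → (F' n m - μ * m) % 16 = 0 := by
      intro n hn m hm
      have h1 := h n hn (m - 2 * (μ ^ 3 * A') * n - 2 * (μ ^ 3 * B'))
        (by rw [mul_assoc]; omega)
      have e : μ * (m - 2 * (μ ^ 3 * A') * n - 2 * (μ ^ 3 * B')) + 2 * A' * n + 2 * B'
          = μ * m - 16 * (c * (2 * A' * n + 2 * B')) := by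
        linear_combination (-(2 * A' * n + 2 * B')) * hc
      rw [e] at h1
      rw [hF']
      simp only
      omega
    have hMe : M % 2 = 0 := by
      by_contra hc'
      have h1 := hG 0 (by norm_num) 1 (by norm_num)
      have h2 := hG 0 (by norm_num) (1 + M + M) (by omega)
      rw [hper', hper', show μ * (1 + M + M) = μ * 1 + 2 * (μ * M) by ring] at h2
      have := odd_mul_emod hμ M
      omega
    obtain ⟨M', rfl⟩ : ∃ M', M = 2 * M' := ⟨M / 2, by omega⟩
    have hS2 : Sol fun n m => F' n (2 * m) := by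
      intro i j
      obtain ⟨a, b, hab, h⟩ := hS' (2 * i) (2 * j)
      refine ⟨a, b, hab, fun n hn => ?_⟩
      have := h n hn
      rwa [show 2 * i + 2 * j * n = 2 * (i + j * n) by ring] at this
    refine ih M' (by omega) _ (by omega) hS2 (lemA hS2 hμ (lemC hP' hμ hG)) fun n m => ?_
    rw [← hper' n (2 * m)]
    congr 1; push_cast; ring

/-- The odd part of an integer (with value `1` at `0`). -/
def op (m : ℤ) : ℤ :=
  if h : m = 0 then 1 else if h2 : m % 2 = 0 then op (m / 2) else m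
termination_by m.natAbs
decreasing_by omega

lemma op_odd {m : ℤ} (h : m % 2 = 1) : op m = m := by
  rw [op, dif_neg (by omega), dif_neg (by omega)]

lemma op_two_mul (m : ℤ) : op (2 * m) = op m := by
  by_cases h : m = 0
  · subst h; simp
  · rw [op, dif_neg (by omega), dif_pos (by omega)]
    congr 1; omega

lemma rel_op (t : ℤ) : Rel (op t % 64) t := by
  refine ⟨fun h => ?_, fun s hs h => ?_⟩
  · rw [op_odd h]; omega
  · rw [hs, op_two_mul, op_odd h]; omega

lemma sol_op_aux (N : ℕ) : ∀ i j : ℤ, i.natAbs + j.natAbs ≤ N →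
    ∃ a b : ℤ, (a % 2 = 1 ∨ b % 2 = 1) ∧ ((j % 2 = 1 ∨ i % 2 = 1) → a = j ∧ b = i) ∧
      ∀ n : ℕ, Rel (op (i + j * n) % 64) (a * n + b) := by
  induction N with
  | zero =>
    intro i j h
    obtain rfl : i = 0 := by omega
    obtain rfl : j = 0 := by omega
    refine ⟨0, 1, Or.inr (by norm_num), by norm_num, fun n => ?_⟩
    have : op 0 = op 1 := by rw [op_odd (m := 1) (by norm_num), op]; simp
    simpa [this] using rel_op 1
  | succ N ih =>
    intro i j h
    by_cases hij : j % 2 = 1 ∨ i % 2 = 1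
    · refine ⟨j, i, hij, fun _ => ⟨rfl, rfl⟩, fun n => ?_⟩
      rw [add_comm]; exact rel_op _
    · obtain ⟨i', rfl⟩ : ∃ i', i = 2 * i' := ⟨i / 2, by omega⟩
      obtain ⟨j', rfl⟩ : ∃ j', j = 2 * j' := ⟨j / 2, by omega⟩
      obtain ⟨a, b, hab, -, h⟩ := ih i' j' (by omega)
      refine ⟨a, b, hab, fun h => absurd h hij, fun n => ?_⟩
      rw [show 2 * i' + 2 * j' * n = 2 * (i' + j' * n) by ring, op_two_mul]
      exact h n

lemma sol_op (i j : ℤ) :
    ∃ a b : ℤ, (a % 2 = 1 ∨ b % 2 = 1) ∧ ((j % 2 = 1 ∨ i % 2 = 1) → a = j ∧ b = i) ∧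
      ∀ n : ℕ, Rel (op (i + j * n) % 64) (a * n + b) :=
  sol_op_aux _ i j le_rfl

end Vale.Agent.P043
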