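import Vale.Agent.P043.Board
import Vale.Agent.P043.Fam
import Mathlib.Algebra.Group.Pi.Lemmas
import Mathlib.Algebra.Group.Subgroup.Ker
import Mathlib.Data.Fintype.EquivFin
import Mathlib.Data.Set.Finite.Lattice

/-!
An aperiodic system of tiling equations in the product of the square lattice with two finite
cyclic groups.
-/

namespace Vale.Agent.P043

lemma exists_cycle (Λ : Type*) [Fintype Λ] [Nonempty Λ] :
    ∃ nxt : Λ → Λ, ∀ i j, ∃ n : ℕ, nxt^[n] i = j := by
  haveI : NeZero (Fintype.card Λ) := ⟨Fintype.card_ne_zero⟩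
  let e : Λ ≃ ZMod (Fintype.card Λ) := Fintype.equivOfCardEq (by simp)
  refine ⟨fun i => e.symm (e i + 1), fun i j => ⟨(e j - e i).val, ?_⟩⟩
  have : ∀ n : ℕ, (fun i => e.symm (e i + 1))^[n] i = e.symm (e i + n) := by
    intro n
    induction n with
    | zero => simp
    | succ n ih => rw [Function.iterate_succ_apply', ih]; simp [add_assoc]
  rw [this]; simp

section single

variable {U V : Type*} [AddCommGroup U] [AddCommGroup V]

/-- The tile for a clause with one literal. -/
noncomputable def single (K : AddSubgroup V) (e : U) (c : V) : V → U × V :=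
  clause (Λ := Unit) id (fun _ => K) (fun _ => e) (fun _ => c)

lemma tiles_single_iff [Finite V] {K : AddSubgroup V} {e : U} {o : U → V} :
    Tiles (gr o) (single K e 0) ↔ ∀ u, o u - o (u - e) ∈ K := by
  unfold single
  rw [tiles_clause_iff (fun i j => ⟨0, rfl⟩) (fun l l' h => absurd rfl h)
    (fun l l' h => absurd rfl h)]
  simp

end single

variable (q : I → ℕ) [∀ i, Fact (1 < q i)]

abbrev DD : Type := ∀ i, ZMod (q i)
abbrev UU : Type := (ℤ × ℤ) × DD q
abbrev VV : Type := ZMod 2 × DD q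

def KI (i : I) : AddSubgroup (VV q) :=
  ((Pi.evalAddMonoidHom (fun i => ZMod (q i)) i).comp (AddMonoidHom.snd _ _)).ker

def K0 : AddSubgroup (VV q) := (AddMonoidHom.fst _ _).ker

omit [∀ i, Fact (1 < q i)] in
@[simp] lemma mem_KI (i : I) (y : VV q) : y ∈ KI q i ↔ y.2 i = 0 := Iff.rfl
omit [∀ i, Fact (1 < q i)] in
@[simp] lemma mem_K0 (y : VV q) : y ∈ K0 q ↔ y.1 = 0 := Iff.rfl

/-- The big clause with offsets `c`. -/
noncomputable def big (nxt : I → I) (c : I → Bool) : VV q → UU q × VV q :=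
  clause nxt (KI q) (fun i => (0, Pi.single i 1))
    (fun i => (0, Pi.single i (if c i then 1 else 0)))

/-- The clauses linking a marker with a slope. -/
noncomputable def mark (k : Fin 3) (b : Bool) : VV q → UU q × VV q :=
  clause (Λ := Bool) not (fun l => if l then KI q (Sum.inr k) else K0 q)
    (fun l => if l then (0, Pi.single (Sum.inr k) 1) else (dir (Sum.inr k), 0))
    (fun l => if l then (0, Pi.single (Sum.inr k) (if b then 1 else 0))
      else (if b then 0 else 1, 0))

/-- The system of tiling equations. -/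
def sys (nxt : I → I) : Set (VV q → UU q × VV q) :=
  {vert _ _} ∪
  ((fun p : I × DD q => single (KI q p.1) (0, p.2) 0) '' {p | p.2 p.1 = 0}) ∪
  (Set.range fun τ : DD q => single (K0 q) (0, τ) 0) ∪
  (Set.range fun i : I => single (KI q i) (dir i, 0) 0) ∪
  (big q nxt '' {c | ¬ Om fun i => !c i}) ∪
  (Set.range fun p : Fin 3 × Bool => mark q p.1 p.2)

structure Good (o : UU q → VV q) : Prop where
  h1 : ∀ i (τ : DD q), τ i = 0 → ∀ x t, (o (x, t)).2 i = (o (x, t - τ)).2 i
  h2 : ∀ (τ : DD q) x t, (o (x, t)).1 = (o (x, t - τ)).1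
  h3 : ∀ i x t, (o (x, t)).2 i = (o (x - dir i, t)).2 i
  h4 : ∀ c : I → Bool, (¬ Om fun i => !c i) → ∀ x t, ∃ i,
    (o (x, t)).2 i - (o (x, t - Pi.single i 1)).2 i = if c i then 1 else 0
  h5 : ∀ (k : Fin 3) (b : Bool) x t,
    ((o (x, t)).2 (Sum.inr k) - (o (x, t - Pi.single (Sum.inr k) 1)).2 (Sum.inr k)
      = if b then 1 else 0) ∨
    (o (x, t)).1 - (o (x - dir (Sum.inr k), t)).1 = if b then 0 else 1

lemma tiles_big_iff {nxt : I → I} (hn : ∀ i j, ∃ n : ℕ, nxt^[n] i = j) {o : UU q → VV q}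
    (h1 : ∀ i (τ : DD q), τ i = 0 → ∀ x t, (o (x, t)).2 i = (o (x, t - τ)).2 i) (c : I → Bool) :
    Tiles (gr o) (big q nxt c) ↔ ∀ x t, ∃ i,
      (o (x, t)).2 i - (o (x, t - Pi.single i 1)).2 i = if c i then 1 else 0 := by
  unfold big
  rw [tiles_clause_iff hn]
  · simp [sub_eq_zero, Prod.forall]
  · intro l l' h
    simp [Pi.single_eq_of_ne h.symm]
  · rintro l l' h ⟨x, t⟩
    simp [sub_eq_zero, ← h1 l _ (Pi.single_eq_of_ne h.symm 1)]

lemma tiles_mark_iff {o : UU q → VV q}
    (h2 : ∀ (τ : DD q) x t, (o (x, t)).1 = (o (x, t - τ)).1)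
    (h3 : ∀ i x t, (o (x, t)).2 i = (o (x - dir i, t)).2 i) (k : Fin 3) (b : Bool) :
    Tiles (gr o) (mark q k b) ↔ ∀ x t,
      ((o (x, t)).2 (Sum.inr k) - (o (x, t - Pi.single (Sum.inr k) 1)).2 (Sum.inr k)
        = if b then 1 else 0) ∨
      (o (x, t)).1 - (o (x - dir (Sum.inr k), t)).1 = if b then 0 else 1 := by
  unfold mark
  rw [tiles_clause_iff]
  · simp [sub_eq_zero, Prod.forall, or_comm]
  · intro i j
    by_cases h : i = j
    · exact ⟨0, h⟩
    · exact ⟨1, by revert i j; decide⟩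
  · intro l l' h
    cases l <;> cases l' <;> simp at h ⊢
  · rintro l l' h ⟨x, t⟩
    cases l <;> cases l' <;> simp at h ⊢
    · rw [← h2, sub_self]
    · rw [← h3, sub_self]

lemma good_iff {nxt : I → I} (hn : ∀ i j, ∃ n : ℕ, nxt^[n] i = j) (o : UU q → VV q) :
    (∀ φ ∈ sys q nxt, Tiles (gr o) φ) ↔ Good q o := by
  constructor
  · intro H
    have h1 : ∀ i (τ : DD q), τ i = 0 → ∀ x t, (o (x, t)).2 i = (o (x, t - τ)).2 i := by
      intro i τ hτ x t
      have := tiles_single_iff.1 (H (single (KI q i) (0, τ) 0)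
        (by simp only [sys, Set.mem_union]; left; left; left; left; right; exact ⟨(i, τ), hτ, rfl⟩))
        (x, t)
      simpa [sub_eq_zero] using this
    have h2 : ∀ (τ : DD q) x t, (o (x, t)).1 = (o (x, t - τ)).1 := by
      intro τ x t
      have := tiles_single_iff.1 (H (single (K0 q) (0, τ) 0)
        (by simp only [sys, Set.mem_union]; left; left; left; right; exact ⟨τ, rfl⟩)) (x, t)
      simpa [sub_eq_zero] using this
    have h3 : ∀ i x t, (o (x, t)).2 i = (o (x - dir i, t)).2 i := by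
      intro i x t
      have := tiles_single_iff.1 (H (single (KI q i) (dir i, 0) 0)
        (by simp only [sys, Set.mem_union]; left; left; right; exact ⟨i, rfl⟩)) (x, t)
      simpa [sub_eq_zero] using this
    refine ⟨h1, h2, h3, fun c hc => (tiles_big_iff q hn h1 c).1 (H _ ?_),
      fun k b => (tiles_mark_iff q h2 h3 k b).1 (H _ ?_)⟩
    · simp only [sys, Set.mem_union]; left; right; exact ⟨c, hc, rfl⟩
    · simp only [sys, Set.mem_union]; right; exact ⟨(k, b), rfl⟩
  · intro H φ hφ
    simp only [sys, Set.mem_union] at hφ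
    rcases hφ with ((((rfl | ⟨⟨i, τ⟩, hτ, rfl⟩) | ⟨τ, rfl⟩) | ⟨i, rfl⟩) | ⟨c, hc, rfl⟩) | ⟨⟨k, b⟩, rfl⟩
    · exact tiles_vert o
    · refine tiles_single_iff.2 fun ⟨x, t⟩ => ?_
      simpa [sub_eq_zero] using H.h1 i τ hτ x t
    · refine tiles_single_iff.2 fun ⟨x, t⟩ => ?_
      simpa [sub_eq_zero] using H.h2 τ x t
    · refine tiles_single_iff.2 fun ⟨x, t⟩ => ?_
      simpa [sub_eq_zero] using H.h3 i x t
    · exact (tiles_big_iff q hn H.h1 c).2 (H.h4 c hc)
    · exact (tiles_mark_iff q H.h2 H.h3 k b).2 (H.h5 k b)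

/-- The intended solution. -/
def o0 (u : UU q) : VV q := (a0 u.1, fun i => if W0 u.1 i then u.2 i else 0)

lemma o0_diff (x : ℤ × ℤ) (t : DD q) (i : I) :
    (o0 q (x, t)).2 i - (o0 q (x, t - Pi.single i 1)).2 i = if W0 x i then 1 else 0 := by
  simp only [o0]
  split_ifs <;> simp

lemma good_o0 : Good q (o0 q) := by
  refine ⟨fun i τ hτ x t => ?_, fun τ x t => rfl, fun i x t => ?_, fun c hc x t => ?_,
    fun k b x t => ?_⟩
  · simp [o0, hτ]
  · simp [o0, W0_inv]
  · by_contra hno
    push Not at hno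
    apply hc
    convert W0_om x with i
    have := hno i
    rw [o0_diff] at this
    revert this
    cases c i <;> cases W0 x i <;> simp
  · rw [o0_diff]
    have := a0_slope k x
    simp only [o0]
    rw [this]
    cases b <;> cases W0 x (Sum.inr k) <;> simp

lemma Good.not_per {o : UU q → VV q} (H : Good q o) : ¬ Per (gr o) := by
  classical
  rintro ⟨M, hM, hper⟩
  let W : ℤ × ℤ → I → Bool := fun x i =>
    decide (¬ ∀ t, (o (x, t)).2 i - (o (x, t - Pi.single i 1)).2 i = 0)
  have hWf : ∀ x i, W x i = false → ∀ t,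
      (o (x, t)).2 i - (o (x, t - Pi.single i 1)).2 i = 0 := by
    intro x i h
    simpa [W] using h
  have hWt : ∀ x i, W x i = true → ∃ t,
      (o (x, t)).2 i - (o (x, t - Pi.single i 1)).2 i ≠ 0 := by
    intro x i h
    simpa [W] using h
  refine board_aperiodic W (fun x => (o (x, 0)).1) (fun x => ?_) (fun i x => ?_)
    (fun k x => ?_) hM fun x => ?_
  · by_contra hno
    have hex : ∀ i, ∃ t : DD q, (o (x, t)).2 i - (o (x, t - Pi.single i 1)).2 i ≠
        if !W x i then 1 else 0 := by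
      intro i
      cases h : W x i
      · exact ⟨0, by rw [hWf x i h]; simp⟩
      · simpa using hWt x i h
    choose t ht using hex
    obtain ⟨i, hi⟩ := H.h4 (fun i => !W x i) (by simpa using hno) x (fun i => t i i)
    apply ht i
    rw [← hi, H.h1 i (t i - fun i => t i i) (by simp) x (t i),
      H.h1 i (t i - fun i => t i i) (by simp) x (t i - Pi.single i 1)]
    congr 4
    · abel
    · abel
  · simp only [W, ← H.h3]
  · cases h : W x (Sum.inr k)
    · rcases H.h5 k true x 0 with h' | h'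
      · rw [hWf x _ h] at h'
        simp at h'
      · simpa using h'
    · obtain ⟨t, ht⟩ := hWt x _ h
      rcases H.h5 k false x t with h' | h'
      · exact absurd h' ht
      · rw [H.h2 t x t, H.h2 t _ t, sub_self] at h'
        simpa using h'
  · have : ∀ t, o (x + ((M : ℤ), 0), t) = o (x, t) := by
      intro t
      have := hper (((1, 0), 0), 0) ((x, t), o (x, t)) rfl
      simpa [gr] using this.symm
    funext i
    simp only [W, this]

theorem aper_sys : ∃ 𝓕 : Set (VV q → UU q × VV q), Aper 𝓕 := by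
  obtain ⟨nxt, hn⟩ := exists_cycle I
  refine ⟨sys q nxt, ?_, ⟨vert _ _, by simp [sys]⟩,
    ⟨_, (good_iff q hn _).2 (good_o0 q)⟩, fun A hA => ?_⟩
  · unfold sys
    refine ((((Set.Finite.union ?_ ?_).union ?_).union ?_).union ?_).union ?_
    · exact Set.finite_singleton _
    · exact (Set.toFinite _).image _
    · exact Set.finite_range _
    · exact Set.finite_range _
    · exact (Set.toFinite _).image _
    · exact Set.finite_range _
  · obtain ⟨o, rfl⟩ := eq_gr_of_tiles_vert (hA (vert _ _) (by simp [sys]))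
    exact ((good_iff q hn o).1 hA).not_per

end Vale.Agent.P043
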