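import Vale.Agent.P043.Board3

/-!
The intended solution of the system used in dimension three.
-/

namespace Vale.Agent.P043

lemma zmod_mul_eq_zero {n a b : ℕ} (hn : n = a * b) (ha : a ≠ 0) (x : ℤ) :
    (a : ZMod n) * (x : ZMod n) = 0 ↔ (b : ℤ) ∣ x := by
  rw [← Int.cast_natCast, ← Int.cast_mul, ZMod.intCast_zmod_eq_zero_iff_dvd, hn]
  push_cast
  exact mul_dvd_mul_iff_left (by exact_mod_cast ha)

/-- The integers modulo `8 * 2 ^ k`. -/
def twoRing {n k : ℕ} (hn : n = 8 * 2 ^ k) : TwoRing k (ZMod n) where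
  par := ZMod.castHom (show 2 ∣ n by rw [hn]; exact Dvd.intro (4 * 2 ^ k) (by ring)) (ZMod 2)
  h4 := by
    have := ZMod.natCast_self n
    rw [hn] at this
    subst hn
    push_cast at this
    linear_combination this
  hne := by
    intro h
    have := (zmod_mul_eq_zero (n := n) (a := 4 * 2 ^ k) (b := 2) (by rw [hn]; ring)
      (by positivity) 1).1 (by push_cast; linear_combination h)
    omega
  unit := by
    intro c hc
    have : NeZero n := ⟨by rw [hn]; positivity⟩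
    obtain ⟨x, rfl⟩ := ZMod.natCast_zmod_surjective (n := n) c
    rw [map_natCast, ZMod.natCast_eq_one_iff_odd] at hc
    rw [ZMod.isUnit_iff_coprime, hn, show 8 * 2 ^ k = 2 ^ (k + 3) by ring]
    exact Nat.Coprime.pow_right _ (Nat.coprime_two_right.2 hc)
  even := by
    intro c hc
    obtain ⟨x, rfl⟩ := ZMod.intCast_surjective c
    rw [map_intCast, ZMod.intCast_zmod_eq_zero_iff_dvd] at hc
    obtain ⟨y, rfl⟩ := hc
    exact ⟨y, by push_cast; ring⟩
  surj := ZMod.intCast_surjective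

/-- The variables. -/
abbrev JJ (k : ℕ) : Type := Option (Fin 8 × (Option St ⊕ BB k))

abbrev vl {k : ℕ} (n : Fin 8) (f : Option St) : JJ k := some (n, Sum.inl f)
abbrev cr {k : ℕ} (n : Fin 8) (β : BB k) : JJ k := some (n, Sum.inr β)

/-- The moduli and the steps. -/
structure Dat (k : ℕ) where
  q : JJ k → ℕ
  m : JJ k → ℤ
  hq0 : q none = 8 * 2 ^ k
  hq1 : ∀ j, 1 < q j
  hqle : ∀ n f, q (vl n f) ≤ 4 * 2 ^ k
  hm1 : ∀ j, (m j : ZMod (q j)) = 1
  hm2 : ∀ j j', j' ≠ j → (q j' : ℤ) ^ 2 ∣ m j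

namespace Dat

variable {k : ℕ} (D : Dat k)

instance (j : JJ k) : Fact (1 < D.q j) := ⟨D.hq1 j⟩

abbrev R : Type := ZMod (D.q none)
abbrev Z : TwoRing k D.R := twoRing D.hq0

lemma dvd_m {j j' : JJ k} (h : j' ≠ j) : (D.q j' : ℤ) ∣ D.m j :=
  (Dvd.intro _ (sq _).symm).trans (D.hm2 _ _ h)

lemma hm0 {j j' : JJ k} (h : j' ≠ j) : (D.m j : ZMod (D.q j')) = 0 :=
  (ZMod.intCast_zmod_eq_zero_iff_dvd _ _).2 (D.dvd_m h)

@[simp] lemma hm1' (j : JJ k) : (D.m j : ZMod (D.q j)) = 1 := D.hm1 j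
@[simp] lemma m_some (p) : (D.m (some p) : ZMod (D.q none)) = 0 := D.hm0 (by simp)
@[simp] lemma m_none (p) : (D.m none : ZMod (D.q (some p))) = 0 := D.hm0 (by simp)
@[simp] lemma m_cr (n n' β f) : (D.m (cr n β) : ZMod (D.q (vl n' f))) = 0 := D.hm0 (by simp)
@[simp] lemma m_vl1 (n n' s) : (D.m (vl n none) : ZMod (D.q (vl n' (some s)))) = 0 :=
  D.hm0 (by simp)
@[simp] lemma m_vl2 (n n' s) : (D.m (vl n (some s)) : ZMod (D.q (vl n' none))) = 0 :=
  D.hm0 (by simp)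

lemma two_mul_eq_zero (x : ℤ) : 2 * (x : D.R) = 0 ↔ (4 * 2 ^ k : ℤ) ∣ x := by
  have := zmod_mul_eq_zero (n := D.q none) (a := 2) (b := 4 * 2 ^ k) (by rw [D.hq0]; ring)
    (by norm_num) x
  exact_mod_cast this

lemma four_mul_eq_zero {c : D.R} (h : 4 * c = 0) :
    D.Z.par c = 0 ∧ (2 * c = 0 ∨ 2 * c = 2 * (2 * 2 ^ k)) := by
  obtain ⟨x, rfl⟩ := ZMod.intCast_surjective c
  obtain ⟨y, rfl⟩ := (zmod_mul_eq_zero (n := D.q none) (a := 4) (b := 2 * 2 ^ k)
    (by rw [D.hq0]; ring) (by norm_num) x).1 (by exact_mod_cast h)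
  push_cast
  refine ⟨by simp only [map_mul, D.Z.par_two, zero_mul], ?_⟩
  rcases D.Z.par_cases (y : D.R) with h | h
  · left; rw [← D.Z.mul_even h]; ring
  · right; rw [← D.Z.mul_odd h]; ring

lemma exists_fin (c : D.R) : ∃ x : Fin (8 * 2 ^ k), ((x : ℕ) : D.R) = c :=
  ⟨⟨c.val, D.hq0 ▸ ZMod.val_lt c⟩, ZMod.natCast_zmod_val c⟩

def cc (u : U3) : D.R := (u.1.2 : D.R)
def dd (u : U3) : D.R := (u.1.1 : D.R)
def yy (n : Fin 8) : ∀ f : Option St, U3 → ZMod (D.q (vl n f))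
  | none, u => (u.1.2 : ZMod _) + (u.2 : ZMod _)
  | some _, u => (u.1.2 : ZMod _)
def cell (n : Fin 8) (u : U3) : ℤ := u.1.1 + u.1.2 * (n : ℕ)

def dgf (k : ℕ) (σ : Fin 64) (z : ℤ) : Prop := ((σ : ℕ) : ℤ) = op ((z - 1) / (4 * 2 ^ k)) % 64

def act (s : St) (z : ℤ) : Prop :=
  dgf k s.1 z ∧ (s.2 = true ↔ (z : D.R) - 1 = 2 * (2 * 2 ^ k))

/-- The intended Boolean functions. -/
def W0 (n : Fin 8) : BB k → U3 → Prop
  | .zs c, u => ((c : ℕ) : D.R) = D.cc u
  | .zr c, u => ((c : ℕ) : D.R) = D.dd u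
  | .zd b, u => D.Z.par (D.cc u + D.dd u) = if b then 0 else 1
  | .kap b, u => kp D.Z (D.cc u) (D.dd u) ↔ b = true
  | .pi f r, u => (r : ℕ) < D.q (vl n f) ∧ D.yy n f u = (r : ℕ)
  | .eta f r, u => D.yy n f u = (r : ℕ) ∧ 2 * (D.dd u - (r : ℕ) * D.cc u) = 0
  | .lam s, u => D.act s (cell n u) ∧ 4 * D.cc u = 0 ∧ 2 * ((cell n u : D.R) - 1) = 0 ∧
      ((D.yy n none u = 0 ∧ D.yy n (some s) u = 0) ∨ (D.yy n none u ≠ 0 ∧ D.yy n (some s) u = 1))
  | .dg σ, u => dgf k σ (cell n u)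

/-- The slope of the line through the origin and a site. -/
noncomputable def theta (c d : D.R) : Fin (4 * 2 ^ k) :=
  haveI : Nonempty (Fin (4 * 2 ^ k)) := ⟨r0 k⟩
  Classical.epsilon fun r : Fin (4 * 2 ^ k) => 2 * (d - (r : ℕ) * c) = 0

lemma theta_eq {c d : D.R} (hc : D.Z.par c = 1) {r : Fin (4 * 2 ^ k)}
    (h : 2 * (d - (r : ℕ) * c) = 0) : D.theta c d = r := by
  have h1 : 2 * (d - (D.theta c d : ℕ) * c) = 0 :=
    Classical.epsilon_spec (p := fun r : Fin (4 * 2 ^ k) => 2 * (d - (r : ℕ) * c) = 0) ⟨r, h⟩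
  have h2 : 2 * ((((D.theta c d : ℕ) : ℤ) - ((r : ℕ) : ℤ) : ℤ) : D.R) = 0 := by
    rw [← (D.Z.unit c hc).mul_left_eq_zero]
    push_cast
    linear_combination h - h1
  rw [D.two_mul_eq_zero] at h2
  have a1 : (((D.theta c d : ℕ) : ℤ)) < 4 * 2 ^ k := by exact_mod_cast (D.theta c d).2
  have a2 : ((r : ℕ) : ℤ) < 4 * 2 ^ k := by exact_mod_cast r.2
  have := Int.eq_zero_of_abs_lt_dvd h2 (abs_lt.2 ⟨by omega, by omega⟩)
  exact Fin.ext (by omega)

def on (n : Fin 8) : Option St → U3 → Prop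
  | none, _ => False
  | some s, u => 2 * D.cc u = 0 ∧ 2 * (D.dd u - 1) = 0 ∧ D.act s (cell n u) ∧ D.yy n none u ≠ 0

open Classical in
/-- The intended values. -/
noncomputable def bv (n : Fin 8) (f : Option St) (u : U3) : ZMod (D.q (vl n f)) :=
  if D.Z.par (D.cc u) = 1 then D.yy n f u - (D.theta (D.cc u) (D.dd u) : ℕ)
  else if kp D.Z (D.cc u) (D.dd u) then D.yy n f u
  else if D.on n f u then 1 else 0

open Classical in
noncomputable def base (u : U3) : ∀ j : JJ k, ZMod (D.q j)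
  | none => ((u.1.1 * u.1.2 : ℤ) : ZMod _)
  | some (n, Sum.inl f) => D.bv n f u
  | some (n, Sum.inr β) => if D.W0 n β u then (u.1.2 : ZMod _) else 0

/-- The intended solution. -/
noncomputable def o0 (u : U3) (j : JJ k) : ZMod (D.q j) := D.base u j + tw (D.q j) u.2

def vn (n : Fin 8) : ℤ × ℤ := (-((n : ℕ) : ℤ), 1)
def e1 : U3 := ((D.m none, 0), 0)
def e2 : U3 := ((0, D.m none), 0)
def E (n : Fin 8) (f : Option St) : U3 := (D.m (vl n f) • vn n, 0)
def T (n : Fin 8) : U3 := (0, D.m (vl n none))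

lemma W0_congr (n : Fin 8) (β : BB k) {u u' : U3} (h1 : D.cc u = D.cc u') (h2 : D.dd u = D.dd u')
    (h3 : ∀ f, D.yy n f u = D.yy n f u') (h4 : cell n u = cell n u') :
    D.W0 n β u ↔ D.W0 n β u' := by
  cases β <;> simp only [W0, h1, h2, h3, h4]

lemma bv_congr (n : Fin 8) (f : Option St) {u u' : U3} (h1 : D.cc u = D.cc u')
    (h2 : D.dd u = D.dd u') (h3 : D.yy n f u = D.yy n f u') (h3' : D.yy n none u = D.yy n none u')
    (h4 : cell n u = cell n u') : D.bv n f u = D.bv n f u' := by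
  have : D.on n f u ↔ D.on n f u' := by cases f <;> simp only [on, h1, h2, h3', h4]
  unfold bv
  rw [h1, h2, h3, propext this]

lemma cc_step (p) (n : Fin 8) (u : U3) : D.cc (u - (D.m (some p) • vn n, 0)) = D.cc u := by
  simp [cc, vn]
lemma dd_step (p) (n : Fin 8) (u : U3) : D.dd (u - (D.m (some p) • vn n, 0)) = D.dd u := by
  simp [dd, vn]
lemma cell_step (x : ℤ) (n : Fin 8) (u : U3) (t : ℤ) : cell n (u - (x • vn n, t)) = cell n u := by
  simp [cell, vn]; ring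
lemma yy_step (n : Fin 8) (β f) (u : U3) :
    D.yy n f (u - (D.m (cr n β) • vn n, 0)) = D.yy n f u := by
  cases f <;> simp [yy, vn]

/-- The carriers of column `n`. -/
def carriers (n : Fin 8) : Carriers D.q D.m D.o0 (BB k) where
  car := cr n
  inj := fun a b h => by simpa using h
  v := vn n
  hv := rfl
  W0 := D.W0 n
  eq0 := fun _ _ => rfl
  inv0 := fun β β' u => D.W0_congr n β (D.cc_step _ n u) (D.dd_step _ n u)
    (fun f => D.yy_step n β' f u) (cell_step _ n u 0)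

lemma diff_o0 {j : JJ k} {g : U3} (h : (D.q j : ℤ) ^ 2 ∣ g.2) (u : U3) :
    D.o0 u j - D.o0 (u - g) j = D.base u j - D.base (u - g) j := by
  simp only [o0, Prod.snd_sub, tw_sub (NeZero.ne _) h]; ring

lemma inv_o0 {j : JJ k} {g : U3} (h : (D.q j : ℤ) ^ 2 ∣ g.2)
    (h' : ∀ u, D.base (u - g) j = D.base u j) : Inv D.o0 (KK D.q j) g := by
  intro u
  rw [mem_KK, Pi.sub_apply, D.diff_o0 h, h', sub_self]

lemma logic0 (n : Fin 8) (u : U3) : Lg D.Z (fun f => D.q (vl n f)) n fun β => D.W0 n β u := by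
  obtain ⟨c, hc⟩ := D.exists_fin (D.cc u)
  obtain ⟨d, hd⟩ := D.exists_fin (D.dd u)
  refine ⟨c, d, hc, hd, ?_⟩
  rw [hc, hd]
  have hcell : (cell n u : D.R) = D.dd u + (n : ℕ) * D.cc u := by simp [cell, cc, dd]; ring
  refine ⟨fun h => by simpa [W0] using h, fun h => by simpa [W0] using h,
    fun h => by simpa [W0] using h, fun h => by simpa [W0] using h, fun f => ?_,
    fun h1 h2 f r h => ⟨h.2, by linear_combination h2 - (r : ℕ) * h1⟩, ?_,
    fun h1 h2 σ ε hσ hε h => ⟨⟨hσ, by rwa [hcell]⟩, by linear_combination 2 * h1,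
      by rw [hcell]; linear_combination h2 + (n : ℕ) * h1, ?_⟩⟩
  · have := ZMod.val_lt (D.yy n f u)
    exact ⟨⟨(D.yy n f u).val, this.trans_le (D.hqle n f)⟩, this, this,
      (ZMod.natCast_zmod_val _).symm⟩
  · refine ⟨⟨(op ((cell n u - 1) / (4 * 2 ^ k)) % 64).toNat, by omega⟩, ?_⟩
    simp only [W0, dgf]
    omega
  · have h0 := D.hq1 (vl n none)
    simp only [W0, r0, r1, Nat.cast_zero, Nat.cast_one] at h
    rcases h with ⟨h1, h2⟩ | ⟨h1, h2⟩
    · exact Or.inl ⟨h1.2, h2.2⟩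
    · exact Or.inr ⟨fun h => h1 ⟨by omega, h⟩, h2.2⟩

lemma not_kp {c d : D.R} (h : 2 * c = 0) : ¬ kp D.Z c d := by
  rintro (h1 | ⟨h1, -⟩)
  · rw [D.Z.par_of_two_mul h] at h1
    exact zero_ne_one h1
  · exact D.Z.hne (h1 ▸ h)

lemma bv_eta {n f r u} (h : D.W0 n (.eta f r) u) : D.bv n f u = 0 := by
  obtain ⟨h1, h2⟩ := h
  unfold bv
  split_ifs with a1 a2 a3
  · rw [D.theta_eq a1 h2, h1, sub_self]
  · exfalso
    have a4 := (D.Z.par_cases _).resolve_right a1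
    have a5 := D.Z.par_of_two_mul h2
    rw [map_sub, map_mul, a4, mul_zero, sub_zero] at a5
    rw [(a2.resolve_left a1).2] at a5
    exact one_ne_zero a5
  · exfalso
    cases f with
    | none => exact a3
    | some s =>
      obtain ⟨b1, b2, -⟩ := a3
      apply D.Z.hne
      have : (2 : D.R) = 0 := by linear_combination h2 - b2 + (r : ℕ) * b1
      rw [this, zero_mul]
  · rfl

lemma bv_lam {n s u} (h : D.W0 n (.lam s) u) : D.bv n (some s) u = D.yy n (some s) u := by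
  obtain ⟨h1, h2, h3, h4⟩ := h
  obtain ⟨a1, a2⟩ := D.four_mul_eq_zero h2
  have hcell : (cell n u : D.R) = D.dd u + (n : ℕ) * D.cc u := by simp [cell, cc, dd]; ring
  unfold bv
  rw [if_neg (by rw [a1]; exact zero_ne_one)]
  rcases a2 with a2 | a2
  · rw [if_neg (D.not_kp a2)]
    have a3 : 2 * (D.dd u - 1) = 0 := by
      rw [hcell] at h3; linear_combination h3 - (n : ℕ) * a2
    rcases h4 with ⟨b1, b2⟩ | ⟨b1, b2⟩
    · rw [if_neg (fun h => h.2.2.2 b1), b2]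
    · rw [if_pos ⟨a2, a3, h1, b1⟩, b2]
  · rw [if_pos]
    refine Or.inr ⟨a2, ?_⟩
    have := D.Z.par_of_two_mul h3
    rwa [hcell, map_sub, map_add, map_mul, a1, mul_zero, add_zero, map_one, sub_eq_zero] at this

lemma bv_kap {n f u} {g : U3} (h : kp D.Z (D.cc u) (D.dd u)) (h1 : D.cc (u - g) = D.cc u)
    (h2 : D.dd (u - g) = D.dd u) :
    D.bv n f u - D.bv n f (u - g) = D.yy n f u - D.yy n f (u - g) := by
  unfold bv
  rw [h1, h2]
  split_ifs <;> ring

lemma bv_not_kap {n f u} (h : ¬ kp D.Z (D.cc u) (D.dd u)) :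
    D.bv n f u - D.bv n f (u - D.E n f) = 0 := by
  have h1 : D.cc (u - D.E n f) = D.cc u := D.cc_step _ n u
  have h2 : D.dd (u - D.E n f) = D.dd u := D.dd_step _ n u
  have h3 : cell n (u - D.E n f) = cell n u := cell_step _ n u 0
  have : D.on n f (u - D.E n f) ↔ D.on n f u := by
    cases f with
    | none => rfl
    | some s =>
      have : D.yy n none (u - D.E n (some s)) = D.yy n none u := by simp [yy, E, vn]
      simp only [on, h1, h2, h3, this]
  unfold bv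
  rw [h1, h2, if_neg (fun h' => h (Or.inl h')), if_neg (fun h' => h (Or.inl h')), if_neg h,
    if_neg h, propext this, sub_self]

lemma cross0 {s : Fin 8 → St} (hs : ¬ Om3 s) (u : U3) :
    ∃ n, D.bv n (some (s n)) u - D.bv n (some (s n)) (u - D.T n) = 0 := by
  have h1 : ∀ n, D.cc (u - D.T n) = D.cc u := fun n => by simp [cc, T]
  have h2 : ∀ n, D.dd (u - D.T n) = D.dd u := fun n => by simp [dd, T]
  have h3 : ∀ n, cell n (u - D.T n) = cell n u := fun n => by simp [cell, T]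
  by_cases hk : kp D.Z (D.cc u) (D.dd u)
  · refine ⟨0, ?_⟩
    rw [D.bv_kap hk (h1 0) (h2 0)]
    simp [yy, T]
  have hn : ∃ n, ¬ (2 * D.cc u = 0 ∧ 2 * (D.dd u - 1) = 0 ∧ D.act (s n) (cell n u)) := by
    by_contra hno
    push Not at hno
    apply hs
    obtain ⟨J, hJ⟩ := (D.two_mul_eq_zero u.1.2).1 (hno 0).1
    obtain ⟨I, hI⟩ := (D.two_mul_eq_zero (u.1.1 - 1)).1 (by push_cast; exact (hno 0).2.1)
    have hc : ∀ n : Fin 8, cell n u - 1 = 4 * 2 ^ k * (I + J * (n : ℕ)) := fun n => by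
      unfold cell
      linear_combination hI + (n : ℕ) * hJ
    have he : ∀ n : Fin 8, bz (s n).2 = (I + J * (n : ℕ)) % 2 := by
      intro n
      rw [← bz_decide]
      congr 1
      have a1 := (hno n).2.2.2
      have a2 : ((cell n u : ℤ) : D.R) - 1 =
          2 * (2 * 2 ^ k) * ((I + J * (n : ℕ) : ℤ) : D.R) := by
        have := congrArg (fun x : ℤ => (x : D.R)) (hc n)
        push_cast at this ⊢
        linear_combination this
      have a3 := D.Z.par_int (I + J * (n : ℕ))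
      rw [a2] at a1
      cases h : decide ((I + J * (n : ℕ)) % 2 = 1)
      · rw [D.Z.mul_even (by rw [a3, h]; simp)] at a1
        simpa [D.Z.hne.symm] using a1
      · rw [D.Z.mul_odd (by rw [a3, h]; simp)] at a1
        simpa using a1
    obtain ⟨a, b, hab, hp, h⟩ := sol_op I J
    refine ⟨a, b, hab, fun hh => ?_, fun n => ?_⟩
    · rw [he, he] at hh ⊢
      simp only [Fin.val_zero, Fin.val_one, Nat.cast_zero, Nat.cast_one, mul_zero,
        add_zero, mul_one] at hh ⊢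
      obtain ⟨rfl, rfl⟩ := hp (by omega)
      omega
    · have a1 := (hno n).2.2.1
      unfold dgf at a1
      rw [hc, Int.mul_ediv_cancel_left _ (by positivity)] at a1
      rw [a1]
      exact h n
  obtain ⟨n, hn⟩ := hn
  refine ⟨n, ?_⟩
  unfold bv
  rw [h1, h2, if_neg (fun h' => hk (Or.inl h')), if_neg (fun h' => hk (Or.inl h')), if_neg hk,
    if_neg hk, if_neg (fun h => hn ⟨h.1, h.2.1, h.2.2.1⟩),
    if_neg (fun h => hn ⟨h1 n ▸ h.1, h2 n ▸ h.2.1, h3 n ▸ h.2.2.1⟩), sub_self]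

end Dat

end Vale.Agent.P043
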