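import Vale.Agent.P043.Three
import Vale.Agent.P043.Rigid

/-!
An aperiodic system of tiling equations in `ℤ^d` for `d ≥ 3`.
-/

namespace Vale.Agent.P043

namespace Dat

variable {k : ℕ} (D : Dat k)

abbrev V : Type := ∀ j : JJ k, ZMod (D.q j)

def Kpar : AddSubgroup D.V :=
  ((D.Z.par.toAddMonoidHom).comp (Pi.evalAddMonoidHom (fun i => ZMod (D.q i)) none)).ker

lemma mem_Kpar (y : D.V) : y ∈ D.Kpar ↔ D.Z.par (y none) = 0 := Iff.rfl

def 𝒦 : Set (AddSubgroup D.V) := Set.range (KK D.q) ∪ {D.Kpar}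

lemma KK_mem (j) : KK D.q j ∈ D.𝒦 := Or.inl ⟨j, rfl⟩

lemma inv_none {g : U3} (h1 : (g.1.1 : D.R) = 0) (h2 : (g.1.2 : D.R) = 0)
    (h3 : (D.q none : ℤ) ^ 2 ∣ g.2) : Inv D.o0 (KK D.q none) g :=
  D.inv_o0 h3 fun u => by simp [base, h1, h2]

lemma inv_none_step (n β) : Inv D.o0 (KK D.q none) ((D.carriers n).step β) :=
  D.inv_none (by simp [Carriers.step, carriers, vn]) (by simp [Carriers.step, carriers, vn])
    (by simp [Carriers.step])

lemma inv_vl_step (n f β) : Inv D.o0 (KK D.q (vl n f)) ((D.carriers n).step β) :=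
  D.inv_o0 (by simp [Carriers.step]) fun u => D.bv_congr n f (D.cc_step _ n u) (D.dd_step _ n u)
    (D.yy_step n β f u) (D.yy_step n β none u) (cell_step _ n u 0)

lemma enf_imp' (n : Fin 8) (β : BB k) {j : JJ k} (hj : cr n β ≠ j) {g : U3} {x : ZMod (D.q j)}
    (h1 : Inv D.o0 (KK D.q j) ((D.carriers n).step β)) (h2 : Inv D.o0 (KK D.q (cr n β)) g)
    (h3 : (D.q j : ℤ) ^ 2 ∣ g.2)
    (h0 : ∀ u, D.W0 n β u → D.base u j - D.base (u - g) j = x) :
    Enf D.𝒦 D.o0 fun o => ∀ u, (D.carriers n).W o β u → o u j - o (u - g) j = x := by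
  refine ((D.carriers n).enf_imp D.hm1 D.KK_mem (D.KK_mem j) (c := Pi.single j x)
    (Pi.single_eq_of_ne hj _) h1 h2 fun u hu => ?_).mono fun o _ h u hu => ?_
  · simp only [mem_KK, Pi.sub_apply, Pi.single_eq_same, D.diff_o0 h3, h0 u hu, sub_self]
  · simpa only [mem_KK, Pi.sub_apply, Pi.single_eq_same, sub_eq_zero] using h u hu

lemma inv_cr (n : Fin 8) (β : BB k) {g : U3} (h : ∀ u, D.W0 n β (u - g) ↔ D.W0 n β u)
    (h1 : ((g.1.2 : ℤ) : ZMod (D.q (cr n β))) = 0) (h2 : (D.q (cr n β) : ℤ) ^ 2 ∣ g.2) :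
    Inv D.o0 (KK D.q (cr n β)) g :=
  (D.carriers n).inv_car h ((ZMod.intCast_zmod_eq_zero_iff_dvd _ _).1 h1) h2

@[simp] lemma m_vl_cr (n n' β f) : (D.m (vl n f) : ZMod (D.q (cr n' β))) = 0 := D.hm0 (by simp)

lemma sq_T (n n' β) : (D.q (cr n β) : ℤ) ^ 2 ∣ (D.T n').2 := D.hm2 _ _ (by simp)

lemma cc_E (n f u) : D.cc (u - D.E n f) = D.cc u := D.cc_step _ n u
lemma dd_E (n f u) : D.dd (u - D.E n f) = D.dd u := D.dd_step _ n u
lemma cell_E (n f u) : cell n (u - D.E n f) = cell n u := cell_step _ n u 0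
lemma cc_T (n u) : D.cc (u - D.T n) = D.cc u := by simp [cc, T]
lemma dd_T (n u) : D.dd (u - D.T n) = D.dd u := by simp [dd, T]
lemma cell_T (n n' u) : cell n (u - D.T n') = cell n u := by simp [cell, T]

lemma i_zs (n c) : Inv D.o0 (KK D.q (cr n (.zs c))) D.e1 :=
  D.inv_cr n _ (fun u => by simp [W0, cc, e1]) (by simp [e1]) (by simp [e1])
lemma i_zr (n c) : Inv D.o0 (KK D.q (cr n (.zr c))) D.e2 :=
  D.inv_cr n _ (fun u => by simp [W0, dd, e2]) (by simp [e2]) (by simp [e2])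
lemma i_zd (n x) : Inv D.o0 (KK D.q (cr n (.zd x))) (D.e1 + D.e2) :=
  D.inv_cr n _ (fun u => by
    have : D.cc (u - (D.e1 + D.e2)) + D.dd (u - (D.e1 + D.e2)) = D.cc u + D.dd u - 2 := by
      simp [cc, dd, e1, e2]; ring
    simp only [W0, this, map_sub, D.Z.par_two, sub_zero]) (by simp [e1, e2]) (by simp [e1, e2])
lemma i_kap_E (n x f) : Inv D.o0 (KK D.q (cr n (.kap x))) (D.E n f) :=
  D.inv_cr n _ (fun u => by simp only [W0, cc_E, dd_E]) (by simp [E, vn]) (by simp [E])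
lemma i_kap_T (n x) : Inv D.o0 (KK D.q (cr n (.kap x))) (D.T n) :=
  D.inv_cr n _ (fun u => by simp only [W0, cc_T, dd_T]) (by simp [T]) (D.sq_T _ _ _)

lemma eta_inv (n f r u) : D.W0 n (.eta f r) (u - (((r : ℕ) : ℤ) • D.e1 + D.e2)) ↔
    D.W0 n (.eta f r) u := by
  have h1 : D.yy n f (u - (((r : ℕ) : ℤ) • D.e1 + D.e2)) = D.yy n f u := by
    cases f <;> simp [yy, e1, e2]
  have h2 : D.dd (u - (((r : ℕ) : ℤ) • D.e1 + D.e2)) -
      (r : ℕ) * D.cc (u - (((r : ℕ) : ℤ) • D.e1 + D.e2)) = D.dd u - (r : ℕ) * D.cc u := by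
    simp [cc, dd, e1, e2]; ring
  simp only [W0, h1, h2]

lemma i_eta (n f r) : Inv D.o0 (KK D.q (cr n (.eta f r))) (((r : ℕ) : ℤ) • D.e1 + D.e2) :=
  D.inv_cr n _ (D.eta_inv n f r) (by simp [e1, e2]) (by simp [e1, e2])

lemma yy_H (n : Fin 8) (x : ℤ) (f u) :
    D.yy n f (u - x • (D.e2 - ((n : ℕ) : ℤ) • D.e1)) = D.yy n f u := by
  cases f <;> simp [yy, e1, e2]

lemma cell_H (n : Fin 8) (x : ℤ) (u) :
    cell n (u - x • (D.e2 - ((n : ℕ) : ℤ) • D.e1)) = cell n u := by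
  simp [cell, e1, e2]; ring

lemma lam_inv (n s u) : D.W0 n (.lam s) (u - (2 * 2 ^ k : ℤ) • (D.e2 - ((n : ℕ) : ℤ) • D.e1)) ↔
    D.W0 n (.lam s) u := by
  have h2 : 4 * D.cc (u - (2 * 2 ^ k : ℤ) • (D.e2 - ((n : ℕ) : ℤ) • D.e1)) = 4 * D.cc u := by
    have := D.Z.h4
    simp [cc, e1, e2]; linear_combination -this
  simp only [W0, yy_H, cell_H, h2]

lemma i_lam (n s) : Inv D.o0 (KK D.q (cr n (.lam s)))
    ((2 * 2 ^ k : ℤ) • (D.e2 - ((n : ℕ) : ℤ) • D.e1)) :=
  D.inv_cr n _ (D.lam_inv n s) (by simp [e1, e2]) (by simp [e1, e2])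

lemma i_pi1 (n f r) : Inv D.o0 (KK D.q (cr n (.pi f r))) D.e1 :=
  D.inv_cr n _ (fun u => by cases f <;> simp [W0, yy, e1]) (by simp [e1]) (by simp [e1])
lemma i_pi2 (n r) : Inv D.o0 (KK D.q (cr n (.pi none r))) (D.E n none - D.T n) :=
  D.inv_cr n _ (fun u => by simp [W0, yy, E, T, vn]) (by simp [E, T, vn])
    (by simpa [E] using D.sq_T _ _ _)
lemma i_pi3 (n s r) : Inv D.o0 (KK D.q (cr n (.pi none r))) (D.E n (some s)) :=
  D.inv_cr n _ (fun u => by simp [W0, yy, E, vn]) (by simp [E, vn]) (by simp [E])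
lemma i_pi4 (n s r) : Inv D.o0 (KK D.q (cr n (.pi (some s) r))) (D.T n) :=
  D.inv_cr n _ (fun u => by simp [W0, yy, T]) (by simp [T]) (D.sq_T _ _ _)
lemma i_dg1 (n σ) : Inv D.o0 (KK D.q (cr n (.dg σ))) (D.e2 - ((n : ℕ) : ℤ) • D.e1) :=
  D.inv_cr n _ (fun u => by
    have := D.cell_H n 1 u
    rw [one_smul] at this
    simp only [W0, this]) (by simp [e1, e2]) (by simp [e1, e2])
lemma i_dg2 (n σ f) : Inv D.o0 (KK D.q (cr n (.dg σ))) (D.E n f) :=
  D.inv_cr n _ (fun u => by simp only [W0, cell_E]) (by simp [E, vn]) (by simp [E])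
lemma i_dg3 (n σ) : Inv D.o0 (KK D.q (cr n (.dg σ))) (D.T n) :=
  D.inv_cr n _ (fun u => by simp only [W0, cell_T]) (by simp [T]) (D.sq_T _ _ _)

lemma i_b (n s n') (h : n' ≠ n) : Inv D.o0 (KK D.q (vl n (some s))) (D.T n') :=
  D.inv_o0 (D.hm2 _ _ (by simp)) fun u => D.bv_congr n _ (D.cc_T _ _) (D.dd_T _ _)
    (by simp [yy, T]) (by simp [yy, T, D.hm0 (j := vl n' none) (j' := vl n none) (by simpa using h.symm)])
    (D.cell_T _ _ _)

/-- The enforced constraints. -/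
def Q (o : U3 → D.V) : Prop :=
  (∀ n u, Lg D.Z (fun f => D.q (vl n f)) n fun β => (D.carriers n).W o β u) ∧
  (∀ n c u, (D.carriers n).W o (.zs c) u → o u none - o (u - D.e1) none = ((c : ℕ) : D.R)) ∧
  (∀ n c u, (D.carriers n).W o (.zr c) u → o u none - o (u - D.e2) none = ((c : ℕ) : D.R)) ∧
  (∀ n x u, (D.carriers n).W o (.zd x) u →
    D.Z.par (o u none - o (u - (D.e1 + D.e2)) none) = if x then 1 else 0) ∧
  (∀ n x f u, (D.carriers n).W o (.kap x) u →
    o u (vl n f) - o (u - D.E n f) (vl n f) = if x then 1 else 0) ∧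
  (∀ n s u, (D.carriers n).W o (.kap true) u →
    o u (vl n (some s)) - o (u - D.T n) (vl n (some s)) = 0) ∧
  (∀ n f r u, (D.carriers n).W o (.eta f r) u →
    o u (vl n f) - o (u - (((r : ℕ) : ℤ) • D.e1 + D.e2)) (vl n f) = 0) ∧
  (∀ n s u, (D.carriers n).W o (.lam s) u → o u (vl n (some s)) -
    o (u - (2 * 2 ^ k : ℤ) • (D.e2 - ((n : ℕ) : ℤ) • D.e1)) (vl n (some s)) = 0) ∧
  (∀ s : Fin 8 → St, ¬ Om3 s →
    ∀ u, ∃ n, o u (vl n (some (s n))) - o (u - D.T n) (vl n (some (s n))) = 0)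

lemma enf_Q : Enf D.𝒦 D.o0 D.Q := by
  have : Nonempty (BB k) := ⟨.zd true⟩
  refine Enf.and (Enf.all fun n => (D.carriers n).enf_logic D.hm1 D.hm2 D.KK_mem (D.logic0 n))
    (Enf.and (Enf.all fun n => Enf.all fun c => ?_) (Enf.and (Enf.all fun n => Enf.all fun c => ?_)
    (Enf.and (Enf.all fun n => Enf.all fun x => ?_)
    (Enf.and (Enf.all fun n => Enf.all fun x => Enf.all fun f => ?_)
    (Enf.and (Enf.all fun n => Enf.all fun s => ?_)
    (Enf.and (Enf.all fun n => Enf.all fun f => Enf.all fun r => ?_)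
    (Enf.and (Enf.all fun n => Enf.all fun s => ?_) (Enf.all fun s => Enf.imp fun hs => ?_))))))))
  · refine D.enf_imp' n _ (by simp) (D.inv_none_step n _) (D.i_zs n c) (by simp [e1])
      fun u hu => ?_
    rw [show ((c : ℕ) : D.R) = D.cc u from hu]
    simp [base, cc, e1]; ring
  · refine D.enf_imp' n _ (by simp) (D.inv_none_step n _) (D.i_zr n c) (by simp [e2])
      fun u hu => ?_
    rw [show ((c : ℕ) : D.R) = D.dd u from hu]
    simp [base, dd, e2]; ring
  · refine ((D.carriers n).enf_imp D.hm1 D.KK_mem (K := D.Kpar) (Or.inr rfl)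
      (c := Pi.single none (if x then 1 else 0)) (Pi.single_eq_of_ne (by simp [carriers]) _)
      (fun u => ?_) (D.i_zd n x) fun u hu => ?_).mono fun o _ h u hu => ?_
    · have := D.inv_none_step n (.zd x) u
      rw [mem_KK] at this
      rw [mem_Kpar, this, map_zero]
    · have e : D.base u none - D.base (u - (D.e1 + D.e2)) none = D.cc u + D.dd u - 1 := by
        simp [base, cc, dd, e1, e2]; ring
      have hu' : D.Z.par (D.cc u + D.dd u) = if x then 0 else 1 := hu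
      rw [mem_Kpar, Pi.sub_apply, Pi.sub_apply, D.diff_o0 (by simp [e1, e2]), e,
        Pi.single_eq_same, map_sub, map_sub, hu', map_one]
      cases x
      · simp
      · simp only [if_true, map_one]; decide
    · have := h u hu
      rw [mem_Kpar, Pi.sub_apply, Pi.sub_apply, Pi.single_eq_same, map_sub, sub_eq_zero] at this
      rw [this]
      cases x <;> simp
  · refine D.enf_imp' n _ (by simp) (D.inv_vl_step n f _) (D.i_kap_E n x f) (by simp [E])
      fun u hu => ?_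
    cases x
    · exact D.bv_not_kap (by simpa [W0] using hu)
    · refine (D.bv_kap (by simpa [W0] using hu) (D.cc_E _ _ _) (D.dd_E _ _ _)).trans ?_
      cases f <;> simp [yy, E, vn]
  · refine D.enf_imp' n _ (by simp) (D.inv_vl_step n _ _) (D.i_kap_T n _) (D.hm2 _ _ (by simp))
      fun u hu => ?_
    refine (D.bv_kap (by simpa [W0] using hu) (D.cc_T _ _) (D.dd_T _ _)).trans ?_
    simp [yy, T]
  · refine D.enf_imp' n _ (by simp) (D.inv_vl_step n _ _) (D.i_eta n f r) (by simp [e1, e2])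
      fun u hu => ?_
    change D.bv n f u - D.bv n f _ = 0
    rw [D.bv_eta hu, D.bv_eta ((D.eta_inv n f r u).2 hu), sub_self]
  · refine D.enf_imp' n _ (by simp) (D.inv_vl_step n _ _) (D.i_lam n s) (by simp [e1, e2])
      fun u hu => ?_
    change D.bv n _ u - D.bv n _ _ = 0
    rw [D.bv_lam hu, D.bv_lam ((D.lam_inv n s u).2 hu), yy_H, sub_self]
  · refine (enf_clause (K := fun n => KK D.q (vl n (some (s n)))) (e := D.T) (c := fun _ => 0)
      (fun n => D.KK_mem _) (fun _ _ _ => zero_mem _) (fun n n' h => D.i_b n _ n' h)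
      fun u => ?_).mono fun o _ h u => by simpa using h u
    obtain ⟨n, hn⟩ := D.cross0 hs u
    refine ⟨n, ?_⟩
    rw [sub_zero, mem_KK, Pi.sub_apply, D.diff_o0 (D.hm2 _ _ (by simp))]
    exact hn

lemma not_per (o : U3 → D.V) (ho : InvAll D.𝒦 D.o0 o) (hQ : D.Q o) : ¬ Per (gr o) := by
  rintro ⟨M, hM, hper⟩
  obtain ⟨q1, q2, q3, q4, q5, q6, q7, q8, q9⟩ := hQ
  have hW : ∀ {n β g}, Inv D.o0 (KK D.q (cr n β)) g →
      ∀ u, (D.carriers n).W o β (u - g) ↔ (D.carriers n).W o β u := fun h =>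
    (D.carriers _).W_inv (ho _ (D.KK_mem _) _ h)
  have hI : ∀ {j g}, Inv D.o0 (KK D.q j) g → ∀ u, o (u - g) j = o u j := fun h =>
    (inv_KK D.q).1 (ho _ (D.KK_mem _) _ h)
  let S : Sys3 D.Z (fun n f => D.q (vl n f)) U3 :=
    { e1 := D.e1
      e2 := D.e2
      E := D.E
      T := D.T
      a := fun u => o u none
      b := fun n f u => o u (vl n f)
      W := fun n => (D.carriers n).W o
      ia1 := fun n f => hI (D.inv_none (by simp [E, vn]) (by simp [E, vn]) (by simp [E]))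
      ia2 := fun n => hI (D.inv_none (by simp [T]) (by simp [T]) (D.hm2 _ _ (by simp)))
      izs := fun n c => hW (D.i_zs n c)
      izr := fun n c => hW (D.i_zr n c)
      ms := q2
      mr := q3
      md := q4
      mq := q5
      mt := q6
      me := q7
      ml := q8
      ipi1 := fun n f r => hW (D.i_pi1 n f r)
      ipi2 := fun n r => hW (D.i_pi2 n r)
      ipi3 := fun n s r => hW (D.i_pi3 n s r)
      ipi4 := fun n s r => hW (D.i_pi4 n s r)
      idg1 := fun n σ => hW (D.i_dg1 n σ)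
      idg2 := fun n σ f => hW (D.i_dg2 n σ f)
      idg3 := fun n σ => hW (D.i_dg3 n σ)
      ib := fun n s n' h => hI (D.i_b n s n' h)
      logic := q1
      cross := q9 }
  refine S.aperiodic D.hqle hM fun n σ => (D.carriers n).W_inv ?_
  rw [inv_KK]
  intro u
  have := hper (-D.e1, 0) (u, o u) rfl
  simp only [gr, Prod.smul_mk, smul_zero, Prod.mk_add_mk, add_zero, Set.mem_ofPred_eq, smul_neg,
    ← sub_eq_add_neg] at this
  rw [this, natCast_zsmul]

lemma base_add {P : ℤ} (hP : ∀ j, (D.q j : ℤ) ∣ P) (u : U3) (j : JJ k) :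
    D.base (u + (0, P)) j = D.base u j := by
  have h1 : D.cc (u + (0, P)) = D.cc u := by simp [cc]
  have h2 : D.dd (u + (0, P)) = D.dd u := by simp [dd]
  have h3 : ∀ n, cell n (u + (0, P)) = cell n u := fun n => by simp [cell]
  have h4 : ∀ n f, D.yy n f (u + (0, P)) = D.yy n f u := fun n f => by
    cases f <;> simp [yy, (ZMod.intCast_zmod_eq_zero_iff_dvd _ _).2 (hP _)]
  rcases j with _ | ⟨n, f | β⟩
  · simp [base]
  · exact D.bv_congr n f h1 h2 (h4 _ _) (h4 _ _) (h3 _)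
  · simp only [base]
    rw [propext (D.W0_congr n β h1 h2 (h4 n) (h3 n))]
    simp

theorem aper (hq : Pairwise fun i j => (D.q i).Coprime (D.q j)) (d : ℕ) (hd : 3 ≤ d) :
    ∃ 𝓗 : Set (D.V → (Fin d → ℤ)), Aper 𝓗 := by
  obtain ⟨P, hP⟩ := crt (fun j => D.q j ^ 2) (fun i j h => (hq h).pow 2 2) fun j => (D.q j : ℕ)
  have hP1 : ∀ j, (D.q j : ℤ) ^ 2 ∣ P - D.q j := fun j => by
    have := (ZMod.intCast_zmod_eq_zero_iff_dvd (P - D.q j) (D.q j ^ 2)).1 (by
      push_cast; rw [hP, sub_self])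
    exact_mod_cast this
  have hP2 : ∀ j, (D.q j : ℤ) ∣ P := fun j => by
    have := ((Dvd.intro _ (sq _).symm).trans (hP1 j)).add (dvd_refl (D.q j : ℤ))
    rwa [sub_add_cancel] at this
  let l0 : U3 × D.V := ((0, P), 1)
  let N := AddSubgroup.zmultiples l0
  have hl0 : ∀ a, a ∈ gr D.o0 ↔ a + l0 ∈ gr D.o0 := by
    rintro ⟨u, v⟩
    have : D.o0 (u + (0, P)) = D.o0 u + 1 := by
      funext j
      simp only [o0, D.base_add hP2, Prod.snd_add, tw_add (NeZero.ne _) (hP1 j), Pi.add_apply,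
        Pi.one_apply, add_assoc]
    simp [gr, l0, this]
  obtain ⟨𝓕, h𝓕⟩ := aper_of_enf (𝒦 := D.𝒦)
    ((Set.finite_range _).union (Set.finite_singleton _)) D.enf_Q D.not_per
    (QuotientAddGroup.mk' N) (QuotientAddGroup.mk'_surjective N) (by
      intro l hl
      rw [QuotientAddGroup.ker_mk'] at hl
      exact inv_closure (S := {l0}) (by rintro _ rfl; exact hl0)
        (AddSubgroup.zmultiples_eq_closure l0 ▸ hl))
  let i0 : Fin d := ⟨0, by omega⟩
  let i1 : Fin d := ⟨1, by omega⟩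
  let i2 : Fin d := ⟨2, by omega⟩
  let ι : (Fin d → ℤ) →+ U3 × D.V :=
    { toFun := fun x => (((x i0, x i1), x i2), 0)
      map_zero' := by ext <;> simp
      map_add' := fun x y => by ext <;> simp }
  have hπ : Function.Surjective ((QuotientAddGroup.mk' N).comp ι) := by
    intro g
    obtain ⟨⟨⟨⟨a, b⟩, t⟩, v⟩, rfl⟩ := QuotientAddGroup.mk'_surjective N g
    obtain ⟨n, hn⟩ := crt D.q hq v
    refine ⟨fun i => if i.val = 0 then a else if i.val = 1 then b else t - n * P, ?_⟩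
    rw [AddMonoidHom.comp_apply, QuotientAddGroup.mk'_eq_mk']
    refine ⟨n • l0, AddSubgroup.zsmul_mem _ (AddSubgroup.mem_zmultiples _) _, ?_⟩
    ext <;> simp [ι, l0, i0, i1, i2, hn]
  have hfg : ((QuotientAddGroup.mk' N).comp ι).ker.FG := by
    rw [← AddSubgroup.toIntSubmodule_toAddSubgroup (AddMonoidHom.ker _),
      ← Submodule.fg_iff_addSubgroup_fg]
    exact IsNoetherian.noetherian _
  exact h𝓕.lift _ hπ hfg

end Dat

lemma exists_steps {ι : Type} [Fintype ι] [DecidableEq ι] (a : ι → ℕ)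
    (h : Pairwise fun i j => (a i).Coprime (a j)) (i : ι) :
    ∃ m : ℤ, (m : ZMod (a i)) = 1 ∧ ∀ j, j ≠ i → (a j : ℤ) ^ 2 ∣ m := by
  obtain ⟨m, hm⟩ := crt (fun j => a j ^ 2) (fun i j h' => (h h').pow 2 2)
    fun j => if j = i then 1 else 0
  refine ⟨m, ?_, fun j hj => ?_⟩
  · have := congrArg (ZMod.castHom (Dvd.intro _ (sq (a i)).symm) (ZMod (a i))) (hm i)
    simpa using this
  · have := hm j
    rw [if_neg hj, ZMod.intCast_zmod_eq_zero_iff_dvd] at this
    exact_mod_cast this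

lemma exists_dat : ∃ (k : ℕ) (D : Dat k), Pairwise fun i j => (D.q i).Coprime (D.q j) := by
  obtain ⟨N, ⟨e⟩⟩ := Finite.exists_equiv_fin (Fin 8 × Option St)
  obtain ⟨k, hk⟩ : ∃ k, k = 2 ^ N := ⟨_, rfl⟩
  obtain ⟨N', ⟨e'⟩⟩ := Finite.exists_equiv_fin (Fin 8 × BB k)
  let idx : Fin 8 × (Option St ⊕ BB k) → ℕ := fun p => match p with
    | (n, Sum.inl f) => e (n, f)
    | (n, Sum.inr β) => N + e' (n, β)
  have hidx : Function.Injective idx := by
    rintro ⟨n, f | β⟩ ⟨n', f' | β'⟩ h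
    · have := e.injective (Fin.ext h)
      simp_all
    · have := (e (n, f)).2
      simp only [idx] at h
      omega
    · have := (e (n', f')).2
      simp only [idx] at h
      omega
    · have := e'.injective (Fin.ext (Nat.add_left_cancel h))
      simp_all
  let q : JJ k → ℕ := fun j => match j with
    | none => 8 * 2 ^ k
    | some p => Nat.fermatNumber (idx p)
  have h2 : ∀ i, (8 * 2 ^ k).Coprime (Nat.fermatNumber i) := fun i => by
    rw [show 8 * 2 ^ k = 2 ^ (k + 3) by ring]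
    exact Nat.Coprime.pow_left _ (Nat.coprime_two_left.2 (Nat.odd_fermatNumber _))
  have hq : Pairwise fun i j => (q i).Coprime (q j) := by
    rintro (_ | i) (_ | j) h
    · exact absurd rfl h
    · exact h2 _
    · exact (h2 _).symm
    · exact Nat.coprime_fermatNumber_fermatNumber fun h' => h (congrArg some (hidx h'))
  choose m hm1 hm2 using exists_steps q hq
  refine ⟨k, ⟨q, m, rfl, ?_, fun n f => ?_, hm1, hm2⟩, hq⟩
  · rintro (_ | p)
    · have := Nat.one_le_two_pow (n := k)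
      change 1 < 8 * 2 ^ k
      omega
    · exact (Nat.two_lt_fermatNumber _).trans' one_lt_two
  · change 2 ^ 2 ^ ((e (n, f) : ℕ)) + 1 ≤ _
    have h1 : 2 ^ 2 ^ ((e (n, f) : ℕ)) ≤ 2 ^ k := by
      rw [hk]
      exact Nat.pow_le_pow_right (by norm_num) (Nat.pow_le_pow_right (by norm_num) (e (n, f)).2.le)
    have := Nat.one_le_two_pow (n := k)
    omega

theorem exists_rigidTile_three (d : ℕ) (hd : 3 ≤ d) : ∃ F : Finset (Fin d → ℤ), RigidTile F := by
  obtain ⟨k, D, hq⟩ := exists_dat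
  obtain ⟨𝓗, h⟩ := D.aper hq d hd
  exact rigidTile_of_aper (by omega) h

end Vale.Agent.P043
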